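import Vale.Agent.P114.FD

/-! Averages over a random shift, dyadic labels, masses and entropies. -/

namespace Vale.Agent.P114
open Finset MeasureTheory

/-- Measurable functions with finitely many values. -/
def Simple {α : Type*} (f : ℝ → α) : Prop :=
  (∀ c, MeasurableSet (f ⁻¹' {c})) ∧ (Set.range f).Finite

lemma Simple.const {α : Type*} (c : α) : Simple fun _ => c :=
  ⟨fun _ => MeasurableSet.const _, (Set.finite_singleton c).subset (by rintro _ ⟨_, rfl⟩; rfl)⟩

lemma Simple.comp2 {α β γ : Type*} (g : α → β → γ) {f₁ : ℝ → α} {f₂ : ℝ → β} (h₁ : Simple f₁)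
    (h₂ : Simple f₂) : Simple fun u => g (f₁ u) (f₂ u) := by
  let F₁ : SimpleFunc ℝ α := ⟨f₁, h₁.1, h₁.2⟩
  let F₂ : SimpleFunc ℝ β := ⟨f₂, h₂.1, h₂.2⟩
  let G := (F₁.pair F₂).map fun z => g z.1 z.2
  exact ⟨G.measurableSet_fiber, G.finite_range⟩

lemma Simple.comp {α γ : Type*} (g : α → γ) {f : ℝ → α} (h : Simple f) :
    Simple fun u => g (f u) := Simple.comp2 (fun a _ => g a) h h

lemma Simple.sum {ι : Type*} (s : Finset ι) {f : ι → ℝ → ℝ} (h : ∀ i ∈ s, Simple (f i)) :
    Simple fun u => ∑ i ∈ s, f i u := by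
  classical
  induction s using Finset.induction_on with
  | empty => simpa using Simple.const (0 : ℝ)
  | insert a s ha ih =>
    simp only [sum_insert ha]
    exact Simple.comp2 (· + ·) (h a (mem_insert_self _ _))
      (ih fun i hi => h i (mem_insert_of_mem hi))

lemma Simple.E (ν : FD) {F : ℝ → ℝ → ℝ} (h : ∀ x, Simple (F x)) :
    Simple fun u => E ν fun x => F x u :=
  Simple.sum _ fun x _ => (h x).comp (ν.coeff x * ·)

lemma Simple.shift {α : Type*} {f : ℝ → α} (h : Simple f) (x : ℝ) : Simple fun u => f (u + x) :=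
  ⟨fun c => (measurable_add_const x) (h.1 c), h.2.subset (by rintro _ ⟨_, rfl⟩; exact ⟨_, rfl⟩)⟩

lemma simple_ind {P : ℝ → Prop} (h : MeasurableSet {u | P u}) : Simple fun u => ind (P u) := by
  classical
  let G : SimpleFunc ℝ ℝ := SimpleFunc.piecewise _ h (SimpleFunc.const _ 1) (SimpleFunc.const _ 0)
  have : (fun u => ind (P u)) = G := funext fun u => by
    by_cases hu : P u <;> simp [G, ind, hu]
  rw [this]
  exact ⟨G.measurableSet_fiber, G.finite_range⟩

lemma Simple.integrable {f : ℝ → ℝ} (h : Simple f) : IntervalIntegrable f volume 0 1 := by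
  let F : SimpleFunc ℝ ℝ := ⟨f, h.1, h.2⟩
  rw [intervalIntegrable_iff]
  have : IsFiniteMeasure (volume.restrict (Set.uIoc (0 : ℝ) 1)) :=
    ⟨by simp⟩
  exact F.integrable_of_isFiniteMeasure

/-- Average over the unit interval. -/
noncomputable def Avg (f : ℝ → ℝ) : ℝ := ∫ u in (0:ℝ)..1, f u

variable {f g : ℝ → ℝ}

lemma Avg_const (c : ℝ) : Avg (fun _ => c) = c := by simp [Avg]

lemma Avg_add (hf : Simple f) (hg : Simple g) : Avg (fun u => f u + g u) = Avg f + Avg g :=
  intervalIntegral.integral_add hf.integrable hg.integrable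

lemma Avg_sub (hf : Simple f) (hg : Simple g) : Avg (fun u => f u - g u) = Avg f - Avg g :=
  intervalIntegral.integral_sub hf.integrable hg.integrable

lemma Avg_const_mul (c : ℝ) (f : ℝ → ℝ) : Avg (fun u => c * f u) = c * Avg f :=
  intervalIntegral.integral_const_mul _ _

lemma Avg_mono (hf : Simple f) (hg : Simple g) (h : ∀ u, f u ≤ g u) : Avg f ≤ Avg g :=
  intervalIntegral.integral_mono zero_le_one hf.integrable hg.integrable h

lemma Avg_le (hf : Simple f) {c : ℝ} (h : ∀ u, f u ≤ c) : Avg f ≤ c :=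
  (Avg_mono hf (Simple.const c) h).trans_eq (Avg_const c)

lemma le_Avg (hf : Simple f) {c : ℝ} (h : ∀ u, c ≤ f u) : c ≤ Avg f :=
  (Avg_const c).symm.trans_le (Avg_mono (Simple.const c) hf h)

lemma Avg_nonneg (h : ∀ u, 0 ≤ f u) : 0 ≤ Avg f :=
  intervalIntegral.integral_nonneg_of_forall zero_le_one h

lemma Avg_sum {ι : Type*} (s : Finset ι) {f : ι → ℝ → ℝ} (h : ∀ i ∈ s, Simple (f i)) :
    Avg (fun u => ∑ i ∈ s, f i u) = ∑ i ∈ s, Avg (f i) :=
  intervalIntegral.integral_finsetSum fun i hi => (h i hi).integrable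

lemma Avg_E (ν : FD) {F : ℝ → ℝ → ℝ} (h : ∀ x, Simple (F x)) :
    Avg (fun u => E ν fun x => F x u) = E ν fun x => Avg (F x) :=
  E_integral ν F fun x => (h x).integrable

lemma Avg_shift (hf : Function.Periodic f 1) (x : ℝ) : Avg (fun u => f (u + x)) = Avg f := by
  rw [Avg, intervalIntegral.integral_comp_add_right, add_comm 1 x, zero_add,
    hf.intervalIntegral_add_eq x 0, zero_add, Avg]

/-- The dyadic label of level `k` with shift `u`. -/
noncomputable def lb (k : ℕ) (u x : ℝ) : ℤ := ⌊2 ^ k * (x + u)⌋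

lemma lb_add_one (k : ℕ) (u x : ℝ) : lb k (u + 1) x = lb k u x + 2 ^ k := by
  rw [lb, lb, ← add_assoc, mul_add, mul_one]
  exact_mod_cast Int.floor_add_natCast (2 ^ k * (x + u)) (2 ^ k)

lemma lb_add (k : ℕ) (u a x : ℝ) : lb k u (a + x) = lb k (u + a) x := by
  rw [lb, lb]; congr 2; ring

lemma lb_succ (k : ℕ) (u x : ℝ) : lb k u x = lb (k + 1) u x / 2 := by
  rw [lb, lb, ← Nat.cast_ofNat (R := ℤ), ← Int.floor_div_natCast]
  congr 1
  push_cast
  ring

lemma lb_refine {k K : ℕ} (h : k ≤ K) {u x y : ℝ} (e : lb K u y = lb K u x) :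
    lb k u y = lb k u x := by
  induction K, h using Nat.le_induction with
  | base => exact e
  | succ K _ ih => exact ih (by rw [lb_succ K u y, lb_succ K u x, e])

lemma measurable_lb (k : ℕ) (x : ℝ) : Measurable fun u => lb k u x := by
  unfold lb; fun_prop

lemma simple_lb_eq (k : ℕ) (x y : ℝ) : Simple fun u => ind (lb k u y = lb k u x) :=
  simple_ind (measurableSet_eq_fun (measurable_lb k y) (measurable_lb k x))

lemma abs_lt_of_lb_eq {k : ℕ} {u x y : ℝ} (h : lb k u y = lb k u x) :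
    |y - x| < 1 / 2 ^ k := by
  have := Int.abs_sub_lt_one_of_floor_eq_floor h
  rw [← mul_sub, add_sub_add_right_eq_sub, abs_mul, abs_of_pos (by positivity)] at this
  rw [lt_div_iff₀ (by positivity), mul_comm]
  exact this

lemma abs_floor_sub_le {a b : ℝ} {K : ℕ} (h : |a - b| ≤ K) : |⌊a⌋ - ⌊b⌋| ≤ K := by
  rw [abs_le] at h ⊢
  have h1 := Int.floor_mono (show a ≤ b + K by linarith)
  have h2 := Int.floor_mono (show b ≤ a + K by linarith)
  rw [Int.floor_add_natCast] at h1 h2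
  constructor <;> linarith

lemma Avg_lb_ne (k : ℕ) (x y : ℝ) :
    Avg (fun u => ind (lb k u y ≠ lb k u x)) ≤ 2 ^ k * |y - x| := by
  wlog hxy : x ≤ y generalizing x y
  · simpa only [ne_comm, abs_sub_comm] using this y x (le_of_not_ge hxy)
  let F : ℝ → ℝ := fun u => Int.fract (2 ^ k * u)
  have hF : Function.Periodic F 1 := fun u => by
    simp only [F, mul_add, mul_one]
    exact_mod_cast Int.fract_add_natCast (2 ^ k * u) (2 ^ k)
  have hi : ∀ z, IntervalIntegrable (fun u => F (u + z)) volume 0 1 := fun z => by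
    rw [intervalIntegrable_iff]
    refine Measure.integrableOn_of_bounded (M := 1) (by simp)
      (Measurable.aestronglyMeasurable (by unfold F; fun_prop)) (ae_of_all _ fun u => ?_)
    rw [Real.norm_of_nonneg (Int.fract_nonneg _)]
    exact (Int.fract_lt_one _).le
  have hs : Simple fun u => ind (lb k u y ≠ lb k u x) :=
    simple_ind (measurableSet_eq_fun (measurable_lb k y) (measurable_lb k x)).compl
  refine (intervalIntegral.integral_mono zero_le_one hs.integrable
    (((intervalIntegrable_const (c := 2 ^ k * |y - x|)).add (hi x)).sub (hi y)) fun u => ?_).trans_eq ?_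
  · have e : 2 ^ k * |y - x| + F (u + x) - F (u + y) = ((lb k u y - lb k u x : ℤ) : ℝ) := by
      rw [abs_of_nonneg (sub_nonneg.2 hxy)]
      simp only [F, Int.fract, lb, add_comm u, Int.cast_sub]
      ring
    change _ ≤ 2 ^ k * |y - x| + F (u + x) - F (u + y)
    have hle : lb k u x ≤ lb k u y := Int.floor_mono (by gcongr)
    rw [e]
    by_cases h : lb k u y = lb k u x
    · rw [ind_neg (not_not.2 h), h]; simp
    · rw [ind_pos h]
      exact_mod_cast (show (1 : ℤ) ≤ lb k u y - lb k u x by omega)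
  · rw [intervalIntegral.integral_sub (intervalIntegrable_const.add (hi x)) (hi y),
      intervalIntegral.integral_add intervalIntegrable_const (hi x)]
    have h1 := Avg_shift hF x
    have h2 := Avg_shift hF y
    simp only [Avg] at h1 h2
    rw [h1, h2]
    simp

/-- Mass of the cell of `x`. -/
noncomputable def ms (ν : FD) (c : ℝ → ℤ) (x : ℝ) : ℝ := E ν fun y => ind (c y = c x)

/-- Mass of the closed ball around `x`. -/
noncomputable def bm (ν : FD) (r x : ℝ) : ℝ := E ν fun y => ind (|y - x| ≤ r)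

/-- Entropy at scale `r`, computed with balls. -/
noncomputable def HB (ν : FD) (r : ℝ) : ℝ := E ν fun x => -Real.log (bm ν r x)

/-- Entropy of a labelling. -/
noncomputable def Ent (ν : FD) (c : ℝ → ℤ) : ℝ := E ν fun x => -Real.log (ms ν c x)

/-- Average entropy between the scales `1` and `2 ^ (-K)`. -/
noncomputable def Gap (K : ℕ) (ν : FD) : ℝ := Avg fun u => Ent ν (lb K u) - Ent ν (lb 0 u)

/-- Probability that two points of a cell of level `k` are separated at the next level. -/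
noncomputable def del (ν : FD) (k : ℕ) : ℝ :=
  Avg fun u => E ν fun x => 1 - ms ν (lb (k + 1) u) x / ms ν (lb k u) x

variable {ν : FD}

lemma simple_ms (ν : FD) (k : ℕ) (x : ℝ) : Simple fun u => ms ν (lb k u) x :=
  Simple.E ν fun y => simple_lb_eq k x y

lemma simple_Ent (ν : FD) (k : ℕ) : Simple fun u => Ent ν (lb k u) :=
  Simple.E ν fun x => (simple_ms ν k x).comp fun a => -Real.log a

lemma ms_periodic (ν : FD) (k : ℕ) (x u : ℝ) : ms ν (lb k (u + 1)) x = ms ν (lb k u) x := by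
  simp only [ms, lb_add_one, add_left_inj]

lemma ms_nonneg (hν : Pos ν) (c : ℝ → ℤ) (x : ℝ) : 0 ≤ ms ν c x :=
  E_nonneg hν fun _ => ind_nonneg _

lemma ms_pos (hν : Pos ν) (c : ℝ → ℤ) {x : ℝ} (hx : 0 < ν.coeff x) : 0 < ms ν c x :=
  E_pos hν (fun _ => ind_nonneg _) hx (by rw [ind_pos rfl]; exact one_pos)

lemma ms_le_one (hν : Prob ν) (c : ℝ → ℤ) (x : ℝ) : ms ν c x ≤ 1 :=
  hν.E_le fun _ _ => ind_le_one _

lemma ms_congr (ν : FD) {c : ℝ → ℤ} {x y : ℝ} (h : c y = c x) : ms ν c y = ms ν c x := by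
  simp only [ms, h]

lemma ms_lb_anti (hν : Pos ν) {k K : ℕ} (h : k ≤ K) (u x : ℝ) :
    ms ν (lb K u) x ≤ ms ν (lb k u) x := E_mono hν fun _ => ind_mono (lb_refine h)

lemma bm_nonneg (hν : Pos ν) (r x : ℝ) : 0 ≤ bm ν r x := E_nonneg hν fun _ => ind_nonneg _

lemma bm_pos (hν : Pos ν) {r : ℝ} (hr : 0 ≤ r) {x : ℝ} (hx : 0 < ν.coeff x) : 0 < bm ν r x :=
  E_pos hν (fun _ => ind_nonneg _) hx (by rw [ind_pos (by simpa using hr)]; exact one_pos)

lemma bm_le_one (hν : Prob ν) (r x : ℝ) : bm ν r x ≤ 1 := hν.E_le fun _ _ => ind_le_one _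

lemma Gap_succ (K : ℕ) (ν : FD) : Gap (K + 1) ν = Gap K ν +
    Avg fun u => E ν fun x => Real.log (ms ν (lb K u) x) - Real.log (ms ν (lb (K + 1) u) x) := by
  rw [Gap, Gap, ← Avg_add (Simple.comp2 (· - ·) (simple_Ent ν K) (simple_Ent ν 0))
    (Simple.E ν fun x => Simple.comp2 (fun a b => Real.log a - Real.log b) (simple_ms ν K x)
      (simple_ms ν (K + 1) x))]
  congr 1
  ext u
  simp only [Ent, E_sub, E_neg]
  ring

lemma Gap_zero (ν : FD) : Gap 0 ν = 0 := by simp [Gap, Avg_const]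

/-- Products of `n` digits over the alphabet `A`. -/
def Digits (A : Type*) [Fintype A] (n : ℕ) (ν : FD) : Prop :=
  ∃ q θ : Fin n → A → ℝ, (∀ j a, 0 ≤ q j a) ∧ (∀ j, ∑ a, q j a = 1) ∧ ν = ∏ j, dig (q j) (θ j)

/-- A symmetric partial coupling of `ν` with itself moving points by at most `ρ`. -/
structure Cpl (ν : FD) (ρ : ℝ) (w : ℝ → ℝ → ℝ) : Prop where
  symm : ∀ x y, w x y = w y x
  nonneg : ∀ x y, 0 ≤ w x y
  supp : ∀ x y, ρ < |y - x| → w x y = 0
  row : ∀ x, E ν (w x) ≤ 1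

/-- Test functions at scale `r`. -/
def Test (r : ℝ) (Φ : ℝ → ℝ) : Prop := ∀ x y, |Φ x - Φ y| ≤ 2 ∧ |Φ x - Φ y| ≤ 2 * |x - y| / r

/-- Smoothness of `τ` under shifts, with accumulated variance `V` made of steps at most `ρ`. -/
def Cl (ρ : ℝ) (τ : FD) (V : ℝ) : Prop :=
  ∀ r a : ℝ, 0 < r → 0 < a → ∀ Φ, Test r Φ → ∀ s, 0 ≤ s → s ≤ a + ρ →
    V * (E τ Φ - E τ (fun x => Φ (x + s)) - 2 * ρ / r - 2 * s / a) ≤
      2 * ((a / 2 + ρ) ^ 2 - (s - a / 2) ^ 2)

/-- Convolution with `ν` adds variance `v`. -/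
def Sm (ρ : ℝ) (ν : FD) (v : ℝ) : Prop :=
  ∀ τ V, Prob τ → 0 ≤ V → Cl ρ τ V → Cl ρ (ν * τ) (V + v)

end Vale.Agent.P114
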