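import Vale.Agent.P114.BlowA

/-! Variance accumulates over disjoint epochs, which forces full entropy. -/

namespace Vale.Agent.P114
open Finset

namespace Sys
variable {A T : Type*} [Fintype A] (S : Sys A T)

lemma telescope {f g : ℝ → ℝ} (h : ∀ c b, f c - f (c / S.r b) ≤ g c) (j : ℕ) (c : ℝ) (l : List A)
    (hl : j ≤ l.length) :
    f c - f (c / S.P (l.take j)) ≤ ∑ i ∈ range j, g (c / S.P (l.take i)) := by
  induction j generalizing c l with
  | zero => simp
  | succ j ih =>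
    obtain _ | ⟨b, l⟩ := l
    · simp at hl
    · have := ih (c / S.r b) l (by simpa using hl)
      rw [sum_range_succ']
      simp only [List.take_succ_cons, P_cons, List.take_zero, P_nil, div_one, ← div_div]
      linarith [h c b]

lemma epoch (hgap : ∀ n : ℕ, (n : ℝ) ≤ EW S.p n fun l => HB (S.Back 1 l) 0 - S.B l) {ρ : ℝ}
    (hρ : 0 < ρ) : ∃ γ θ : ℝ, 0 < γ ∧ 0 ≤ θ ∧ θ < 1 ∧ ∀ c₀ c₁ : ℝ, 0 < c₀ → ∃ J : ℕ, ∀ c, c₀ ≤ |c| →
      |c| ≤ c₁ → ∃ V : List A → ℝ, (∀ l, l.length = J → 0 ≤ V l ∧ Sm ρ (S.Back c l) (γ * V l)) ∧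
        EW S.p J (fun l => Real.exp (-V l)) ≤ θ := by
  obtain ⟨m, M, hm, hM, hb⟩ := S.exists_bounds
  obtain ⟨κ, hκ, hbl⟩ := S.blocks hgap
  obtain ⟨μ₁, hμ₁⟩ := exists_pow_lt_of_lt_one hm (show (1 / 2 : ℝ) < 1 by norm_num)
  set μ₀ := μ₁ + 1
  have hμ : (1 : ℝ) / 2 ^ μ₀ ≤ m := by
    rw [← one_div_pow]
    exact (pow_le_pow_of_le_one (by norm_num) (by norm_num) (Nat.le_succ _)).trans hμ₁.le
  have hμ0 : (0 : ℝ) < μ₀ := by positivity
  refine ⟨(ρ * m / 2) ^ 2, Real.exp (-(κ / (4 * μ₀))), by positivity, (Real.exp_pos _).le,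
    Real.exp_lt_one_iff.2 (neg_lt_zero.2 (by positivity)), fun c₀ c₁ hc₀ => ?_⟩
  obtain ⟨k₀, hk₀⟩ := exists_pow_lt_of_lt_one (show 0 < ρ / max c₀ c₁ by positivity)
    (show (1 / 2 : ℝ) < 1 by norm_num)
  obtain ⟨n, hn⟩ := exists_nat_ge (8 + 2 * k₀ / κ)
  have hn0 : (0 : ℝ) < n := lt_of_lt_of_le (by positivity) hn
  obtain ⟨K, v, hv, hsm, hsum⟩ := hbl n
  have hM0 : 0 ≤ M := let ⟨a⟩ := S.nonempty; (abs_nonneg _).trans (hb a).2
  obtain ⟨Q, hQ⟩ := exists_pow_lt_of_lt_one (show 0 < c₀ / (ρ * 2 ^ K) by positivity) hM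
  let W : ℝ → Finset ℕ := fun c =>
    (range K).filter fun k => m * (ρ / |c|) < 1 / 2 ^ k ∧ 1 / 2 ^ k ≤ ρ / |c|
  let y : ℝ → List A → ℝ := fun c l => (μ₀ : ℝ)⁻¹ * ∑ k ∈ W c, v l k
  have hyle : ∀ c l z, 0 ≤ z → (∀ k ∈ W c, v l k ≤ z) → y c l ≤ z := fun c l z hz h => by
    rw [inv_mul_le_iff₀ hμ0]
    refine (sum_le_card_nsmul _ _ _ h).trans ?_
    rw [nsmul_eq_mul]
    exact mul_le_mul_of_nonneg_right (Nat.cast_le.2 (card_window hμ K)) hz
  have hy0 : ∀ c l, 0 ≤ y c l := fun c l =>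
    mul_nonneg (by positivity) (sum_nonneg fun k _ => (hv l k).1)
  have hy1 : ∀ c l, y c l ≤ 1 := fun c l => hyle c l 1 zero_le_one fun k _ => (hv l k).2
  have hysm : ∀ c l, l.length = n → Sm ρ (S.Back c l) ((ρ * m / 2) ^ 2 * y c l) := by
    intro c l hl
    rcases (W c).eq_empty_or_nonempty with h | h
    · simpa [y, h] using sm_zero (S.prob c l)
    obtain ⟨k, hk, hmax⟩ := exists_max_image _ (v l) h
    obtain ⟨h1, h2⟩ := (mem_filter.1 hk).2
    have hc : 0 < |c| := abs_pos.2 fun e => absurd h2 (by simp [e])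
    rw [le_div_iff₀ hc, one_div_mul_eq_div] at h2
    rw [← mul_div_assoc, div_lt_iff₀ hc, one_div_mul_eq_div] at h1
    refine (hsm l hl k c ρ h2).mono hρ.le (mul_nonneg (sq_nonneg _) (hy0 c l))
      (mul_le_mul ?_ (hyle c l _ (hv l k).1 hmax) (hy0 c l) (sq_nonneg _))
    rw [← sq_abs (c / _), abs_div, abs_of_pos (a := (2 : ℝ) ^ (k + 1)) (by positivity), pow_succ 2 k,
      ← div_div]
    exact pow_le_pow_left₀ (by positivity) (by linarith) 2
  let yb : ℝ → ℝ := fun c => EW S.p n (y c)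
  let vb : ℕ → ℝ := fun k => EW S.p n fun l => v l k
  have hvb : ∀ k, 0 ≤ vb k ∧ vb k ≤ 1 := fun k =>
    ⟨S.pv.le_EW fun l _ => (hv l k).1, S.pv.EW_le fun l _ => (hv l k).2⟩
  let tl : ℝ → ℝ := fun c => ∑ k ∈ range K, ind (1 / 2 ^ k ≤ ρ / |c|) * vb k
  have hstep : ∀ c b, tl c - tl (c / S.r b) ≤ μ₀ * yb c := fun c b => by
    simp only [yb, y, EW_const_mul, EW_sum, tl, W, mul_inv_cancel_left₀ hμ0.ne']
    rw [sum_filter, ← sum_sub_distrib]
    refine sum_le_sum fun k _ => ?_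
    split_ifs with h
    · rw [ind_pos h.2, one_mul]
      exact sub_le_self _ (mul_nonneg (ind_nonneg _) (hvb k).1)
    · refine sub_nonpos.2 (mul_le_mul_of_nonneg_right (ind_mono fun e => ?_) (hvb k).1)
      rw [abs_div, div_div_eq_mul_div, mul_comm, mul_div_assoc]
      exact (not_lt.1 fun e' => h ⟨e', e⟩).trans
        (mul_le_mul_of_nonneg_right (hb b).1 (by positivity))
  let nx : ℝ → List A → ℝ := fun c u => c / S.P u
  refine ⟨(Q + 1) * n, fun c h0 h1 => ⟨fun l => ∑ o ∈ range n, (n : ℝ)⁻¹ *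
    chain nx y n Q (c / S.P (l.take o)) (l.drop o), fun l hl => ?_, ?_⟩⟩
  · have hch := fun o (ho : o ∈ range n) => S.chain_sm (sq_nonneg _) hy0 hysm Q
      (c / S.P (l.take o)) (l.drop o) (by
        rw [List.length_drop, hl, add_mul]; have := mem_range.1 ho; omega)
    have hV : 0 ≤ ∑ o ∈ range n, (n : ℝ)⁻¹ * chain nx y n Q (c / S.P (l.take o)) (l.drop o) :=
      sum_nonneg fun o ho => mul_nonneg (by positivity) (hch o ho).1
    obtain ⟨o, ho, hmax⟩ := exists_max_image (range n)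
      (fun o => chain nx y n Q (c / S.P (l.take o)) (l.drop o))
      (nonempty_range_iff.2 (by exact_mod_cast hn0.ne'))
    have h2 := (sm_zero (ρ := ρ) (S.prob c (l.take o))).mul (S.prob _ _)
      (mul_nonneg (sq_nonneg _) (hch o ho).1) (hch o ho).2
    rw [← Back_append, List.take_append_drop, zero_add] at h2
    refine ⟨hV, h2.mono hρ.le (mul_nonneg (sq_nonneg _) hV)
      (mul_le_mul_of_nonneg_left ?_ (sq_nonneg _))⟩
    beta_reduce
    rw [← mul_sum, inv_mul_le_iff₀ hn0]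
    exact (sum_le_card_nsmul _ _ _ hmax).trans_eq (by rw [card_range, nsmul_eq_mul])
  · have hf : ∀ c, EW S.p n (fun l => Real.exp (-y c l + 1 / 2 * yb c)) ≤ 1 := fun c => by
      simp only [Real.exp_add, mul_comm _ (Real.exp (1 / 2 * yb c)), EW_const_mul]
      have h2 : EW S.p n (fun l => Real.exp (-y c l)) ≤ 1 - 1 / 2 * yb c := by
        refine (S.pv.EW_mono (G := fun l => 1 - 1 / 2 * y c l) fun l _ =>
          (exp_neg_le (hy0 c l) (hy1 c l)).trans_eq (by ring)).trans_eq ?_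
        rw [EW_sub, S.pv.EW_const, EW_const_mul]
      refine (mul_le_mul_of_nonneg_left (h2.trans (Real.one_sub_le_exp_neg _))
        (Real.exp_pos _).le).trans_eq ?_
      rw [← Real.exp_add, add_neg_cancel, Real.exp_zero]
    let Z : ℕ → List A → ℝ := fun o l => chain nx (fun c l => -y c l + 1 / 2 * yb c) n Q
      (c / S.P (l.take o)) (l.drop o)
    have hZ : ∀ o ∈ range n, EW S.p ((Q + 1) * n) (fun l => Real.exp (Z o l)) ≤ 1 := fun o ho => by
      rw [show (Q + 1) * n = o + (Q * n + (n - o)) by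
        have := mem_range.1 ho; rw [add_mul]; omega, EW_append]
      refine S.pv.EW_le fun u hu => ?_
      simp only [Z, List.take_left' hu, List.drop_left' hu]
      exact S.pv.EW_exp_chain nx _ n hf Q _ _
    refine (S.pv.EW_mono (G := fun l => Real.exp (-(κ / (4 * μ₀))) *
      ∑ o ∈ range n, (n : ℝ)⁻¹ * Real.exp (Z o l)) fun l hl => ?_).trans ?_
    · have hc : 0 < |c| := hc₀.trans_le h0
      have a1 := S.telescope hstep (Q * n) c l (by rw [hl, add_mul]; omega)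
      have a2 : tl (c / S.P (l.take (Q * n))) = 0 := sum_eq_zero fun k hk => by
        rw [ind_neg, zero_mul]
        have b1 := (S.abs_P_bounds hm hb (l.take (Q * n))).2
        rw [List.length_take_of_le (by rw [hl, add_mul]; omega)] at b1
        have b2 : M ^ (Q * n) ≤ M ^ Q := pow_le_pow_of_le_one hM0 hM.le
          (Nat.le_mul_of_pos_right _ (by exact_mod_cast hn0))
        rw [abs_div, div_div_eq_mul_div, not_le, div_lt_div_iff₀ hc (by positivity), one_mul]
        rw [lt_div_iff₀ (by positivity)] at hQ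
        have b3 : (2 : ℝ) ^ k ≤ 2 ^ K := pow_le_pow_right₀ one_le_two (mem_range.1 hk).le
        calc _ ≤ ρ * M ^ Q * 2 ^ K := by gcongr; exact b1.trans b2
          _ ≤ _ := by linarith
          _ < _ := hQ.trans_le h0
      have a3 : ∑ k ∈ range K, vb k ≤ tl c + k₀ := by
        calc _ ≤ ∑ k ∈ range K, (ind (1 / 2 ^ k ≤ ρ / |c|) * vb k + if k < k₀ then 1 else 0) := by
              refine sum_le_sum fun k _ => ?_
              split_ifs with h
              · linarith [mul_nonneg (ind_nonneg (1 / 2 ^ k ≤ ρ / |c|)) (hvb k).1, (hvb k).2]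
              · rw [ind_pos, one_mul, add_zero]
                rw [← one_div_pow]
                exact (pow_le_pow_of_le_one (by norm_num) (by norm_num) (not_lt.1 h)).trans
                  (hk₀.le.trans (div_le_div_of_nonneg_left hρ.le hc (h1.trans (le_max_right _ _))))
          _ ≤ _ := by
              rw [sum_add_distrib, sum_boole]
              refine add_le_add le_rfl ?_
              exact_mod_cast (card_le_card (t := range k₀) fun k hk =>
                mem_range.2 (mem_filter.1 hk).2).trans_eq (card_range _)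
      have a4 : κ * n / 2 ≤ μ₀ * ∑ j ∈ range (Q * n), yb (c / S.P (l.take j)) := by
        rw [mul_sum]
        have := mul_le_mul_of_nonneg_left hn hκ.le
        rw [mul_add, mul_div_cancel₀ _ hκ.ne'] at this
        change κ * (n - 4) ≤ ∑ k ∈ range K, vb k at hsum
        linarith
      have a5 : ∑ o ∈ range n, (n : ℝ)⁻¹ * Z o l =
          -∑ o ∈ range n, (n : ℝ)⁻¹ * chain nx y n Q (c / S.P (l.take o)) (l.drop o) +
            (n : ℝ)⁻¹ * (1 / 2 * ∑ j ∈ range (Q * n), yb (c / S.P (l.take j))) := by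
        rw [← sum_offsets, mul_sum, mul_sum, ← sum_neg_distrib, ← sum_add_distrib]
        refine sum_congr rfl fun o _ => ?_
        simp only [Z]
        rw [chain_lin nx y fun c _ => yb c, S.chain_eq]
        simp only [div_div, ← P_append, ← List.take_add]
        ring
      have a6 := convexOn_exp.map_sum_le (t := range n) (w := fun _ => (n : ℝ)⁻¹)
        (p := fun o => Z o l) (fun _ _ => by positivity)
        (by rw [sum_const, card_range, nsmul_eq_mul, mul_inv_cancel₀ hn0.ne'])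
        fun _ _ => Set.mem_univ _
      simp only [smul_eq_mul] at a6
      refine le_trans ?_ (mul_le_mul_of_nonneg_left a6 (Real.exp_pos _).le)
      rw [← Real.exp_add, Real.exp_le_exp, a5]
      have a7 : κ / (4 * μ₀) ≤
          (n : ℝ)⁻¹ * (1 / 2 * ∑ j ∈ range (Q * n), yb (c / S.P (l.take j))) := by
        rw [le_inv_mul_iff₀ hn0, ← mul_div_assoc, div_le_iff₀ (by positivity)]
        linarith
      linarith
    · rw [EW_const_mul, EW_sum]
      refine mul_le_of_le_one_right (Real.exp_pos _).le ?_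
      refine (sum_le_card_nsmul _ _ (n : ℝ)⁻¹ fun o ho => ?_).trans_eq
        (by rw [card_range, nsmul_eq_mul, mul_inv_cancel₀ hn0.ne'])
      rw [EW_const_mul]
      exact mul_le_of_le_one_right (by positivity) (hZ o ho)

lemma epochs (hgap : ∀ n : ℕ, (n : ℝ) ≤ EW S.p n fun l => HB (S.Back 1 l) 0 - S.B l) {ρ : ℝ}
    (hρ : 0 < ρ) : ∃ γ θ : ℝ, 0 < γ ∧ 0 ≤ θ ∧ θ < 1 ∧ ∀ (N : ℕ) (c₀ c₁ : ℝ), 0 < c₀ → ∃ J : ℕ,
      ∀ c, c₀ ≤ |c| → |c| ≤ c₁ → ∃ V : List A → ℝ,
        (∀ l, l.length = J → 0 ≤ V l ∧ Sm ρ (S.Back c l) (γ * V l)) ∧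
          EW S.p J (fun l => Real.exp (-V l)) ≤ θ ^ N := by
  obtain ⟨γ, θ, hγ, hθ0, hθ, h⟩ := S.epoch hgap hρ
  obtain ⟨m, M, hm, hM, hb⟩ := S.exists_bounds
  refine ⟨γ, θ, hγ, hθ0, hθ, fun N => ?_⟩
  induction N with
  | zero =>
    exact fun c₀ c₁ _ => ⟨0, fun c _ _ => ⟨fun _ => 0, fun l _ =>
      ⟨le_rfl, by simpa using sm_zero (S.prob c l)⟩, by simp [EW]⟩⟩
  | succ N ih =>
    intro c₀ c₁ hc₀
    obtain ⟨J₁, h₁⟩ := h c₀ c₁ hc₀
    obtain ⟨J₂, h₂⟩ := ih c₀ (c₁ / m ^ J₁) hc₀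
    refine ⟨J₁ + J₂, fun c h0 h1 => ?_⟩
    obtain ⟨V₁, hV₁, hE₁⟩ := h₁ c h0 h1
    choose! V₂ hV₂ hE₂ using h₂
    have hc : ∀ u : List A, u.length = J₁ → c₀ ≤ |c / S.P u| ∧ |c / S.P u| ≤ c₁ / m ^ J₁ := by
      intro u hu
      obtain ⟨a1, -⟩ := S.abs_P_bounds hm hb u
      obtain ⟨-, a2⟩ := S.abs_P_bounds hm (M := 1) (fun a => ⟨(hb a).1, (S.hr1 a).le⟩) u
      rw [abs_div, ← hu]
      exact ⟨h0.trans (le_div_self (abs_nonneg _) (abs_pos.2 (S.P_ne u)) (by simpa using a2)),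
        div_le_div₀ ((abs_nonneg _).trans h1) h1 (by positivity) a1⟩
    refine ⟨fun l => V₁ (l.take J₁) + V₂ (c / S.P (l.take J₁)) (l.drop J₁), fun l hl => ?_, ?_⟩
    · have hu : (l.take J₁).length = J₁ := List.length_take_of_le (by omega)
      obtain ⟨a1, a2⟩ := hV₁ _ hu
      obtain ⟨a3, a4⟩ := hV₂ _ (hc _ hu).1 (hc _ hu).2 (l.drop J₁) (by rw [List.length_drop]; omega)
      have := a2.mul (S.prob _ _) (mul_nonneg hγ.le a3) a4
      rw [← Back_append, List.take_append_drop, ← mul_add] at this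
      exact ⟨add_nonneg a1 a3, this⟩
    · rw [EW_append, pow_succ]
      refine le_trans (S.pv.EW_mono fun u hu => ?_)
        ((EW_const_mul _ _ (θ ^ N) _).trans_le (mul_le_mul_of_nonneg_left hE₁ (by positivity)))
      simp only [List.take_left' hu, List.drop_left' hu, neg_add, Real.exp_add, EW_const_mul]
      rw [mul_comm]
      exact mul_le_mul_of_nonneg_right (hE₂ _ (hc u hu).1 (hc u hu).2) (Real.exp_pos _).le

/-- An entropy gap forces full entropy in the windows. -/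
theorem blow (hgap : ∀ n : ℕ, (n : ℝ) ≤ EW S.p n fun l => HB (S.Back 1 l) 0 - S.B l) :
    ∃ J, ∑ a, S.p a * -Real.log |S.r a| - 2 ≤ EW S.p (J + 1) S.X := by
  obtain ⟨κ, hκ⟩ := (Set.finite_range S.kap).bddAbove
  have hκ' : ∀ b, S.kap b ≤ κ := fun b => hκ ⟨b, rfl⟩
  set η : ℝ := 1 / (7 * (κ + 2)) with hη
  have hη0 : 0 < η := by positivity
  have hη1 : η ≤ 1 / 14 := one_div_le_one_div_of_le (by norm_num) (by linarith [κ.cast_nonneg (α := ℝ)])
  have hη2 : 7 * κ * η ≤ 1 := by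
    rw [hη, mul_one_div, div_le_one (by positivity)]; linarith
  obtain ⟨γ, θ, hγ, hθ0, hθ, h⟩ := S.epochs hgap (ρ := η / 2 ^ κ) (by positivity)
  set M := (1 / η + η) ^ 2 / η / γ
  obtain ⟨N, hN⟩ := exists_pow_lt_of_lt_one (show 0 < η / Real.exp M by positivity) hθ
  obtain ⟨J, hJ⟩ := h N 1 2 one_pos
  have l1 := Real.log_two_gt_d9
  have l2 := Real.log_two_lt_d9
  refine ⟨J, le_trans ?_ (S.pv.sum_mono (f := fun b => -Real.log |S.r b| - 2) fun b => ?_)⟩
  · simp only [mul_sub, sum_sub_distrib, ← sum_mul, S.hp1, one_mul, le_refl]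
  obtain ⟨V, hV, hE⟩ := hJ _ (S.cb_bounds b).1 (S.cb_bounds b).2
  have hk : (S.kap b : ℝ) ≤ κ := by exact_mod_cast hκ' b
  have hk0 : (0 : ℝ) ≤ S.kap b := Nat.cast_nonneg _
  have hg : 0 ≤ S.kap b * (Real.log 2 - 6 * η) := mul_nonneg hk0 (by linarith)
  have h1 : EW S.p J (fun l => S.kap b * (Real.log 2 - 6 * η) -
      S.kap b * (Real.log 2 - 6 * η) * Real.exp M * Real.exp (-V l)) ≤
        EW S.p J fun l => S.X (b :: l) := S.pv.EW_mono fun l hl => by
    rw [mul_assoc _ (Real.exp M), ← Real.exp_add]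
    rcases le_total M (V l) with h2 | h2
    · refine (sub_le_self _ (mul_nonneg hg (Real.exp_pos _).le)).trans (le_trans ?_ (S.le_X b l))
      refine gap_ge_of_sm (S.prob _ _) _ hη0 (by linarith) (by positivity) ?_ (hV l hl).2
        (by rwa [div_le_iff₀' hγ] at h2)
      rw [div_mul_eq_mul_div, div_le_iff₀ (by positivity)]
      exact mul_le_mul_of_nonneg_left (pow_le_pow_right₀ one_le_two (hκ' b)) hη0.le
    · exact (sub_nonpos.2 (le_mul_of_one_le_right hg (Real.one_le_exp (by linarith)))).trans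
        (S.X_nonneg _)
  rw [EW_sub, S.pv.EW_const, EW_const_mul] at h1
  have h2 : Real.exp M * EW S.p J (fun l => Real.exp (-V l)) ≤ η := by
    rw [lt_div_iff₀' (Real.exp_pos _)] at hN
    exact (mul_le_mul_of_nonneg_left hE (Real.exp_pos _).le).trans hN.le
  have h3 := mul_le_mul_of_nonneg_left h2 hg
  have h4 := S.le_kap b
  have h5 : (S.kap b : ℝ) * η ≤ κ * η := mul_le_mul_of_nonneg_right hk hη0.le
  have h6 : S.kap b * (Real.log 2 - 6 * η) * η ≤ S.kap b * η := by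
    rw [mul_right_comm]
    exact mul_le_of_le_one_right (by positivity) (by linarith)
  rw [← mul_assoc] at h3
  linarith

/-- Lower bound for the window entropies. -/
theorem exists_window [Fintype T] {h : ℝ} (hh : ∀ n : ℕ, n * h ≤ S.HG n) :
    ∃ J, min h (∑ a, S.p a * -Real.log |S.r a|) - Real.log (Fintype.card T) - (8 * S.R + 8) ≤
      EW S.p (J + 1) S.X := by
  have hT := Real.log_natCast_nonneg (Fintype.card T)
  have hR : (0 : ℝ) ≤ S.R := Nat.cast_nonneg _
  by_cases hc : ∀ J, EW S.p (J + 1) S.X ≤ h - Real.log (Fintype.card T) - (8 * S.R + 7)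
  · obtain ⟨J, hJ⟩ := S.blow fun n => by
      have h1 := S.EW_B_le hc n
      have h2 := S.HG_le n
      rw [EW_sub]
      linarith [hh n]
    exact ⟨J, by linarith [min_le_right h (∑ a, S.p a * -Real.log |S.r a|)]⟩
  · push Not at hc
    obtain ⟨J, hJ⟩ := hc
    exact ⟨J, by linarith [min_le_left h (∑ a, S.p a * -Real.log |S.r a|)]⟩

end Sys
end Vale.Agent.P114
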