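import Vale.Agent.P114.Avg

/-! Couplings built from the separation probabilities. -/

namespace Vale.Agent.P114
open Finset

/-- The weight of the pairs separated exactly at level `k + 1`. -/
noncomputable def cpOm (ν : FD) (k : ℕ) (x y : ℝ) : ℝ :=
  Avg fun u => ind (lb k u y = lb k u x ∧ lb (k + 1) u y ≠ lb (k + 1) u x) / ms ν (lb k u) x

lemma cp_simple0 (k : ℕ) (x y : ℝ) :
    Simple fun u => ind (lb k u y = lb k u x ∧ lb (k + 1) u y ≠ lb (k + 1) u x) :=
  simple_ind ((measurableSet_eq_fun (measurable_lb k y) (measurable_lb k x)).inter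
    (measurableSet_eq_fun (measurable_lb (k + 1) y) (measurable_lb (k + 1) x)).compl)

lemma cp_simple (ν : FD) (k : ℕ) (x y : ℝ) : Simple fun u =>
    ind (lb k u y = lb k u x ∧ lb (k + 1) u y ≠ lb (k + 1) u x) / ms ν (lb k u) x :=
  Simple.comp2 (· / ·) (cp_simple0 k x y) (simple_ms ν k x)

lemma cp_symm (ν : FD) (k : ℕ) (x y : ℝ) : cpOm ν k x y = cpOm ν k y x := by
  unfold cpOm
  congr 1
  ext u
  by_cases h : lb k u y = lb k u x
  · rw [ms_congr ν h]
    congr 1
    exact ind_congr ⟨fun e => ⟨e.1.symm, e.2.symm⟩, fun e => ⟨e.1.symm, e.2.symm⟩⟩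
  · rw [ind_neg fun e => h e.1, ind_neg fun e => h e.1.symm, zero_div, zero_div]

variable {ν : FD}

lemma cp_nonneg (hν : Pos ν) (k : ℕ) (x y : ℝ) : 0 ≤ cpOm ν k x y :=
  Avg_nonneg fun _ => div_nonneg (ind_nonneg _) (ms_nonneg hν _ _)

lemma cp_del (hν : Pos ν) (k : ℕ) : del ν k = E ν fun x => E ν (cpOm ν k x) := by
  rw [del, Avg_E ν fun x => Simple.comp2 (fun a b => 1 - a / b) (simple_ms ν (k + 1) x)
    (simple_ms ν k x)]
  refine E_congr fun x hx => ?_
  unfold cpOm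
  rw [← Avg_E ν fun y => cp_simple ν k x y]
  congr 1
  ext u
  have h := ms_pos hν (lb k u) ((hν x).lt_of_ne' hx)
  rw [E_div_const, eq_div_iff h.ne', sub_mul, one_mul, div_mul_cancel₀ _ h.ne', ms, ms, ← E_sub]
  refine E_congr fun y _ => ?_
  by_cases h1 : lb (k + 1) u y = lb (k + 1) u x
  · rw [ind_pos h1, ind_pos (lb_refine (Nat.le_succ k) h1), ind_neg fun e => e.2 h1, sub_self]
  · rw [ind_neg h1, sub_zero]
    exact ind_congr ⟨fun e => ⟨e, h1⟩, fun e => e.1⟩

lemma cp_row (hν : Pos ν) (k : ℕ) (x : ℝ) : E ν (cpOm ν k x) ≤ 1 := by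
  unfold cpOm
  rw [← Avg_E ν fun y => cp_simple ν k x y]
  refine Avg_le (Simple.E ν fun y => cp_simple ν k x y) fun u => ?_
  rw [E_div_const]
  exact div_le_one_of_le₀ (E_mono hν fun y => ind_mono fun e => e.1) (ms_nonneg hν _ _)

lemma cp_far (ν : FD) {k : ℕ} {x y : ℝ} (h : 1 / 2 ^ k ≤ |y - x|) : cpOm ν k x y = 0 := by
  unfold cpOm
  rw [← Avg_const 0]
  congr 1
  ext u
  rw [ind_neg fun e => (abs_lt_of_lb_eq e.1).not_ge h, zero_div]

lemma cp_self (ν : FD) (k : ℕ) (x : ℝ) : cpOm ν k x x = 0 := by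
  unfold cpOm
  rw [← Avg_const 0]
  congr 1
  ext u
  rw [ind_neg fun e => e.2 rfl, zero_div]

lemma cp_ball {k : ℕ} {u x y z r : ℝ} (hr : 2 ^ k * r ≤ 1 / 8) (hy : |y - x| ≤ r)
    (hz : |z - x| ≤ r) (h1 : lb k u y = lb k u x) (h2 : lb (k + 1) u y ≠ lb (k + 1) u x) :
    lb k u z = lb k u x := by
  have key : ∀ w : ℝ, |w - x| ≤ r → |2 ^ k * (w + u) - 2 ^ k * (x + u)| ≤ 1 / 8 := fun w hw => by
    rw [← mul_sub, add_sub_add_right_eq_sub, abs_mul, abs_of_pos (by positivity)]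
    exact (mul_le_mul_of_nonneg_left hw (by positivity)).trans hr
  have a1 := abs_le.1 (key y hy)
  have a2 := abs_le.1 (key z hz)
  simp only [lb, pow_succ, mul_right_comm _ (2 : ℝ)] at h1 h2 ⊢
  generalize (2 : ℝ) ^ k * (x + u) = a at *
  generalize (2 : ℝ) ^ k * (y + u) = b at *
  generalize (2 : ℝ) ^ k * (z + u) = c at *
  have f1 := Int.floor_le a
  have f2 := Int.lt_floor_add_one a
  have f3 := Int.floor_le b
  have f4 := Int.lt_floor_add_one b
  rw [h1] at f3 f4
  have g1 : (⌊a⌋ : ℝ) + 1 / 4 ≤ a := by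
    by_contra hc
    refine h2 ((Int.floor_eq_iff (z := 2 * ⌊a⌋)).2 ⟨?_, ?_⟩ |>.trans
      ((Int.floor_eq_iff (z := 2 * ⌊a⌋)).2 ⟨?_, ?_⟩).symm) <;> push_cast <;> linarith
  have g2 : a ≤ (⌊a⌋ : ℝ) + 3 / 4 := by
    by_contra hc
    refine h2 ((Int.floor_eq_iff (z := 2 * ⌊a⌋ + 1)).2 ⟨?_, ?_⟩ |>.trans
      ((Int.floor_eq_iff (z := 2 * ⌊a⌋ + 1)).2 ⟨?_, ?_⟩).symm) <;> push_cast <;> linarith
  rw [Int.floor_eq_iff]
  constructor <;> linarith

lemma cp_near (hν : Pos ν) {k : ℕ} {r : ℝ} (hr : 2 ^ k * r ≤ 1 / 8) (h0 : 0 ≤ r) (x : ℝ) :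
    (E ν fun y => ind (|y - x| ≤ r) * cpOm ν k x y) ≤ 2 ^ (k + 1) * r := by
  have h1 : (E ν fun y => ind (|y - x| ≤ r) * cpOm ν k x y) ≤
      E ν fun y => ind (|y - x| ≤ r) * (2 ^ (k + 1) * r / bm ν r x) := E_mono' hν fun y hy => by
    by_cases e : |y - x| ≤ r
    · have hb : 0 < bm ν r x :=
        E_pos hν (fun _ => ind_nonneg _) hy (by rw [ind_pos e]; exact one_pos)
      refine mul_le_mul_of_nonneg_left ?_ (ind_nonneg _)
      have hs : Simple fun u => ind (lb (k + 1) u y ≠ lb (k + 1) u x) :=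
        simple_ind (measurableSet_eq_fun (measurable_lb _ y) (measurable_lb _ x)).compl
      refine (Avg_mono (cp_simple ν k x y) (hs.comp ((bm ν r x)⁻¹ * ·)) fun u => ?_).trans ?_
      · by_cases e' : lb k u y = lb k u x ∧ lb (k + 1) u y ≠ lb (k + 1) u x
        · rw [ind_pos e', ind_pos e'.2, mul_one, one_div]
          exact inv_anti₀ hb (E_mono hν fun z => ind_mono fun hz => cp_ball hr e hz e'.1 e'.2)
        · rw [ind_neg e', zero_div]
          exact mul_nonneg (inv_nonneg.2 hb.le) (ind_nonneg _)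
      · rw [Avg_const_mul, div_eq_inv_mul]
        exact mul_le_mul_of_nonneg_left ((Avg_lb_ne _ x y).trans
          (mul_le_mul_of_nonneg_left e (by positivity))) (inv_nonneg.2 hb.le)
    · rw [ind_neg e, zero_mul, zero_mul]
  refine h1.trans ?_
  rw [E_mul_const, ← bm, ← mul_div_assoc, mul_comm, mul_div_assoc]
  exact mul_le_of_le_one_right (by positivity) (div_self_le_one _)

lemma cp_geom (m : ℕ) : ∑ k ∈ range m, (2 : ℝ) ^ k ≤ 2 ^ m := by
  induction m with
  | zero => simp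
  | succ m ih => rw [sum_range_succ, pow_succ]; linarith

/-- The pairs separated at some dyadic level give couplings at the scale of their distance. -/
theorem exists_cpl {ν : FD} (hν : Prob ν) (K : ℕ)
    (hsep : ∀ x y, 0 < ν.coeff x → 0 < ν.coeff y → x ≠ y → 1 / 2 ^ K < |y - x|) :
    ∃ w : ℕ → ℝ → ℝ → ℝ, (∀ l, Cpl ν (1 / 2 ^ l) (w l)) ∧
      (∀ l x y, |y - x| ≤ 1 / 2 ^ (l + 1) → w l x y = 0) ∧
      ∑ k ∈ range K, del ν k ≤ 16 * ∑ l ∈ range K, E ν fun x => E ν (w l x) := by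
  have hn : ∀ x y, 0 ≤ ∑ k ∈ range K, cpOm ν k x y := fun x y =>
    sum_nonneg fun k _ => cp_nonneg hν.pos k x y
  refine ⟨fun l x y => 1 / 16 * (ind (1 / 2 ^ (l + 1) < |y - x| ∧ |y - x| ≤ 1 / 2 ^ l) *
    ∑ k ∈ range K, cpOm ν k x y), fun l => ⟨fun x y => ?_, fun x y => ?_, fun x y h => ?_,
      fun x => ?_⟩, fun l x y h => ?_, ?_⟩
  · simp only [abs_sub_comm x y, cp_symm ν _ x y]
  · exact mul_nonneg (by norm_num) (mul_nonneg (ind_nonneg _) (hn x y))
  · beta_reduce
    rw [ind_neg fun e => h.not_ge e.2, zero_mul, mul_zero]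
  · simp only [mul_sum, E_sum, E_const_mul]
    have h1 : ∀ k, (E ν fun y => ind (1 / 2 ^ (l + 1) < |y - x| ∧ |y - x| ≤ 1 / 2 ^ l) *
        cpOm ν k x y) ≤ if k ∈ range (l + 1) then 8 / 2 ^ l * 2 ^ k else 0 := fun k => by
      split_ifs with hk
      · by_cases h3 : k + 3 ≤ l
        · refine (E_mono hν.pos fun y => mul_le_mul_of_nonneg_right (ind_mono fun e => e.2)
            (cp_nonneg hν.pos k x y)).trans ((cp_near hν.pos ?_ (by positivity) x).trans ?_)
          · rw [mul_one_div, div_le_div_iff₀ (by positivity) (by positivity), one_mul]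
            exact le_of_eq_of_le (by ring) (pow_le_pow_right₀ one_le_two h3)
          · rw [pow_succ]
            have : (0 : ℝ) ≤ 2 ^ k * (1 / 2 ^ l) := by positivity
            calc (2 : ℝ) ^ k * 2 * (1 / 2 ^ l) = 2 * (2 ^ k * (1 / 2 ^ l)) := by ring
              _ ≤ 8 * (2 ^ k * (1 / 2 ^ l)) := by linarith
              _ = _ := by ring
        · refine (E_mono hν.pos fun y => mul_le_of_le_one_left (cp_nonneg hν.pos k x y)
            (ind_le_one _)).trans ((cp_row hν.pos k x).trans ?_)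
          rw [div_mul_eq_mul_div, one_le_div (by positivity)]
          exact (pow_le_pow_right₀ one_le_two (show l ≤ k + 3 by omega)).trans_eq (by ring)
      · refine hν.E_le fun y _ => ?_
        by_cases e : 1 / 2 ^ (l + 1) < |y - x| ∧ |y - x| ≤ 1 / 2 ^ l
        · rw [cp_far ν (le_trans ?_ e.1.le), mul_zero]
          exact one_div_le_one_div_of_le (by positivity)
            (pow_le_pow_right₀ one_le_two (by simpa using hk))
        · rw [ind_neg e, zero_mul]
    rw [← mul_sum]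
    have h2 : ∑ k ∈ range K, (if k ∈ range (l + 1) then (8 : ℝ) / 2 ^ l * 2 ^ k else 0) ≤ 16 := by
      rw [sum_ite_mem]
      refine (sum_le_sum_of_subset_of_nonneg inter_subset_right fun _ _ _ => by positivity).trans ?_
      rw [← mul_sum]
      refine (mul_le_mul_of_nonneg_left (cp_geom _) (by positivity)).trans_eq ?_
      field_simp; ring
    linarith [(sum_le_sum fun k (_ : k ∈ range K) => h1 k).trans h2]
  · beta_reduce
    rw [ind_neg fun e => e.1.not_ge h, zero_mul, mul_zero]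
  · simp only [cp_del hν.pos, E_const_mul]
    rw [← mul_sum, ← mul_assoc, show (16 : ℝ) * (1 / 16) = 1 by norm_num, one_mul, ← E_sum, ← E_sum]
    refine E_mono' hν.pos fun x hx => ?_
    rw [← E_sum, ← E_sum]
    refine E_mono' hν.pos fun y hy => ?_
    rw [← sum_mul]
    by_cases e : x = y
    · subst e
      simp only [cp_self, sum_const_zero, mul_zero, le_refl]
    by_cases e1 : 1 ≤ |y - x|
    · rw [sum_eq_zero fun k _ => cp_far ν (le_trans ?_ e1), mul_zero]
      rw [div_le_one (by positivity)]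
      exact one_le_pow₀ one_le_two
    refine le_mul_of_one_le_left (hn x y) ?_
    have hex : ∃ m : ℕ, 1 / 2 ^ m < |y - x| := ⟨K, hsep x y hx hy e⟩
    classical
    have m1 := Nat.find_spec hex
    have m2 : Nat.find hex ≤ K := Nat.find_min' hex (hsep x y hx hy e)
    obtain ⟨l, hl⟩ : ∃ l, Nat.find hex = l + 1 := Nat.exists_eq_succ_of_ne_zero fun h0 => by
      rw [h0] at m1
      exact e1 (by simpa using m1.le)
    have m3 := Nat.find_min hex (show l < Nat.find hex by omega)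
    rw [hl] at m1
    refine le_trans (ind_pos ⟨m1, not_lt.1 m3⟩).ge (single_le_sum
      (f := fun l : ℕ => ind (1 / 2 ^ (l + 1) < |y - x| ∧ |y - x| ≤ 1 / 2 ^ l))
      (fun _ _ => ind_nonneg _) (mem_range.2 (by omega)))

end Vale.Agent.P114
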