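import Vale.Agent.P114.Avg

/-! Entropy of a sum of independent digits is controlled linearly by separation probabilities. -/

namespace Vale.Agent.P114
open Finset

/-- The entropy increment at a point. -/
noncomputable def gdD (ν : FD) (k : ℕ) (u x : ℝ) : ℝ :=
  Real.log (ms ν (lb k u) x) - Real.log (ms ν (lb (k + 1) u) x)

lemma gd_simple (ν : FD) (k : ℕ) (x : ℝ) : Simple fun u => gdD ν k u x :=
  Simple.comp2 (fun a b => Real.log a - Real.log b) (simple_ms ν k x) (simple_ms ν (k + 1) x)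

lemma gd_periodic (ν : FD) (k : ℕ) (x u : ℝ) : gdD ν k (u + 1) x = gdD ν k u x := by
  simp only [gdD, ms_periodic]

lemma gd_view (μ : FD) (F : ℝ → ℝ → ℝ) (hs : ∀ x, Simple (F x))
    (hp : ∀ x u, F x (u + 1) = F x u) :
    Avg (fun u => E μ fun x => F x u) = Avg fun ρ => E μ fun x => F x (ρ + -x) := by
  rw [Avg_E μ hs, Avg_E μ (F := fun x ρ => F x (ρ + -x)) fun x => (hs x).shift (-x)]
  exact E_congr fun x _ => (Avg_shift (hp x) (-x)).symm

lemma gd_point {a b θ : ℝ} (hθ : 0 < θ) (hb : 0 < b) (hab : b ≤ a) :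
    Real.log a - Real.log b ≤
      θ * max (Real.log a - Real.log b - 3) 0 ^ 2 + (6 + 1 / (2 * θ)) * (1 - b / a) := by
  have ha : 0 < a := hb.trans_le hab
  set d := Real.log a - Real.log b with hd
  have hd0 : 0 ≤ d := sub_nonneg.2 (Real.log_le_log hb hab)
  have h1 : (1 + d) * (b / a) ≤ 1 := by
    have h2 : Real.exp d = a / b := by
      rw [hd, Real.exp_sub, Real.exp_log ha, Real.exp_log hb]
    have h3 := Real.add_one_le_exp d
    rw [h2, le_div_iff₀ hb] at h3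
    rw [← mul_div_assoc, div_le_one ha]
    linarith
  have hz0 : 0 ≤ b / a := by positivity
  have hz1 : b / a ≤ 1 := (div_le_one ha).2 hab
  have ht : 0 < 1 / (2 * θ) := by positivity
  rcases le_total d 3 with h | h
  · rw [max_eq_right (by linarith)]
    have : d ≤ 6 * (1 - b / a) := by nlinarith
    nlinarith [mul_nonneg ht.le (sub_nonneg.2 hz1)]
  · rw [max_eq_left (by linarith)]
    have h4 : 3 / 4 ≤ 1 - b / a := by nlinarith
    have h5 : d - 3 ≤ θ * (d - 3) ^ 2 + 1 / (2 * θ) / 2 := by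
      have : θ * (d - 3) ^ 2 + 1 / (2 * θ) / 2 - (d - 3) = θ * (d - 3 - 1 / (2 * θ)) ^ 2 := by
        field_simp; ring
      nlinarith [mul_nonneg hθ.le (sq_nonneg (d - 3 - 1 / (2 * θ)))]
    nlinarith [mul_le_mul_of_nonneg_left h4 (show 0 ≤ 6 + 1 / (2 * θ) by positivity)]

/-- A weak type estimate. -/
lemma gd_weak {ν : FD} (hν : Prob ν) {h σ c : ℝ} (hh : 0 < h) (hc : 0 ≤ c) (B : ℝ → Prop)
    (hB : ∀ x, 0 < ν.coeff x → B x →
      (E ν fun y => ind (0 ≤ σ * (y - x) ∧ |y - x| < h)) ≤ c * E ν fun y => ind (|y - x| ≤ 4 * h)) :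
    (E ν fun x => ind (B x)) ≤ 9 * c := by
  classical
  let g : ℝ → ℤ := fun x => ⌊x / h⌋
  let T := ν.coeff.support.filter B
  let S := T.image g
  have hpos : ∀ x ∈ T, 0 < ν.coeff x := fun x hx =>
    (hν.pos x).lt_of_ne' (Finsupp.mem_support_iff.1 (mem_filter.1 hx).1)
  have h1 : (E ν fun x => ind (B x)) = ∑ i ∈ S, E ν fun x => ind (B x ∧ g x = i) := by
    rw [← E_sum]
    refine E_congr fun x hx => ?_
    by_cases hb : B x
    · have hx' : g x ∈ S := mem_image_of_mem g (mem_filter.2 ⟨Finsupp.mem_support_iff.2 hx, hb⟩)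
      rw [sum_eq_single_of_mem _ hx' fun i _ hi => ind_neg fun e => hi e.2.symm, ind_pos hb,
        ind_pos ⟨hb, rfl⟩]
    · rw [ind_neg hb, sum_eq_zero fun i _ => ind_neg fun e => hb e.1]
  have h2 : ∀ i ∈ S, (E ν fun x => ind (B x ∧ g x = i)) ≤ c * E ν fun y => ind (|g y - i| ≤ 4) := by
    intro i hi
    obtain ⟨x0, hx0, hmin⟩ := exists_min_image (T.filter fun x => g x = i) (fun x => σ * x) (by
      obtain ⟨x, hx, e⟩ := mem_image.1 hi
      exact ⟨x, mem_filter.2 ⟨hx, e⟩⟩)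
    obtain ⟨hx0, e0⟩ := mem_filter.1 hx0
    have a1 : (E ν fun x => ind (B x ∧ g x = i)) ≤
        E ν fun y => ind (0 ≤ σ * (y - x0) ∧ |y - x0| < h) := by
      refine E_mono' hν.pos fun y hy => ind_mono fun hy' => ⟨?_, ?_⟩
      · have := hmin y
          (mem_filter.2 ⟨mem_filter.2 ⟨Finsupp.mem_support_iff.2 hy.ne', hy'.1⟩, hy'.2⟩)
        linarith
      · have := Int.abs_sub_lt_one_of_floor_eq_floor (hy'.2.trans e0.symm)
        rwa [← sub_div, abs_div, abs_of_pos hh, div_lt_one hh] at this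
    refine a1.trans ((hB x0 (hpos x0 hx0) (mem_filter.1 hx0).2).trans
      (mul_le_mul_of_nonneg_left (E_mono hν.pos fun y => ind_mono fun hy => ?_) hc))
    rw [← e0]
    refine abs_floor_sub_le (K := 4) ?_
    rw [← sub_div, abs_div, abs_of_pos hh, div_le_iff₀ hh]
    exact_mod_cast hy
  rw [h1]
  refine (sum_le_sum h2).trans ?_
  rw [← mul_sum, ← E_sum, mul_comm]
  refine mul_le_mul_of_nonneg_right (hν.E_le fun y _ => ?_) hc
  have : ∑ i ∈ S, ind (|g y - i| ≤ 4) = ((S.filter fun i => |g y - i| ≤ 4).card : ℝ) := by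
    simp only [ind]
    rw [card_filter]
    push_cast
    exact sum_congr rfl fun i _ => by congr
  rw [this]
  have hsub : (S.filter fun i => |g y - i| ≤ 4) ⊆ Icc (g y - 4) (g y + 4) := fun i hi => by
    have := abs_le.1 (mem_filter.1 hi).2
    rw [mem_Icc]; omega
  have := card_le_card hsub
  rw [Int.card_Icc, show g y + 4 + 1 - (g y - 4) = 9 by ring] at this
  exact_mod_cast this

lemma gd_half (k : ℕ) (ρ : ℝ) : ∃ σ : ℝ, ∀ x y, 0 ≤ σ * (y - x) → |y - x| < 1 / 2 ^ (k + 2) →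
    lb (k + 1) (ρ + -x) y = lb (k + 1) (ρ + -x) x := by
  have hf := Int.floor_le (2 ^ (k + 1) * ρ)
  have hf' := Int.lt_floor_add_one (2 ^ (k + 1) * ρ)
  have key : ∀ x y : ℝ, |y - x| < 1 / 2 ^ (k + 2) → |2 ^ (k + 1) * (y - x)| < 1 / 2 := by
    intro x y h
    rw [lt_div_iff₀ (by positivity), pow_succ] at h
    rw [abs_mul, abs_of_pos (by positivity)]
    linarith
  have hp : (0 : ℝ) < 2 ^ (k + 1) := by positivity
  have e : ∀ x y : ℝ, 2 ^ (k + 1) * (y + (ρ + -x)) = 2 ^ (k + 1) * ρ + 2 ^ (k + 1) * (y - x) :=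
    fun x y => by ring
  rcases le_total (2 ^ (k + 1) * ρ) (⌊2 ^ (k + 1) * ρ⌋ + 1 / 2) with h | h
  · refine ⟨1, fun x y h1 h2 => ?_⟩
    have := abs_lt.1 (key x y h2)
    rw [lb, lb, e, e, sub_self, mul_zero, add_zero, Int.floor_eq_iff]
    constructor <;> nlinarith
  · refine ⟨-1, fun x y h1 h2 => ?_⟩
    have := abs_lt.1 (key x y h2)
    rw [lb, lb, e, e, sub_self, mul_zero, add_zero, Int.floor_eq_iff]
    constructor <;> nlinarith

lemma gd_bad {ν : FD} (hν : Prob ν) (k : ℕ) (ρ : ℝ) :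
    (E ν fun x => ind (3 < gdD ν k (ρ + -x) x)) ≤ 1 / 2 := by
  obtain ⟨σ, hσ⟩ := gd_half k ρ
  refine (gd_weak hν (h := 1 / 2 ^ (k + 2)) (σ := σ) (c := Real.exp (-3)) (by positivity)
    (Real.exp_pos _).le _ fun x hx hb => ?_).trans ?_
  · have h1 := ms_pos hν.pos (lb (k + 1) (ρ + -x)) hx
    have h0 := ms_pos hν.pos (lb k (ρ + -x)) hx
    have h2 : ms ν (lb (k + 1) (ρ + -x)) x ≤ Real.exp (-3) * ms ν (lb k (ρ + -x)) x := by
      rw [← Real.exp_log h1, ← Real.exp_log h0, ← Real.exp_add]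
      refine Real.exp_le_exp.2 ?_
      rw [gdD] at hb
      linarith
    refine le_trans (E_mono hν.pos fun y => ind_mono fun hy => hσ x y hy.1 hy.2) (h2.trans
      (mul_le_mul_of_nonneg_left (E_mono hν.pos fun y => ind_mono fun hy => ?_)
        (Real.exp_pos _).le))
    refine (abs_lt_of_lb_eq hy).le.trans_eq ?_
    field_simp; ring
  · have h1 := Real.exp_one_gt_d9
    have h2 : Real.exp 3 = Real.exp 1 ^ 3 := by rw [← Real.exp_nat_mul]; norm_num
    have h3 : 18 ≤ Real.exp 3 := by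
      rw [h2]
      exact le_trans (by norm_num) (pow_le_pow_left₀ (by norm_num) h1.le 3)
    rw [Real.exp_neg, ← div_eq_mul_inv, div_le_iff₀ (by positivity)]
    linarith

lemma gd_sq_le_var {ν : FD} (hν : Prob ν) (f : ℝ → ℝ) (B : ℝ → Prop)
    (hf : ∀ x, ¬B x → f x = 0) (hB : (E ν fun x => ind (B x)) ≤ 1 / 2) :
    (E ν fun x => f x ^ 2) ≤ 2 * Var ν f := by
  have h : (E ν fun x => 4 * E ν f * f x) ≤
      E ν fun x => f x ^ 2 + 4 * E ν f ^ 2 * ind (B x) := E_mono hν.pos fun x => by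
    by_cases hb : B x
    · rw [ind_pos hb]; nlinarith [sq_nonneg (f x - 2 * E ν f)]
    · rw [ind_neg hb, hf x hb]; simp
  rw [E_const_mul, E_add, E_const_mul] at h
  rw [Var]
  nlinarith [mul_le_mul_of_nonneg_left hB (show 0 ≤ 4 * E ν f ^ 2 by positivity)]

lemma gd_log_sq {t : ℝ} (ht : 0 < t) : Real.log t ^ 2 ≤ (t - 1) ^ 2 / t := by
  have h1 : |Real.log t / 2| ≤ |Real.sinh (Real.log t / 2)| := by
    rw [Real.abs_sinh]
    exact Real.self_le_sinh_iff.2 (abs_nonneg _)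
  have h2 := sq_le_sq.2 h1
  have h3 : Real.exp (Real.log t / 2) ^ 2 = t := by
    rw [← Real.exp_nat_mul]; push_cast
    rw [mul_div_cancel₀ _ two_ne_zero, Real.exp_log ht]
  have h4 : Real.sinh (Real.log t / 2) ^ 2 = (t - 1) ^ 2 / t / 4 := by
    rw [Real.sinh_eq, Real.exp_neg]
    have := Real.exp_pos (Real.log t / 2)
    generalize Real.exp (Real.log t / 2) = s at *
    subst h3
    field_simp
    ring
  rw [h4] at h2
  linarith

lemma gd_ineq {x y : ℝ} (hx : 0 < x) (hy : 0 ≤ y) (hy1 : y ≤ 1) :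
    y * (Real.log y - Real.log x) ^ 2 ≤ 8 * (√x - √y + (y - x) * (1 / (2 * √x))) := by
  obtain ⟨s, hs, rfl⟩ : ∃ s, 0 < s ∧ x = s ^ 2 := ⟨√x, Real.sqrt_pos.2 hx, (Real.sq_sqrt hx.le).symm⟩
  obtain ⟨r, hr, rfl⟩ : ∃ r, 0 ≤ r ∧ y = r ^ 2 := ⟨√y, Real.sqrt_nonneg _, (Real.sq_sqrt hy).symm⟩
  rw [Real.sqrt_sq hs.le, Real.sqrt_sq hr]
  have e : 8 * (s - r + (r ^ 2 - s ^ 2) * (1 / (2 * s))) = 4 * ((r - s) ^ 2 / s) := by
    field_simp; ring
  rw [e]
  rcases hr.eq_or_lt with rfl | hr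
  · simp only [ne_eq, OfNat.ofNat_ne_zero, not_false_eq_true, zero_pow, zero_mul]; positivity
  have hr1 : r ≤ 1 := by nlinarith
  have h1 := gd_log_sq (div_pos hr hs)
  rw [Real.log_div hr.ne' hs.ne'] at h1
  rw [Real.log_pow, Real.log_pow]
  have h2 : r ^ 2 * ((r / s - 1) ^ 2 / (r / s)) = r * ((r - s) ^ 2 / s) := by field_simp
  have h3 := mul_le_mul_of_nonneg_left h1 (sq_nonneg r)
  have h4 : r * ((r - s) ^ 2 / s) ≤ 1 * ((r - s) ^ 2 / s) :=
    mul_le_mul_of_nonneg_right hr1 (by positivity)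
  push_cast
  nlinarith

section dom
variable {ν μ : FD} (hν : Pos ν) (hμ : Pos μ) (hle : ∀ F : ℝ → ℝ, (∀ x, 0 ≤ F x) → E μ F ≤ E ν F)
include hν hμ hle

omit hν hμ in
lemma gd_supp {x : ℝ} (hx : 0 < μ.coeff x) : 0 < ν.coeff x := by
  rw [coeff_eq_E] at hx ⊢
  exact hx.trans_le (hle _ fun _ => ind_nonneg _)

lemma gd_dens (c : ℝ → ℤ) (G : ℝ → ℝ) (hG : ∀ x y, c y = c x → G y = G x) :
    (E ν fun x => ms μ c x / ms ν c x * G x) = E μ G := by
  have h1 : (E ν fun x => ms μ c x / ms ν c x * G x) =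
      E ν fun x => E μ fun z => ind (c x = c z) * (G z / ms ν c z) := E_congr fun x _ => by
    rw [ms, div_mul_eq_mul_div, mul_div_assoc, ← E_mul_const]
    refine E_congr fun z _ => ?_
    by_cases e : c z = c x
    · rw [ind_pos e, ind_pos e.symm, hG x z e, ms_congr ν e]
    · rw [ind_neg e, ind_neg fun e' => e e'.symm, zero_mul, zero_mul]
  rw [h1, E_swap]
  refine E_congr fun z hz => ?_
  rw [E_mul_const]
  exact mul_div_cancel₀ _ (ms_pos hν c (gd_supp hle ((hμ z).lt_of_ne' hz))).ne'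

lemma gd_step (k : ℕ) (u : ℝ) :
    (E μ fun z => (gdD ν k u z - gdD μ k u z) ^ 2) ≤
      8 * ((E ν fun x => √(ms μ (lb k u) x / ms ν (lb k u) x)) -
        E ν fun x => √(ms μ (lb (k + 1) u) x / ms ν (lb (k + 1) u) x)) := by
  let p : ℕ → ℝ → ℝ := fun j x => ms μ (lb j u) x / ms ν (lb j u) x
  have hp : ∀ j x y, lb j u y = lb j u x → p j y = p j x := fun j x y e => by
    simp only [p, ms_congr _ e]
  have h1 : (E μ fun z => (gdD ν k u z - gdD μ k u z) ^ 2) =
      E μ fun z => (Real.log (p (k + 1) z) - Real.log (p k z)) ^ 2 := E_congr fun z hz => by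
    have h := (hμ z).lt_of_ne' hz
    have h' := gd_supp hle h
    simp only [p, gdD]
    rw [Real.log_div (ms_pos hμ _ h).ne' (ms_pos hν _ h').ne',
      Real.log_div (ms_pos hμ _ h).ne' (ms_pos hν _ h').ne']
    ring
  have h2 := gd_dens hν hμ hle (lb (k + 1) u)
    (fun z => (Real.log (p (k + 1) z) - Real.log (p k z)) ^ 2) fun x y e => by
      simp only [hp _ x y e, hp _ x y (lb_refine (Nat.le_succ k) e)]
  have h3 := gd_dens hν hμ hle (lb (k + 1) u) (fun z => 1 / (2 * √(p k z))) fun x y e => by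
    simp only [hp _ x y (lb_refine (Nat.le_succ k) e)]
  have h4 := gd_dens hν hμ hle (lb k u) (fun z => 1 / (2 * √(p k z))) fun x y e => by
    simp only [hp _ x y e]
  have h5 : (E ν fun x => p (k + 1) x * (Real.log (p (k + 1) x) - Real.log (p k x)) ^ 2) ≤
      E ν fun x => 8 * (√(p k x) - √(p (k + 1) x) +
        (p (k + 1) x * (1 / (2 * √(p k x))) - p k x * (1 / (2 * √(p k x))))) :=
    E_mono' hν fun x hx => by
      rw [← sub_mul]
      rcases (ms_nonneg hμ (lb k u) x).eq_or_lt with e | e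
      · have e' : ms μ (lb (k + 1) u) x = 0 :=
          le_antisymm ((ms_lb_anti hμ (Nat.le_succ k) u x).trans e.ge) (ms_nonneg hμ _ x)
        simp [p, ← e, e']
      · exact gd_ineq (div_pos e (ms_pos hν _ hx))
          (div_nonneg (ms_nonneg hμ _ _) (ms_nonneg hν _ _))
          ((div_le_one (ms_pos hν _ hx)).2 (hle _ fun _ => ind_nonneg _))
  rw [E_const_mul, E_add, E_sub, E_sub] at h5
  rw [h1, ← h2]
  refine h5.trans_eq ?_
  simp only [p] at h3 h4 ⊢
  rw [h3, h4]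
  ring

end dom

lemma gd_tel {ν μ : FD} (hν : Prob ν) (hμ : Pos μ)
    (hle : ∀ F : ℝ → ℝ, (∀ x, 0 ≤ F x) → E μ F ≤ E ν F) (K : ℕ) :
    ∑ k ∈ range K, Avg (fun u => E μ fun z => (gdD ν k u z - gdD μ k u z) ^ 2) ≤ 8 := by
  have hs : ∀ k, Simple fun u => E μ fun z => (gdD ν k u z - gdD μ k u z) ^ 2 := fun k =>
    Simple.E μ fun z => Simple.comp2 (fun a b => (a - b) ^ 2) (gd_simple ν k z) (gd_simple μ k z)
  rw [← Avg_sum _ fun k _ => hs k]
  refine Avg_le (Simple.sum _ fun k _ => hs k) fun u => ?_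
  refine (sum_le_sum fun k _ => gd_step hν.pos hμ hle k u).trans ?_
  rw [← mul_sum, sum_range_sub' fun k => E ν fun x => √(ms μ (lb k u) x / ms ν (lb k u) x)]
  have h1 : (E ν fun x => √(ms μ (lb 0 u) x / ms ν (lb 0 u) x)) ≤ 1 := hν.E_le fun x hx =>
    Real.sqrt_le_one.2 ((div_le_one (ms_pos hν.pos _ hx)).2 (hle _ fun _ => ind_nonneg _))
  have h2 : 0 ≤ E ν fun x => √(ms μ (lb K u) x / ms ν (lb K u) x) :=
    E_nonneg hν.pos fun _ => Real.sqrt_nonneg _
  linarith

lemma gd_shift {τ : FD} (hτ : Pos τ) {q : ℝ} (hq : 0 < q) (a : ℝ) (k : ℕ) (ρ : ℝ) {y : ℝ}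
    (hy : 0 < τ.coeff y) :
    gdD (AddMonoidAlgebra.single a q * τ) k (ρ + -(a + y)) (a + y) = gdD τ k (ρ + -y) y := by
  have h : ∀ j, ms (AddMonoidAlgebra.single a q * τ) (lb j (ρ + -(a + y))) (a + y) =
      q * ms τ (lb j (ρ + -y)) y := fun j => by
    rw [ms, E_mul, E_single, ms]
    simp only [lb_add, show ρ + -(a + y) + a = ρ + -y by ring]
  rw [gdD, gdD, h, h, Real.log_mul hq.ne' (ms_pos hτ _ hy).ne',
    Real.log_mul hq.ne' (ms_pos hτ _ hy).ne']
  ring

theorem gadget {A : Type*} [Fintype A] {n : ℕ} {ν : FD} (h : Digits A n ν) (K : ℕ) {θ : ℝ}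
    (hθ : 0 < θ) : Gap K ν ≤ 16 * θ * Fintype.card A * n +
      (6 + 1 / (2 * θ)) * ∑ k ∈ range K, del ν k := by
  obtain ⟨q, t, hq0, hq1, e⟩ := h
  have hd : ∀ j, Prob (dig (q j) (t j)) := fun j => prob_dig (hq0 j) (hq1 j) _
  have hp : ∀ s : Finset (Fin n), Prob (∏ i ∈ s, dig (q i) (t i)) := fun s =>
    prod_induction _ _ (fun _ _ => Prob.mul) prob_one fun i _ => hd i
  have hν : Prob ν := e ▸ hp univ
  let τ : Fin n → FD := fun j => ∏ i ∈ univ.erase j, dig (q i) (t i)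
  let μ : Fin n → A → FD := fun j a => AddMonoidAlgebra.single (t j a) (q j a) * τ j
  have hμE : ∀ j a F, E (μ j a) F = q j a * E (τ j) fun y => F (t j a + y) := fun j a F => by
    simp only [μ, E_mul, E_single]
  have hμ : ∀ j a, Pos (μ j a) := fun j a => pos_of_E fun F hF => by
    rw [hμE]; exact mul_nonneg (hq0 j a) (E_nonneg (hp _).pos fun _ => hF _)
  have hle : ∀ j a (F : ℝ → ℝ), (∀ x, 0 ≤ F x) → E (μ j a) F ≤ E ν F := fun j a F hF => by
    rw [hμE, e, ← mul_prod_erase univ _ (mem_univ j), E_mul, E_dig]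
    exact single_le_sum (f := fun a => q j a * E (τ j) fun y => F (t j a + y))
      (fun b _ => mul_nonneg (hq0 j b) (E_nonneg (hp _).pos fun _ => hF _)) (mem_univ a)
  have hφ : ∀ k x, Simple fun u => max (gdD ν k u x - 3) 0 ^ 2 := fun k x =>
    (gd_simple ν k x).comp fun a => max (a - 3) 0 ^ 2
  have hψ : ∀ j a k z, Simple fun u => (gdD ν k u z - gdD (μ j a) k u z) ^ 2 := fun j a k z =>
    Simple.comp2 (fun a b => (a - b) ^ 2) (gd_simple ν k z) (gd_simple _ k z)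
  have h1 : ∀ k ρ, (E ν fun x => max (gdD ν k (ρ + -x) x - 3) 0 ^ 2) ≤
      2 * ∑ j, ∑ a, E (μ j a) fun z => (gdD ν k (ρ + -z) z - gdD (μ j a) k (ρ + -z) z) ^ 2 := by
    intro k ρ
    refine (gd_sq_le_var hν (fun x => max (gdD ν k (ρ + -x) x - 3) 0) _
      (fun x hx => max_eq_right (by linarith [not_lt.1 hx])) (gd_bad hν k ρ)).trans
      (mul_le_mul_of_nonneg_left ?_ zero_le_two)
    have := efron_stein univ _ hd fun x => max (gdD ν k (ρ + -x) x - 3) 0
    rw [← e] at this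
    refine this.trans (sum_le_sum fun j _ => ?_)
    simp only [hμE, ← E_const_mul]
    rw [← E_sum]
    refine E_mono' (hp _).pos fun y hy => ?_
    refine ((hd j).var_le _ (max (gdD (τ j) k (ρ + -y) y - 3) 0)).trans ?_
    rw [E_dig]
    refine sum_le_sum fun a _ => ?_
    rcases (hq0 j a).eq_or_lt with e0 | e0
    · rw [← e0, zero_mul, zero_mul]
    refine mul_le_mul_of_nonneg_left ?_ e0.le
    simp only [μ]
    rw [gd_shift (hp _).pos e0 _ k ρ hy]
    refine sq_le_sq.2 ((abs_max_sub_max_le_abs _ _ _).trans_eq ?_)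
    congr 1; ring
  have h2 : ∀ k, Avg (fun u => E ν fun x => max (gdD ν k u x - 3) 0 ^ 2) ≤
      2 * ∑ j, ∑ a, Avg fun u => E (μ j a) fun z => (gdD ν k u z - gdD (μ j a) k u z) ^ 2 := by
    intro k
    have hs : ∀ j a, Simple fun ρ => E (μ j a) fun z =>
        (gdD ν k (ρ + -z) z - gdD (μ j a) k (ρ + -z) z) ^ 2 := fun j a =>
      Simple.E _ fun z => (hψ j a k z).shift (-z)
    rw [gd_view ν (fun x u => max (gdD ν k u x - 3) 0 ^ 2) (hφ k) fun x u => by
      simp only [gd_periodic]]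
    refine (Avg_mono (Simple.E ν fun x => (hφ k x).shift (-x))
      ((Simple.sum _ fun j _ => Simple.sum _ fun a _ => hs j a).comp (2 * ·)) (h1 k)).trans_eq ?_
    rw [Avg_const_mul, Avg_sum _ fun j _ => Simple.sum _ fun a _ => hs j a]
    congr 1
    refine sum_congr rfl fun j _ => ?_
    rw [Avg_sum _ fun a _ => hs j a]
    refine sum_congr rfl fun a _ => ?_
    rw [gd_view (μ j a) (fun z u => (gdD ν k u z - gdD (μ j a) k u z) ^ 2) (hψ j a k) fun x u => by
      simp only [gd_periodic]]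
  have h3 : ∑ k ∈ range K, Avg (fun u => E ν fun x => max (gdD ν k u x - 3) 0 ^ 2) ≤
      16 * Fintype.card A * n := by
    refine (sum_le_sum fun k _ => h2 k).trans ?_
    rw [← mul_sum, sum_comm]
    have : ∀ j : Fin n, ∑ k ∈ range K, ∑ a, Avg (fun u => E (μ j a) fun z =>
        (gdD ν k u z - gdD (μ j a) k u z) ^ 2) ≤ Fintype.card A * 8 := fun j => by
      rw [sum_comm]
      refine (sum_le_sum fun a _ => gd_tel hν (hμ j a) (hle j a) K).trans_eq ?_
      simp
    refine (mul_le_mul_of_nonneg_left (sum_le_sum fun j _ => this j) zero_le_two).trans_eq ?_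
    simp only [sum_const, card_univ, Fintype.card_fin, nsmul_eq_mul]
    ring
  have h4 : ∀ K, Gap K ν ≤ θ * ∑ k ∈ range K,
      Avg (fun u => E ν fun x => max (gdD ν k u x - 3) 0 ^ 2) +
        (6 + 1 / (2 * θ)) * ∑ k ∈ range K, del ν k := by
    intro K
    induction K with
    | zero => simp [Gap_zero]
    | succ K ih =>
      have s1 : Simple fun u => E ν fun x => max (gdD ν K u x - 3) 0 ^ 2 := Simple.E ν (hφ K)
      have s2 : Simple fun u => E ν fun x => 1 - ms ν (lb (K + 1) u) x / ms ν (lb K u) x :=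
        Simple.E ν fun x => Simple.comp2 (fun a b => 1 - a / b) (simple_ms ν (K + 1) x)
          (simple_ms ν K x)
      have h5 : Avg (fun u => E ν fun x => gdD ν K u x) ≤
          θ * Avg (fun u => E ν fun x => max (gdD ν K u x - 3) 0 ^ 2) +
            (6 + 1 / (2 * θ)) * del ν K := by
        rw [del, ← Avg_const_mul, ← Avg_const_mul, ← Avg_add (s1.comp (θ * ·))
          (s2.comp ((6 + 1 / (2 * θ)) * ·))]
        refine Avg_mono (Simple.E ν fun x => gd_simple ν K x) (Simple.comp2 (· + ·)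
          (s1.comp (θ * ·)) (s2.comp ((6 + 1 / (2 * θ)) * ·))) fun u => ?_
        rw [← E_const_mul, ← E_const_mul, ← E_add]
        exact E_mono' hν.pos fun x hx => gd_point hθ (ms_pos hν.pos _ hx)
          (ms_lb_anti hν.pos (Nat.le_succ K) u x)
      rw [Gap_succ, sum_range_succ, sum_range_succ]
      simp only [gdD] at h5 ih ⊢
      linarith
  refine (h4 K).trans ?_
  nlinarith [mul_le_mul_of_nonneg_left h3 hθ.le]

end Vale.Agent.P114
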