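import Vale.Agent.P114.Avg

/-! Accumulated variance makes a convolution smooth, and smooth measures have full entropy. -/

namespace Vale.Agent.P114
open Finset

lemma sm_U {ρ a s : ℝ} (hρ : 0 ≤ ρ) (h0 : 0 ≤ s) (hs : s ≤ a + ρ) :
    0 ≤ 2 * ((a / 2 + ρ) ^ 2 - (s - a / 2) ^ 2) := by
  nlinarith [mul_nonneg (add_nonneg h0 hρ) (sub_nonneg.2 hs)]

lemma Test.shift {r : ℝ} {Φ : ℝ → ℝ} (h : Test r Φ) (c : ℝ) : Test r fun x => Φ (c + x) :=
  fun x y => by simpa only [add_sub_add_left_eq_sub] using h (c + x) (c + y)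

lemma Sm.mono {ρ : ℝ} (hρ : 0 ≤ ρ) {ν : FD} {v v' : ℝ} (h : Sm ρ ν v) (h0 : 0 ≤ v')
    (hv : v' ≤ v) : Sm ρ ν v' := by
  intro τ V hτ hV hc r a hr ha Φ hΦ s h1 h2
  have h3 := h τ V hτ hV hc r a hr ha Φ hΦ s h1 h2
  rcases le_total (E (ν * τ) Φ - E (ν * τ) (fun x => Φ (x + s)) - 2 * ρ / r - 2 * s / a) 0 with e | e
  · exact (mul_nonpos_of_nonneg_of_nonpos (add_nonneg hV h0) e).trans (sm_U hρ h1 h2)
  · exact (mul_le_mul_of_nonneg_right (by linarith) e).trans h3

lemma Sm.mul {ρ : ℝ} {ν τ : FD} {v v' : ℝ} (hτ : Prob τ) (h0 : 0 ≤ v') (h : Sm ρ ν v)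
    (h' : Sm ρ τ v') : Sm ρ (ν * τ) (v + v') := by
  intro σ V hσ hV hc
  have := h _ _ (hτ.mul hσ) (add_nonneg hV h0) (h' σ V hσ hV hc)
  rwa [← mul_assoc, add_assoc, add_comm v'] at this

lemma sm_zero {ρ : ℝ} {ν : FD} (hν : Prob ν) : Sm ρ ν 0 := by
  intro τ V _ _ hc r a hr ha Φ hΦ s h1 h2
  rw [add_zero, E_mul, E_mul, ← E_sub, sub_sub, ← hν.E_const (2 * ρ / r + 2 * s / a), ← E_sub,
    ← E_const_mul]
  refine hν.E_le fun x _ => ?_
  have := hc r a hr ha _ (hΦ.shift x) s h1 h2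
  simp only [← add_assoc] at this
  rwa [sub_sub] at this

/-- A coupling of `ν` gives variance to the image `ν'` of `ν` under `x ↦ c * x`. -/
theorem sm_of_cpl {ν ν' : FD} (hν : Prob ν) {c σ ρ : ℝ}
    (hc : ∀ F, E ν' F = E ν fun x => F (c * x)) {w : ℝ → ℝ → ℝ} (hw : Cpl ν σ w) (hσ : 0 ≤ σ)
    (hρ : |c| * σ ≤ ρ) : Sm ρ ν' (c ^ 2 * E ν fun x => E ν fun y => w x y * (y - x) ^ 2) := by
  intro τ V hτ hV hcl r a hr ha Φ hΦ s h1 h2
  have hρ0 : 0 ≤ ρ := (mul_nonneg (abs_nonneg _) hσ).trans hρ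
  set v := c ^ 2 * E ν fun x => E ν fun y => w x y * (y - x) ^ 2 with hv
  have hv0 : 0 ≤ v := mul_nonneg (sq_nonneg _) (E_nonneg hν.pos fun x => E_nonneg hν.pos fun y =>
    mul_nonneg (hw.nonneg x y) (sq_nonneg _))
  let P : ℝ → ℝ := fun x => E τ fun z => Φ (x + z)
  have hP : ∀ x t, (E τ fun z => Φ (x + z + t)) = P (x + t) := fun x t => by
    simp only [P, add_right_comm x t]
  have hP' : ∀ x t, (E τ fun z => Φ (x + (z + t))) = P (x + t) := fun x t => by
    simp only [← hP, add_assoc]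
  rw [E_mul, E_mul, hc, hc, ← E_sub]
  simp only [hP]
  change (V + v) * ((E ν fun x => P (c * x) - P (c * x + s)) - _ - _) ≤ _
  have hb : ∀ x, P x - P (x + s) ≤ 2 ∧ P x - P (x + s) ≤ 2 * s / r := fun x => by
    simp only [P, ← E_sub]
    refine ⟨hτ.E_le fun z _ => (le_abs_self _).trans (hΦ _ _).1,
      hτ.E_le fun z _ => (le_abs_self _).trans ((hΦ _ _).2.trans_eq ?_)⟩
    rw [show x + z - (x + s + z) = -s by ring, abs_neg, abs_of_nonneg h1]
  have b1 : (E ν fun x => P (c * x) - P (c * x + s)) ≤ 2 := hν.E_le fun x _ => (hb _).1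
  have b2 : (E ν fun x => P (c * x) - P (c * x + s)) ≤ 2 * s / r := hν.E_le fun x _ => (hb _).2
  have p1 : 0 ≤ 2 * ρ / r := by positivity
  have p2 : 0 ≤ 2 * s / a := by positivity
  by_cases c1 : s < ρ
  · have : 2 * s / r ≤ 2 * ρ / r := by gcongr
    exact (mul_nonpos_of_nonneg_of_nonpos (add_nonneg hV hv0) (by linarith)).trans
      (sm_U hρ0 h1 h2)
  by_cases c2 : a ≤ s
  · have : 2 ≤ 2 * s / a := by rw [le_div_iff₀ ha]; linarith
    exact (mul_nonpos_of_nonneg_of_nonpos (add_nonneg hV hv0) (by linarith)).trans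
      (sm_U hρ0 h1 h2)
  have hsw : ∀ F : ℝ → ℝ, (E ν fun x => E ν fun y => w x y * F y) =
      E ν fun x => E ν fun y => w x y * F x := fun F => by
    rw [E_swap]
    simp only [hw.symm]
  have k1 : ∀ x, V * (P (c * x) - P (c * x + s) - 2 * ρ / r - 2 * s / a) ≤
      2 * ((a / 2 + ρ) ^ 2 - (s - a / 2) ^ 2) := fun x => by
    have := hcl r a hr ha _ (hΦ.shift (c * x)) s h1 h2
    rwa [hP'] at this
  have k2 : ∀ x y, w x y * (V * (P (c * x) - P (c * y + s) - 2 * ρ / r - 2 * (s + c * (y - x)) / a)) ≤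
      w x y * (2 * ((a / 2 + ρ) ^ 2 - (s + c * (y - x) - a / 2) ^ 2)) := fun x y => by
    by_cases e : σ < |y - x|
    · rw [hw.supp x y e, zero_mul, zero_mul]
    have e1 : |c * (y - x)| ≤ ρ := by
      rw [abs_mul]
      exact (mul_le_mul_of_nonneg_left (not_lt.1 e) (abs_nonneg _)).trans hρ
    have e2 := abs_le.1 e1
    have := hcl r a hr ha _ (hΦ.shift (c * x)) (s + c * (y - x)) (by linarith) (by linarith)
    rw [hP', show c * x + (s + c * (y - x)) = c * y + s by ring] at this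
    exact mul_le_mul_of_nonneg_left this (hw.nonneg x y)
  have k3 : (E ν fun x => (1 - E ν (w x)) * (V * (P (c * x) - P (c * x + s) - 2 * ρ / r - 2 * s / a)) +
      E ν fun y => w x y *
        (V * (P (c * x) - P (c * y + s) - 2 * ρ / r - 2 * (s + c * (y - x)) / a))) ≤
      E ν fun x => (1 - E ν (w x)) * (2 * ((a / 2 + ρ) ^ 2 - (s - a / 2) ^ 2)) +
        E ν fun y => w x y * (2 * ((a / 2 + ρ) ^ 2 - (s + c * (y - x) - a / 2) ^ 2)) :=
    E_mono hν.pos fun x => add_le_add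
      (mul_le_mul_of_nonneg_left (k1 x) (sub_nonneg.2 (hw.row x))) (E_mono hν.pos (k2 x))
  have l1 : (E ν fun x => (1 - E ν (w x)) *
      (V * (P (c * x) - P (c * x + s) - 2 * ρ / r - 2 * s / a)) + E ν fun y => w x y *
        (V * (P (c * x) - P (c * y + s) - 2 * ρ / r - 2 * (s + c * (y - x)) / a))) =
      E ν fun x => V * (P (c * x) - P (c * x + s) - (2 * ρ / r + 2 * s / a)) +
        ((E ν fun y => w x y * (V * (P (c * x + s) + 2 * c * x / a))) -
          E ν fun y => w x y * (V * (P (c * y + s) + 2 * c * y / a))) := E_congr fun x _ => by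
    rw [sub_mul, one_mul, ← E_mul_const, sub_add, ← E_sub ν, ← E_sub ν, sub_eq_add_neg, ← E_neg,
      sub_sub (P (c * x) - P (c * x + s))]
    congr 1
    exact E_congr fun y _ => by ring
  have l2 : (E ν fun x => (1 - E ν (w x)) * (2 * ((a / 2 + ρ) ^ 2 - (s - a / 2) ^ 2)) +
        E ν fun y => w x y * (2 * ((a / 2 + ρ) ^ 2 - (s + c * (y - x) - a / 2) ^ 2))) =
      E ν fun x => 2 * ((a / 2 + ρ) ^ 2 - (s - a / 2) ^ 2) +
        ((E ν fun y => w x y * (4 * c * x * (s - a / 2))) -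
          (E ν fun y => w x y * (4 * c * y * (s - a / 2))) -
            2 * (c ^ 2 * E ν fun y => w x y * (y - x) ^ 2)) := E_congr fun x _ => by
    rw [sub_mul, one_mul, ← E_mul_const, sub_add, ← E_sub, ← E_sub, ← E_const_mul, ← E_const_mul,
      ← E_sub, sub_eq_add_neg, ← E_neg]
    congr 1
    exact E_congr fun y _ => by ring
  rw [l1, l2, E_add, E_add, E_sub, E_sub, E_sub, hsw fun y => V * (P (c * y + s) + 2 * c * y / a),
    hsw fun y => 4 * c * y * (s - a / 2), E_const_mul, E_const_mul ν 2 fun x => c ^ 2 * _,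
    E_const_mul ν (c ^ 2), E_sub, hν.E_const, hν.E_const, ← hv] at k3
  have k4 : v * ((E ν fun x => P (c * x) - P (c * x + s)) - 2 * ρ / r - 2 * s / a) ≤ v * 2 :=
    mul_le_mul_of_nonneg_left (by linarith) hv0
  rw [add_mul]
  rw [← sub_sub] at k3
  linarith

lemma sm_simple (k : ℕ) (x y : ℝ) (R : ℤ → ℤ → Prop) :
    Simple fun u => ind (R (lb k u x) (lb k u y)) :=
  simple_ind (((measurable_lb k x).prodMk (measurable_lb k y))
    (MeasurableSet.of_discrete (s := {p : ℤ × ℤ | R p.1 p.2})))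

/-- The imbalance between the two children, seen from the odd child. -/
noncomputable def smG (ν : FD) (c : ℝ → ℤ) (j : ℤ) : ℝ :=
  ((E ν fun y => ind (c y = 2 * (j / 2))) - E ν fun y => ind (c y = 2 * (j / 2) + 1)) /
    ((E ν fun y => ind (c y = 2 * (j / 2))) + E ν fun y => ind (c y = 2 * (j / 2) + 1)) *
      ind (j % 2 = 1)

lemma smG_simple (ν : FD) (k : ℕ) (x : ℝ) : Simple fun u => smG ν (lb k u) (lb k u x) :=
  Simple.comp2 (· * ·) (Simple.comp2 (fun a b => (a - b) / (a + b))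
    (Simple.E ν fun y => sm_simple k x y fun j i => i = 2 * (j / 2))
    (Simple.E ν fun y => sm_simple k x y fun j i => i = 2 * (j / 2) + 1))
    (sm_simple k x x fun j _ => j % 2 = 1)

lemma smG_abs {ν : FD} (hν : Pos ν) (c : ℝ → ℤ) (j : ℤ) : |smG ν c j| ≤ 1 := by
  have h1 : 0 ≤ E ν fun y => ind (c y = 2 * (j / 2)) := E_nonneg hν fun _ => ind_nonneg _
  have h2 : 0 ≤ E ν fun y => ind (c y = 2 * (j / 2) + 1) := E_nonneg hν fun _ => ind_nonneg _
  rw [smG, abs_mul, abs_of_nonneg (ind_nonneg _), abs_div, abs_of_nonneg (add_nonneg h1 h2)]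
  refine mul_le_one₀ (div_le_one_of_le₀ (abs_le.2 ⟨?_, ?_⟩) (add_nonneg h1 h2)) (ind_nonneg _)
    (ind_le_one _) <;> linarith

lemma smG_diff {ν : FD} (hν : Pos ν) (k : ℕ) (u : ℝ) {x : ℝ} (hx : 0 < ν.coeff x) :
    smG ν (lb (k + 1) u) (lb (k + 1) u x + 1) - smG ν (lb (k + 1) u) (lb (k + 1) u x) =
      2 * (ms ν (lb (k + 1) u) x / ms ν (lb k u) x) - 1 := by
  have h0 := ms_pos hν (lb k u) hx
  have h1 : ms ν (lb k u) x = (E ν fun y => ind (lb (k + 1) u y = 2 * (lb (k + 1) u x / 2))) +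
      E ν fun y => ind (lb (k + 1) u y = 2 * (lb (k + 1) u x / 2) + 1) := by
    rw [ms, ← E_add]
    refine E_congr fun y _ => ?_
    rw [lb_succ k u y, lb_succ k u x]
    by_cases e1 : lb (k + 1) u y = 2 * (lb (k + 1) u x / 2)
    · rw [ind_pos e1, ind_pos (by omega), ind_neg (by omega), add_zero]
    · rw [ind_neg e1, zero_add]
      exact ind_congr (by omega)
  rw [h1] at h0 ⊢
  rcases Int.emod_two_eq_zero_or_one (lb (k + 1) u x) with e | e
  · have h2 : ms ν (lb (k + 1) u) x =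
        E ν fun y => ind (lb (k + 1) u y = 2 * (lb (k + 1) u x / 2)) :=
      E_congr fun y _ => ind_congr (by omega)
    rw [smG, smG, show (lb (k + 1) u x + 1) / 2 = lb (k + 1) u x / 2 by omega, ind_pos (by omega),
      ind_neg (P := lb (k + 1) u x % 2 = 1) (by omega), h2]
    field_simp
    ring
  · have h2 : ms ν (lb (k + 1) u) x =
        E ν fun y => ind (lb (k + 1) u y = 2 * (lb (k + 1) u x / 2) + 1) :=
      E_congr fun y _ => ind_congr (by omega)
    rw [smG, smG, ind_neg (P := (lb (k + 1) u x + 1) % 2 = 1) (by omega), ind_pos e, h2]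
    field_simp
    ring

lemma smG_test {ν : FD} (hν : Pos ν) (k : ℕ) :
    Test (1 / 2 ^ k) fun x => -Avg fun u => smG ν (lb k u) (lb k u x) := by
  have key : ∀ x y, Avg (fun u => smG ν (lb k u) (lb k u y)) -
      Avg (fun u => smG ν (lb k u) (lb k u x)) ≤ 2 * Avg fun u => ind (lb k u x ≠ lb k u y) := by
    intro x y
    rw [← Avg_sub (smG_simple ν k y) (smG_simple ν k x), ← Avg_const_mul]
    refine Avg_mono (Simple.comp2 (· - ·) (smG_simple ν k y) (smG_simple ν k x))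
      ((sm_simple k x y (· ≠ ·)).comp (2 * ·)) fun u => ?_
    by_cases e : lb k u x = lb k u y
    · rw [ind_neg (not_not.2 e), e, sub_self, mul_zero]
    · rw [ind_pos e]
      linarith [abs_le.1 (smG_abs hν (lb k u) (lb k u y)), abs_le.1 (smG_abs hν (lb k u) (lb k u x))]
  intro x y
  have a1 := key x y
  have a2 := key y x
  simp only [ne_comm (a := lb k _ y)] at a2
  have a3 : Avg (fun u => ind (lb k u x ≠ lb k u y)) ≤ 1 :=
    Avg_le (sm_simple k x y (· ≠ ·)) fun _ => ind_le_one _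
  have a4 := Avg_lb_ne k y x
  rw [show 2 * |x - y| / (1 / 2 ^ k) = 2 * (2 ^ k * |x - y|) by field_simp]
  constructor <;> rw [abs_le] <;> constructor <;> linarith

/-- Large variance gives almost full entropy at all the dyadic levels below `κ`. -/
theorem gap_ge_of_sm {ν : FD} (hν : Prob ν) {η ρ V : ℝ} (κ : ℕ) (hη : 0 < η) (hη1 : η ≤ 1) (hρ : 0 ≤ ρ)
    (hρη : ρ * 2 ^ κ ≤ η) (h : Sm ρ ν V) (hV : (1 / η + η) ^ 2 / η ≤ V) :
    κ * (Real.log 2 - 6 * η) ≤ Gap κ ν := by
  have hcl : Cl ρ ν V := by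
    have := h 1 0 prob_one le_rfl fun r a _ _ Φ _ s h1 h2 => by
      rw [zero_mul]; exact sm_U hρ h1 h2
    rwa [mul_one, zero_add] at this
  have hV0 : 0 < V := lt_of_lt_of_le (by positivity) hV
  have hρ1 : ρ ≤ η := (le_mul_of_one_le_right hρ (one_le_pow₀ one_le_two)).trans hρη
  have step : ∀ k < κ, Real.log 2 - 6 * η ≤ Avg fun u => E ν fun x =>
      Real.log (ms ν (lb k u) x) - Real.log (ms ν (lb (k + 1) u) x) := by
    intro k hk
    have s1 : (1 : ℝ) / 2 ^ (k + 1) ≤ 1 := by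
      rw [div_le_one (by positivity)]; exact one_le_pow₀ one_le_two
    have s2 : 2 ≤ 2 / η := by rw [le_div_iff₀ hη]; linarith
    have c1 := hcl (1 / 2 ^ (k + 1)) (2 / η) (by positivity) (by positivity) _
      (smG_test hν.pos (k + 1)) (1 / 2 ^ (k + 1)) (by positivity) (by linarith)
    have c2 : 2 * ((2 / η / 2 + ρ) ^ 2 - (1 / 2 ^ (k + 1) - 2 / η / 2) ^ 2) ≤ V * (2 * η) := by
      rw [div_le_iff₀ hη] at hV
      have : (2 / η / 2 + ρ) ^ 2 ≤ (1 / η + η) ^ 2 :=
        pow_le_pow_left₀ (by positivity) (by rw [div_right_comm]; norm_num [hρ1]) 2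
      nlinarith [sq_nonneg (1 / 2 ^ (k + 1) - 2 / η / 2)]
    have c3 := le_of_mul_le_mul_left (c1.trans c2) hV0
    have c4 : 2 * ρ / (1 / 2 ^ (k + 1)) ≤ 2 * η := by
      have : ρ * 2 ^ (k + 1) ≤ η :=
        (mul_le_mul_of_nonneg_left (pow_le_pow_right₀ one_le_two hk) hρ).trans hρη
      rw [div_div_eq_mul_div, div_one]
      linarith
    have c5 : 2 * (1 / 2 ^ (k + 1)) / (2 / η) ≤ η := by
      rw [div_le_iff₀ (by positivity), mul_div_cancel₀ _ hη.ne']
      linarith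
    have e1 : ∀ u x, lb (k + 1) u (x + 1 / 2 ^ (k + 1)) = lb (k + 1) u x + 1 := fun u x => by
      rw [lb, lb, ← Int.floor_add_one]
      congr 1
      field_simp
      ring
    have t1 : ∀ x, Simple fun u => smG ν (lb (k + 1) u) (lb (k + 1) u x + 1) := fun x => by
      simpa only [e1] using smG_simple ν (k + 1) (x + 1 / 2 ^ (k + 1))
    have t2 := fun x => Simple.comp2 (· - ·) (t1 x) (smG_simple ν (k + 1) x)
    have c6 : Avg (fun u => E ν fun x => smG ν (lb (k + 1) u) (lb (k + 1) u x + 1) -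
        smG ν (lb (k + 1) u) (lb (k + 1) u x)) ≤ 6 * η := by
      rw [Avg_E ν t2]
      simp only [Avg_sub (t1 _) (smG_simple ν (k + 1) _), E_sub]
      simp only [E_neg, e1] at c3
      linarith
    refine le_trans ?_ (Avg_mono ((Simple.E ν t2).comp (Real.log 2 - ·)) (Simple.E ν fun x =>
      Simple.comp2 (fun a b => Real.log a - Real.log b) (simple_ms ν k x) (simple_ms ν (k + 1) x))
        fun u => ?_)
    · rw [Avg_sub (Simple.const _) (Simple.E ν t2), Avg_const]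
      linarith
    · rw [← hν.E_const (Real.log 2), ← E_sub]
      refine E_mono' hν.pos fun x hx => ?_
      have m0 := ms_pos hν.pos (lb k u) hx
      have m1 := ms_pos hν.pos (lb (k + 1) u) hx
      have := Real.log_le_sub_one_of_pos (mul_pos two_pos (div_pos m1 m0))
      rw [Real.log_mul two_ne_zero (div_pos m1 m0).ne', Real.log_div m1.ne' m0.ne'] at this
      rw [smG_diff hν.pos k u hx]
      linarith
  have : ∀ K ≤ κ, K * (Real.log 2 - 6 * η) ≤ Gap K ν := by
    intro K hK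
    induction K with
    | zero => simp [Gap_zero]
    | succ K ih =>
      rw [Gap_succ]
      push_cast
      linarith [ih (by omega), step K (by omega)]
  exact this κ le_rfl

end Vale.Agent.P114
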