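import Vale.Agent.P114.Sys
import Vale.Agent.P114.Couple
import Vale.Agent.P114.Smooth
import Vale.Agent.P114.Gadget

/-! An entropy gap below the natural scale produces variance in blocks of letters. -/

namespace Vale.Agent.P114
open Finset

lemma exists_sep (ν : FD) : ∃ K₀ : ℕ, ∀ K, K₀ ≤ K →
    ∀ x y, 0 < ν.coeff x → 0 < ν.coeff y → x ≠ y → 1 / 2 ^ K < |y - x| := by
  have h : ∀ᶠ K : ℕ in Filter.atTop, ∀ x ∈ ν.coeff.support, ∀ y ∈ ν.coeff.support,
      x ≠ y → 1 / 2 ^ K < |y - x| := by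
    simp only [Finset.eventually_all]
    intro x _ y _
    by_cases hxy : x = y
    · exact Filter.Eventually.of_forall fun _ h => absurd hxy h
    · have := (tendsto_pow_atTop_nhds_zero_of_lt_one (r := (1 / 2 : ℝ)) (by norm_num)
        (by norm_num)).eventually (gt_mem_nhds (abs_pos.2 (sub_ne_zero.2 (Ne.symm hxy))))
      exact this.mono fun K hK _ => by rwa [one_div_pow] at hK
  obtain ⟨K₀, hK⟩ := Filter.eventually_atTop.1 h
  exact ⟨K₀, fun K h x y hx hy => hK K h x (Finsupp.mem_support_iff.2 hx.ne') y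
    (Finsupp.mem_support_iff.2 hy.ne')⟩

lemma HB_eq_of_sep {ν : FD} (hν : Pos ν) {ρ : ℝ} (hρ : 0 ≤ ρ)
    (h : ∀ x y, 0 < ν.coeff x → 0 < ν.coeff y → x ≠ y → ρ < |y - x|) : HB ν ρ = HB ν 0 := by
  refine E_congr fun x hx => congrArg (fun z => -Real.log z) (E_congr fun y hy => ind_congr
    ⟨fun e => ?_, fun e => e.trans hρ⟩)
  by_contra hc
  exact absurd (h x y ((hν x).lt_of_ne' hx) ((hν y).lt_of_ne' hy) fun e' => hc (by simp [e']))
    (not_lt.2 e)

lemma card_window {m σ : ℝ} {μ₀ : ℕ} (hm : 1 / 2 ^ μ₀ ≤ m) (K : ℕ) :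
    ((range K).filter fun k => m * σ < 1 / 2 ^ k ∧ 1 / 2 ^ k ≤ σ).card ≤ μ₀ := by
  set s := (range K).filter fun k => m * σ < 1 / 2 ^ k ∧ 1 / 2 ^ k ≤ σ
  rcases s.eq_empty_or_nonempty with h | h
  · simp [h]
  have h1 := (mem_filter.1 (s.min'_mem h)).2.2
  refine (card_le_card (t := Ico (s.min' h) (s.min' h + μ₀)) fun k hk =>
    mem_Ico.2 ⟨s.min'_le k hk, ?_⟩).trans_eq (by simp)
  have h2 := (mem_filter.1 hk).2.1
  have h3 : (1 : ℝ) / 2 ^ μ₀ * (1 / 2 ^ s.min' h) ≤ m * σ :=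
    mul_le_mul hm h1 (by positivity) (le_trans (by positivity) hm)
  have h4 := h3.trans_lt h2
  rw [one_div_mul_one_div, ← pow_add, one_div_lt_one_div (by positivity) (by positivity),
    pow_lt_pow_iff_right₀ one_lt_two] at h4
  omega

namespace Sys
variable {A T : Type*} [Fintype A] (S : Sys A T)

include S in
lemma nonempty : Nonempty A :=
  let ⟨a, _⟩ := nonempty_of_sum_ne_zero (S.hp1.trans_ne one_ne_zero); ⟨a⟩

lemma exists_bounds : ∃ m M : ℝ, 0 < m ∧ M < 1 ∧ ∀ a, m ≤ |S.r a| ∧ |S.r a| ≤ M := by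
  have := S.nonempty
  obtain ⟨a, ha⟩ := Finite.exists_min fun a => |S.r a|
  obtain ⟨b, hb⟩ := Finite.exists_max fun a => |S.r a|
  exact ⟨_, _, abs_pos.2 (S.hr0 a), S.hr1 b, fun c => ⟨ha c, hb c⟩⟩

lemma abs_P_bounds {m M : ℝ} (hm : 0 < m) (h : ∀ a, m ≤ |S.r a| ∧ |S.r a| ≤ M) (l : List A) :
    m ^ l.length ≤ |S.P l| ∧ |S.P l| ≤ M ^ l.length := by
  induction l with
  | nil => simp
  | cons b l ih =>
    rw [P_cons, abs_mul, List.length_cons, pow_succ', pow_succ']
    exact ⟨mul_le_mul (h b).1 ih.1 (by positivity) (abs_nonneg _),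
      mul_le_mul (h b).2 ih.2 (abs_nonneg _) ((abs_nonneg _).trans (h b).2)⟩

/-- Blocks of length `n` carry a linear amount of variance below their natural scale. -/
lemma blocks (hgap : ∀ n : ℕ, (n : ℝ) ≤ EW S.p n fun l => HB (S.Back 1 l) 0 - S.B l) :
    ∃ c : ℝ, 0 < c ∧ ∀ n : ℕ, ∃ (K : ℕ) (v : List A → ℕ → ℝ), (∀ l k, 0 ≤ v l k ∧ v l k ≤ 1) ∧
      (∀ l, l.length = n → ∀ k (a ρ : ℝ), |a| / 2 ^ k ≤ ρ →
        Sm ρ (S.Back a l) ((a / 2 ^ (k + 1)) ^ 2 * v l k)) ∧
      c * (n - 4) ≤ ∑ k ∈ range K, EW S.p n fun l => v l k := by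
  have := S.nonempty
  have hN : (0 : ℝ) < Fintype.card A := by exact_mod_cast Fintype.card_pos
  refine ⟨1 / (32 * (6 + 16 * Fintype.card A)), by positivity, fun n => ?_⟩
  choose K₀ hK₀ using fun l => exists_sep (S.Back 1 l)
  obtain ⟨K, hK⟩ := ((List.finite_length_eq A n).image K₀).bddAbove
  have hsep := fun (l : List A) (hl : l.length = n) => hK₀ l K (hK ⟨l, hl, rfl⟩)
  choose w hw hw0 hw1 using fun l hl => exists_cpl (S.prob 1 l) K (hsep l hl)
  let v : List A → ℕ → ℝ := fun l k =>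
    if h : l.length = n then E (S.Back 1 l) fun x => E (S.Back 1 l) (w l h k x) else 0
  have hv : ∀ l k, 0 ≤ v l k ∧ v l k ≤ 1 := fun l k => by
    by_cases h : l.length = n
    · simp only [v, dif_pos h]
      exact ⟨E_nonneg (S.prob 1 l).pos fun x => E_nonneg (S.prob 1 l).pos ((hw l h k).nonneg x),
        (S.prob 1 l).E_le fun x _ => (hw l h k).row x⟩
    · simp [v, h]
  refine ⟨K, v, hv, fun l hl k a ρ h => ?_, ?_⟩
  · have hρ : 0 ≤ ρ := le_trans (by positivity) h
    refine (sm_of_cpl (S.prob 1 l) (c := a) (fun F => by rw [← S.Back_scale, mul_one]) (hw l hl k)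
      (by positivity) (by rwa [mul_one_div])).mono hρ (mul_nonneg (sq_nonneg _) (hv l k).1) ?_
    rw [div_eq_mul_one_div, mul_pow, mul_assoc]
    refine mul_le_mul_of_nonneg_left ?_ (sq_nonneg _)
    simp only [v, dif_pos hl, ← E_const_mul]
    refine E_mono (S.prob 1 l).pos fun x => E_mono (S.prob 1 l).pos fun y => ?_
    rcases le_total |y - x| (1 / 2 ^ (k + 1)) with h1 | h1
    · simp [hw0 l hl k x y h1]
    · rw [mul_comm, ← sq_abs (y - x)]
      exact mul_le_mul_of_nonneg_left (pow_le_pow_left₀ (by positivity) h1 2)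
        ((hw l hl k).nonneg x y)
  · have h1 : (EW S.p n fun l => HB (S.Back 1 l) 0 - S.B l) ≤ EW S.p n fun l => (n / 2 + 2) +
        16 * (6 + 16 * Fintype.card A) * ∑ k ∈ range K, v l k := S.pv.EW_mono fun l hl => by
      have a1 := le_Gap (S.prob 1 l) K
      rw [HB_eq_of_sep (S.prob 1 l).pos (by positivity) (hsep l hl)] at a1
      have a2 := gadget (S.digits 1 l) K (θ := 1 / (32 * Fintype.card A)) (by positivity)
      rw [hl, show 16 * (1 / (32 * (Fintype.card A : ℝ))) * Fintype.card A * n = n / 2 by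
        field_simp; ring, show 1 / (2 * (1 / (32 * (Fintype.card A : ℝ)))) =
          16 * Fintype.card A by field_simp; ring] at a2
      have a3 := mul_le_mul_of_nonneg_left (hw1 l hl)
        (show (0 : ℝ) ≤ 6 + 16 * Fintype.card A by positivity)
      simp only [v, dif_pos hl, B]
      linarith
    rw [EW_add, S.pv.EW_const, EW_const_mul, EW_sum] at h1
    rw [one_div_mul_eq_div, div_le_iff₀ (by positivity)]
    linarith [hgap n]

lemma chain_eq (g : ℝ → ℝ) (n Q : ℕ) (c : ℝ) (l : List A) :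
    chain (fun c u => c / S.P u) (fun c _ => g c) n Q c l =
      ∑ i ∈ range Q, g (c / S.P (l.take (i * n))) := by
  induction Q generalizing c l with
  | zero => simp [chain]
  | succ Q ih =>
    rw [chain, ih, sum_range_succ', add_comm]
    simp only [zero_mul, List.take_zero, P_nil, div_one, add_left_inj]
    refine sum_congr rfl fun i _ => ?_
    rw [div_div, ← P_append, ← List.take_add, add_mul, one_mul, add_comm]

lemma chain_sm {ρ γ : ℝ} (hγ : 0 ≤ γ) {n : ℕ} {y : ℝ → List A → ℝ} (hy0 : ∀ c l, 0 ≤ y c l)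
    (hy : ∀ c l, l.length = n → Sm ρ (S.Back c l) (γ * y c l)) (Q : ℕ) (c : ℝ) (l : List A)
    (hl : Q * n ≤ l.length) : 0 ≤ chain (fun c u => c / S.P u) y n Q c l ∧
      Sm ρ (S.Back c l) (γ * chain (fun c u => c / S.P u) y n Q c l) := by
  induction Q generalizing c l with
  | zero => simpa [chain] using sm_zero (S.prob c l)
  | succ Q ih =>
    have h1 := ih (c / S.P (l.take n)) (l.drop n) (by rw [List.length_drop]; rw [add_mul] at hl; omega)
    refine ⟨add_nonneg (hy0 _ _) h1.1, ?_⟩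
    rw [chain, mul_add]
    conv => enter [2]; rw [← List.take_append_drop n l, Back_append]
    exact (hy c _ (List.length_take_of_le (by rw [add_mul] at hl; omega))).mul (S.prob _ _)
      (mul_nonneg hγ h1.1) h1.2

end Sys

lemma chain_lin {A S : Type*} (nx : S → List A → S) (f g : S → List A → ℝ) (a : ℝ) (n Q : ℕ)
    (c : S) (l : List A) : chain nx (fun c l => -f c l + a * g c l) n Q c l =
      -chain nx f n Q c l + a * chain nx g n Q c l := by
  induction Q generalizing c l with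
  | zero => simp [chain]
  | succ Q ih => simp only [chain, ih]; ring

lemma sum_offsets (F : ℕ → ℝ) (n Q : ℕ) :
    ∑ o ∈ range n, ∑ i ∈ range Q, F (o + i * n) = ∑ j ∈ range (Q * n), F j := by
  induction Q with
  | zero => simp
  | succ Q ih =>
    rw [add_mul, one_mul, sum_range_add, ← ih, ← sum_add_distrib]
    exact sum_congr rfl fun o _ => by rw [sum_range_succ, add_comm o (Q * n)]

lemma exp_neg_le {y : ℝ} (h0 : 0 ≤ y) (h1 : y ≤ 1) : Real.exp (-y) ≤ 1 - y / 2 := by
  rw [Real.exp_neg, inv_le_iff_one_le_mul₀ (Real.exp_pos _)]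
  nlinarith [Real.add_one_le_exp y]

end Vale.Agent.P114
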