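import Vale.Agent.P114.Defs

/-! A mass distribution principle with exceptional sets. -/

namespace Vale.Agent.P114
open MeasureTheory Filter
open scoped NNReal ENNReal

lemma frost_disjoint {δ : ℝ} (hδ : 0 < δ) {i j : ℤ} (hij : i ≠ j) :
    Disjoint (Set.Ico ((i : ℝ) * δ) ((i + 1) * δ)) (Set.Ico ((j : ℝ) * δ) ((j + 1) * δ)) := by
  rw [Set.disjoint_left]
  rintro x ⟨h1, h2⟩ ⟨h3, h4⟩
  have h5 : (i : ℝ) < j + 1 := lt_of_mul_lt_mul_right (h1.trans_lt h4) hδ.le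
  have h6 : (j : ℝ) < i + 1 := lt_of_mul_lt_mul_right (h3.trans_lt h2) hδ.le
  have h7 : i < j + 1 := by exact_mod_cast h5
  have h8 : j < i + 1 := by exact_mod_cast h6
  omega

open Classical in
lemma frost_heavy (μ : Measure ℝ) [IsProbabilityMeasure μ] {δ b e : ℝ} (hδ : 0 < δ)
    (h : ∀ F : Finset ℤ, μ.real (⋃ i ∈ F, Set.Ico ((i : ℝ) * δ) ((i + 1) * δ)) ≤ b + F.card * e) :
    μ (⋃ i : ℤ, if 2 * e < μ.real (Set.Ico ((i : ℝ) * δ) ((i + 1) * δ)) then
      Set.Ico ((i : ℝ) * δ) ((i + 1) * δ) else ∅) ≤ ENNReal.ofReal (2 * b) := by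
  refine (measure_iUnion_le _).trans ?_
  rw [ENNReal.tsum_eq_iSup_sum]
  refine iSup_le fun s => ?_
  set F := s.filter fun i : ℤ => 2 * e < μ.real (Set.Ico ((i : ℝ) * δ) ((i + 1) * δ)) with hF
  have h1 : ∑ i ∈ s, μ (if 2 * e < μ.real (Set.Ico ((i : ℝ) * δ) ((i + 1) * δ)) then
      Set.Ico ((i : ℝ) * δ) ((i + 1) * δ) else ∅) =
      ∑ i ∈ F, μ (Set.Ico ((i : ℝ) * δ) ((i + 1) * δ)) := by
    rw [hF, Finset.sum_filter]
    refine Finset.sum_congr rfl fun i _ => ?_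
    split_ifs <;> simp
  have h2 : μ.real (⋃ i ∈ F, Set.Ico ((i : ℝ) * δ) ((i + 1) * δ)) =
      ∑ i ∈ F, μ.real (Set.Ico ((i : ℝ) * δ) ((i + 1) * δ)) :=
    measureReal_biUnion_finset (fun i _ j _ hij => frost_disjoint hδ hij)
      (fun i _ => measurableSet_Ico)
  have h3 : (F.card : ℝ) * (2 * e) ≤ ∑ i ∈ F, μ.real (Set.Ico ((i : ℝ) * δ) ((i + 1) * δ)) := by
    rw [← nsmul_eq_mul]
    exact Finset.card_nsmul_le_sum _ _ _ fun i hi => (Finset.mem_filter.1 hi).2.le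
  have h4 := h F
  rw [h1, ← ENNReal.ofReal_toReal (ENNReal.sum_ne_top.2 fun i _ => measure_ne_top μ _),
    ENNReal.toReal_sum fun i _ => measure_ne_top μ _]
  refine ENNReal.ofReal_le_ofReal ?_
  change ∑ i ∈ F, μ.real (Set.Ico ((i : ℝ) * δ) ((i + 1) * δ)) ≤ 2 * b
  linarith

open Classical in
lemma frost_small (μ : Measure ℝ) [IsProbabilityMeasure μ] {δ e : ℝ} (hδ : 0 < δ) (he : 0 ≤ e)
    {s G : Set ℝ} (hs : Metric.ediam s ≤ ENNReal.ofReal δ)
    (hG : ∀ x ∈ G, x ∉ ⋃ i : ℤ, if 2 * e < μ.real (Set.Ico ((i : ℝ) * δ) ((i + 1) * δ)) then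
      Set.Ico ((i : ℝ) * δ) ((i + 1) * δ) else ∅) :
    μ (s ∩ G) ≤ ENNReal.ofReal (4 * e) := by
  rcases s.eq_empty_or_nonempty with rfl | ⟨x₀, hx₀⟩
  · simp
  have hd : ∀ x ∈ s, ∀ y ∈ s, x - δ ≤ y := by
    intro x hx y hy
    have h1 := (Metric.edist_le_ediam_of_mem hx hy).trans hs
    rw [edist_dist, ENNReal.ofReal_le_ofReal_iff hδ.le, Real.dist_eq] at h1
    linarith [le_abs_self (x - y)]
  have hcell : ∀ i : ℤ, μ (Set.Ico ((i : ℝ) * δ) ((i + 1) * δ) ∩ G) ≤ ENNReal.ofReal (2 * e) := by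
    intro i
    by_cases hi : 2 * e < μ.real (Set.Ico ((i : ℝ) * δ) ((i + 1) * δ))
    · have : Set.Ico ((i : ℝ) * δ) ((i + 1) * δ) ∩ G = ∅ := by
        rw [Set.eq_empty_iff_forall_notMem]
        rintro x ⟨hx, hxG⟩
        exact hG x hxG (Set.mem_iUnion.2 ⟨i, by rw [if_pos hi]; exact hx⟩)
      rw [this, measure_empty]
      exact zero_le
    · refine (measure_mono Set.inter_subset_left).trans ?_
      rw [← ENNReal.ofReal_toReal (measure_ne_top μ _)]
      exact ENNReal.ofReal_le_ofReal (not_lt.1 hi)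
  set i : ℤ := ⌊sInf s / δ⌋ with hi
  have h1 : (i : ℝ) * δ ≤ sInf s := by
    rw [← le_div_iff₀ hδ]; exact Int.floor_le _
  have h2 : sInf s < (i + 1) * δ := by
    rw [← div_lt_iff₀ hδ]; exact Int.lt_floor_add_one _
  have hsub : s ∩ G ⊆ (Set.Ico ((i : ℝ) * δ) ((i + 1) * δ) ∩ G) ∪
      (Set.Ico (((i + 1 : ℤ) : ℝ) * δ) ((((i + 1 : ℤ) : ℝ) + 1) * δ) ∩ G) := by
    rintro x ⟨hx, hxG⟩
    have h3 : sInf s ≤ x := csInf_le ⟨x₀ - δ, fun y hy => hd x₀ hx₀ y hy⟩ hx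
    have h4 : x - δ ≤ sInf s := le_csInf ⟨x₀, hx₀⟩ fun y hy => hd x hx y hy
    rcases lt_or_ge x ((i + 1) * δ) with h5 | h5
    · exact Or.inl ⟨⟨h1.trans h3, h5⟩, hxG⟩
    · refine Or.inr ⟨⟨by push_cast; exact h5, ?_⟩, hxG⟩
      push_cast
      linarith
  refine (measure_mono hsub).trans ((measure_union_le _ _).trans ?_)
  refine (add_le_add (hcell i) (hcell (i + 1))).trans (le_of_eq ?_)
  rw [← ENNReal.ofReal_add (by positivity) (by positivity)]
  congr 1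
  ring

theorem le_measureDim (μ : Measure ℝ) [IsProbabilityMeasure μ] {d : ℝ≥0} (hd : 0 < d)
    (b c : ℕ → ℝ) (hb : Summable b)
    (hc : ∀ᶠ q : ℕ in atTop, 4 * c q ≤ Real.exp (-(d * ((q : ℝ) + 1) ^ 2)))
    (h : ∀ᶠ q : ℕ in atTop, ∀ F : Finset ℤ,
      μ.real (⋃ i ∈ F, Set.Ico (i * Real.exp (-(q : ℝ) ^ 2)) ((i + 1) * Real.exp (-(q : ℝ) ^ 2))) ≤
        b q + F.card * c q) :
    (d : ℝ≥0∞) ≤ measureDim μ := by
  classical
  obtain ⟨q₀, hq₀⟩ := eventually_atTop.1 (hc.and h)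
  let δ : ℕ → ℝ := fun q => Real.exp (-(q : ℝ) ^ 2)
  let e : ℕ → ℝ := fun q => Real.exp (-(d * ((q : ℝ) + 1) ^ 2)) / 4
  have hδ : ∀ q, 0 < δ q := fun q => Real.exp_pos _
  have he : ∀ q, 0 ≤ e q := fun q => by positivity
  let U : ℕ → Set ℝ := fun q => ⋃ i : ℤ,
    if 2 * e q < μ.real (Set.Ico ((i : ℝ) * δ q) ((i + 1) * δ q)) then
      Set.Ico ((i : ℝ) * δ q) ((i + 1) * δ q) else ∅
  have hUm : ∀ q, MeasurableSet (U q) := by
    intro q
    refine MeasurableSet.iUnion fun i => ?_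
    split_ifs
    · exact measurableSet_Ico
    · exact MeasurableSet.empty
  have hU : ∀ q, q₀ ≤ q → μ (U q) ≤ ENNReal.ofReal (2 * b q) := by
    intro q hq
    refine frost_heavy μ (hδ q) fun F => ((hq₀ q hq).2 F).trans ?_
    have h1 : c q ≤ e q := by
      have := (hq₀ q hq).1
      simp only [e]
      linarith
    gcongr
  have hsum : (∑' q, μ (U (q + q₀))) ≠ ∞ := by
    refine ne_top_of_le_ne_top (b := ∑' q, ENNReal.ofReal (2 * b (q + q₀))) ?_
      (ENNReal.tsum_le_tsum fun q => hU _ (Nat.le_add_left _ _))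
    exact Summable.tsum_ofReal_ne_top (((summable_nat_add_iff q₀).2 hb).mul_left 2)
  let G : ℕ → Set ℝ := fun N => ⋂ q, ⋂ (_ : N ≤ q), (U q)ᶜ
  have hGm : ∀ N, MeasurableSet (G N) := fun N =>
    MeasurableSet.iInter fun q => MeasurableSet.iInter fun _ => (hUm q).compl
  have hae : ∀ᵐ x ∂μ, x ∈ ⋃ N, G N := by
    filter_upwards [ae_eventually_notMem hsum] with x hx
    obtain ⟨N, hN⟩ := eventually_atTop.1 hx
    refine Set.mem_iUnion.2 ⟨N + q₀, Set.mem_iInter₂.2 fun q hq => ?_⟩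
    have := hN (q - q₀) (by omega)
    rwa [Nat.sub_add_cancel (by omega)] at this
  refine le_iInf fun E => le_iInf fun hE => le_iInf fun hEpos => ?_
  obtain ⟨N, hN⟩ : ∃ N, μ (E ∩ G N) ≠ 0 := by
    by_contra hcon
    have h1 : μ (⋃ N, E ∩ G N) = 0 :=
      measure_iUnion_null fun N => not_not.1 fun h => hcon ⟨N, h⟩
    rw [← Set.inter_iUnion, measure_eq_zero_iff_ae_notMem] at h1
    refine hEpos.ne' (measure_eq_zero_iff_ae_notMem.2 ?_)
    filter_upwards [hae, h1] with x hx1 hx2 hx3 using hx2 ⟨hx3, hx1⟩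
  have hle : μ.restrict (G N) ≤ μH[d] := by
    refine Measure.le_hausdorffMeasure d _ (ENNReal.ofReal (δ N))
      (ENNReal.ofReal_pos.2 (hδ N)) fun s hs => ?_
    rw [Measure.restrict_apply' (hGm N)]
    have hsm : ∀ m, Metric.ediam s ≤ ENNReal.ofReal (δ (N + m)) →
        μ (s ∩ G N) ≤ ENNReal.ofReal (4 * e (N + m)) := fun m hm =>
      frost_small μ (hδ _) (he _) hm fun x hx => Set.mem_iInter₂.1 hx (N + m) (Nat.le_add_right _ _)
    by_contra hcon
    have hall : ∀ m, Metric.ediam s ≤ ENNReal.ofReal (δ (N + m)) := by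
      intro m
      induction m with
      | zero => exact hs
      | succ m ih =>
        by_contra h1
        refine hcon ((hsm m ih).trans ?_)
        refine le_trans (le_of_eq ?_) (ENNReal.rpow_le_rpow (not_le.1 h1).le d.2)
        rw [ENNReal.ofReal_rpow_of_pos (hδ _)]
        congr 1
        simp only [e, δ]
        rw [← Real.exp_mul, mul_div_cancel₀ _ (by norm_num : (4 : ℝ) ≠ 0)]
        congr 1
        push_cast
        ring
    have hlim : Tendsto (fun m => ENNReal.ofReal (4 * e (N + m))) atTop (nhds 0) := by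
      rw [← ENNReal.ofReal_zero]
      refine ENNReal.tendsto_ofReal ?_
      have h1 : Tendsto (fun m : ℕ => ((N + m : ℕ) : ℝ) + 1) atTop atTop :=
        tendsto_atTop_add_const_right _ 1
          (tendsto_natCast_atTop_atTop.comp (tendsto_atTop_mono (fun m => Nat.le_add_left m N)
            tendsto_id))
      have h2 := Real.tendsto_exp_atBot.comp (tendsto_neg_atTop_atBot.comp
        (((tendsto_pow_atTop (two_ne_zero)).comp h1).const_mul_atTop (show 0 < (d : ℝ) from hd)))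
      refine h2.congr fun m => ?_
      simp only [e, Function.comp]
      ring
    have h0 : μ (s ∩ G N) ≤ 0 := ge_of_tendsto' hlim fun m => hsm m (hall m)
    exact hcon (h0.trans zero_le)
  refine le_dimH_of_hausdorffMeasure_ne_zero fun h0 => hN ?_
  have h1 := Measure.le_iff'.1 hle E
  rw [Measure.restrict_apply hE, h0] at h1
  exact le_antisymm h1 zero_le

end Vale.Agent.P114
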