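import Vale.Agent.P114.Blow
import Vale.Agent.P114.Frost

/-! The lower bound for the dimension, up to bounded errors. -/

namespace Vale.Agent.P114
open Finset MeasureTheory Filter
open scoped NNReal ENNReal

lemma good_mass {ν : FD} (hν : Prob ν) (z ε : ℝ) (K : ℕ) :
    E ν (fun x => ind (bm ν 1 x ≤ ε ∧ |z - x| ≤ K)) ≤ (2 * K + 1) * max ε 0 := by
  refine le_trans (E_mono' hν.pos fun x hx => ?_) ((E_mul_const ν (max ε 0) _).trans_le
    (mul_le_mul_of_nonneg_right (count_le hν.pos (fun x => ⌊x⌋) ⌊z⌋ K) (le_max_right _ _)))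
  have h0 := ms_pos hν.pos (fun x => ⌊x⌋) hx
  by_cases h : bm ν 1 x ≤ ε ∧ |z - x| ≤ K
  · rw [ind_pos h, ind_pos (abs_floor_sub_le h.2), one_div_mul_eq_div, one_le_div h0]
    exact (E_mono hν.pos fun y => ind_mono fun e =>
      (Int.abs_sub_lt_one_of_floor_eq_floor e).le).trans (h.1.trans (le_max_left _ _))
  · rw [ind_neg h]
    exact mul_nonneg (div_nonneg (ind_nonneg _) h0.le) (le_max_right _ _)

namespace Sys
variable {A T : Type*} [Fintype A] (S : Sys A T) (μ : Measure ℝ) [IsProbabilityMeasure μ]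

omit [IsProbabilityMeasure μ] in
lemma iterate (hμ : ∀ U, MeasurableSet U → μ.real U = ∑ a, S.p a * μ.real {x | S.r a * x + S.t a ∈ U})
    {U : Set ℝ} (hU : MeasurableSet U) (n : ℕ) :
    μ.real U = EW S.p n fun w => μ.real {x | S.P w * x + S.I w ∈ U} := by
  induction n with
  | zero => simp [EW, I]
  | succ n ih =>
    rw [ih, EW_succ]
    simp only [← EW_const_mul]
    rw [← EW_sum]
    refine EW_congr fun l _ => (hμ _ (hU.preimage (f := fun x => S.P l * x + S.I l)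
      (by fun_prop))).trans (sum_congr rfl fun a _ => ?_)
    congr 2
    ext x
    simp only [Set.mem_preimage, Set.mem_ofPred_eq, P_cons, I]
    rw [show S.P l * (S.r a * x + S.t a) + S.I l = S.r a * S.P l * x + (S.P l * S.t a + S.I l) by ring]

lemma neg_log_P (l : List A) : -Real.log |S.P l| = (l.map fun a => -Real.log |S.r a|).sum := by
  induction l with
  | nil => simp
  | cons b l ih =>
    rw [P_cons, abs_mul, Real.log_mul (abs_pos.2 (S.hr0 b)).ne' (abs_pos.2 (S.P_ne l)).ne',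
      List.map_cons, List.sum_cons, ← ih]
    ring

lemma cell_le (hR : μ (Set.Icc (-S.R : ℝ) S.R)ᶜ = 0) {δ ρ : ℝ} (hδ : 0 < δ) (hρ : δ ≤ |ρ|) (x : ℝ)
    (F : Finset ℤ) : μ.real {y | ρ * y + ρ * x ∈ ⋃ i ∈ F, Set.Ico (i * δ) ((i + 1) * δ)} ≤
      ∑ i ∈ F, ind (|i * δ / ρ - x| ≤ (S.R + 1 : ℕ)) := by
  by_cases h : ∃ i ∈ F, |i * δ / ρ - x| ≤ (S.R + 1 : ℕ)
  · obtain ⟨i, hi, h⟩ := h
    exact measureReal_le_one.trans ((ind_pos h).ge.trans (single_le_sum
      (f := fun i : ℤ => ind (|i * δ / ρ - x| ≤ (S.R + 1 : ℕ))) (fun _ _ => ind_nonneg _) hi))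
  · refine le_trans (le_of_eq ?_) (sum_nonneg fun _ _ => ind_nonneg _)
    rw [measureReal_eq_zero_iff]
    refine measure_mono_null (t := (Set.Icc (-S.R : ℝ) S.R)ᶜ) (fun y hy hy' => h ?_) hR
    simp only [Set.mem_ofPred_eq, Set.mem_iUnion] at hy
    obtain ⟨i, hi, h1, h2⟩ := hy
    refine ⟨i, hi, ?_⟩
    have h0 : 0 < |ρ| := hδ.trans_le hρ
    have h3 : |i * δ / ρ - x - y| ≤ 1 := by
      rw [show i * δ / ρ - x - y = (i * δ - (ρ * y + ρ * x)) / ρ by
        field_simp [abs_pos.1 h0]; ring, abs_div, div_le_one h0]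
      refine le_trans (abs_le.2 ⟨?_, ?_⟩) hρ <;> linarith
    rw [abs_le] at h3 ⊢
    push_cast
    constructor <;> linarith [hy'.1, hy'.2]

lemma level (hμ : ∀ U, MeasurableSet U → μ.real U = ∑ a, S.p a * μ.real {x | S.r a * x + S.t a ∈ U})
    (hR : μ (Set.Icc (-S.R : ℝ) S.R)ᶜ = 0) (J : ℕ) : ∃ D : ℝ, 0 ≤ D ∧ ∀ m : ℕ, 0 < m →
      J * EW S.p J S.X ≤ m → ∀ δ : ℝ, 0 < δ →
        δ ≤ Real.exp (-(m * (∑ a, S.p a * -Real.log |S.r a| + 1))) → ∀ F : Finset ℤ,
          μ.real (⋃ i ∈ F, Set.Ico (i * δ) ((i + 1) * δ)) ≤ D / m + F.card * ((2 * S.R + 3) *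
            Real.exp (-(m * (EW S.p J S.X - (8 * S.R + 9))))) := by
  obtain ⟨c₁, hc₁⟩ := S.exists_X_le
  obtain ⟨c₂, hc₂⟩ := (Set.finite_range fun ab : A × A =>
    |(-Real.log |S.r ab.1|) - -Real.log (|S.r ab.2|)|).bddAbove
  refine ⟨c₂ ^ 2 + (J * c₁ + c₁) ^ 2 + (4 * Fintype.card A + 12), by positivity,
    fun m hm hJ δ hδ hδ' F => ?_⟩
  have hm' : (0 : ℝ) < m := by exact_mod_cast hm
  set χ := ∑ a, S.p a * -Real.log |S.r a|
  set a := EW S.p J S.X
  set ε := Real.exp (-(m * (a - (8 * S.R + 9))))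
  have h1 := S.pv.cheb m hm' (fun l => (l.map fun a => -Real.log |S.r a|).sum) (c := c₂)
    fun u a b v => by simpa using hc₂ ⟨(a, b), rfl⟩
  have h2 := S.pv.cheb m hm' (winSum S.X J) (c := J * c₁ + c₁) fun u a b v =>
    (winSum_diff S.X_nonneg hc₁ J u a b v).trans (add_le_add (mul_le_mul_of_nonneg_right
      (min_le_right _ _) ((S.X_nonneg []).trans (hc₁ []))) le_rfl)
  have h3 := S.pv.EW_winSum S.X_nonneg J m
  rw [S.pv.EW_sum_map] at h1
  rw [S.iterate μ hμ (Finset.measurableSet_biUnion _ fun _ _ => measurableSet_Ico) m,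
    S.EW_disint m fun ρ z => μ.real {x | ρ * x + z ∈ ⋃ i ∈ F, Set.Ico (i * δ) ((i + 1) * δ)}]
  refine (S.pv.EW_mono (G := fun ω =>
    ind (m ≤ |(ω.map fun a => -Real.log |S.r a|).sum - m * χ|) +
      ind (m ≤ |winSum S.X J ω - EW S.p m (winSum S.X J)|) +
        ((4 * Fintype.card A + 12) / m + F.card * ((2 * S.R + 3) * ε))) fun ω hω => ?_).trans ?_
  · have hν := S.prob 1 ω
    have a0 : (0 : ℝ) ≤ (4 * Fintype.card A + 12) / m + F.card * ((2 * S.R + 3) * ε) := by positivity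
    have a1 : E (S.Back (S.P ω) ω) (fun z => μ.real {x | S.P ω * x + z ∈
        ⋃ i ∈ F, Set.Ico (i * δ) ((i + 1) * δ)}) ≤ 1 := (S.prob _ ω).E_le fun _ _ => measureReal_le_one
    by_cases b1 : (m : ℝ) ≤ |(ω.map fun a => -Real.log |S.r a|).sum - m * χ|
    · rw [ind_pos b1]
      linarith [ind_nonneg (m ≤ |winSum S.X J ω - EW S.p m (winSum S.X J)|)]
    by_cases b2 : (m : ℝ) ≤ |winSum S.X J ω - EW S.p m (winSum S.X J)|
    · rw [ind_pos b2, ind_neg b1]
      linarith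
    rw [ind_neg b1, ind_neg b2, zero_add, zero_add]
    rw [not_le, abs_lt] at b1 b2
    have a2 : δ ≤ |S.P ω| := hδ'.trans (by
      rw [← Real.le_log_iff_exp_le (abs_pos.2 (S.P_ne ω))]
      linarith [S.neg_log_P ω])
    have a3 := S.winSum_le_B J ω
    have a4 := var_ball (hω ▸ S.digits 1 ω) one_pos
    rw [hν.var_eq] at a4
    rw [hω] at a3
    rw [← mul_one (S.P ω), S.Back_scale, mul_one]
    refine (E_mono' hν.pos (G := fun x => (-Real.log (bm (S.Back 1 ω) 1 x) - S.B ω) ^ 2 / m ^ 2 +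
      ∑ i ∈ F, ind (bm (S.Back 1 ω) 1 x ≤ ε ∧ |i * δ / S.P ω - x| ≤ (S.R + 1 : ℕ)))
        fun x hx => ?_).trans ?_
    · by_cases b3 : bm (S.Back 1 ω) 1 x ≤ ε
      · simp only [b3, true_and]
        exact (S.cell_le μ hR hδ a2 x F).trans (le_add_of_nonneg_left (by positivity))
      · refine measureReal_le_one.trans (le_add_of_le_of_nonneg (le_trans (ind_pos ?_).ge
          (ind_le_sq hm')) (sum_nonneg fun _ _ => ind_nonneg _))
        rw [not_le, ← Real.lt_log_iff_exp_lt (bm_pos hν.pos zero_le_one hx)] at b3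
        rw [le_abs]
        right
        linarith
    · rw [E_add, E_div_const, E_sum]
      refine add_le_add ?_ ((sum_le_card_nsmul _ _ _ fun i _ => good_mass hν _ ε _).trans_eq ?_)
      · rw [div_le_div_iff₀ (by positivity) hm']
        refine (mul_le_mul_of_nonneg_right a4 hm'.le).trans_eq (by ring)
      · rw [nsmul_eq_mul, max_eq_left (Real.exp_pos _).le]
        push_cast
        ring
  · rw [EW_add, EW_add, S.pv.EW_const]
    have e : ∀ c : ℝ, m * c / m ^ 2 = c / m := fun c => by field_simp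
    rw [e] at h1 h2
    rw [add_div _ (4 * (Fintype.card A : ℝ) + 12), add_div (c₂ ^ 2), ← add_assoc]
    exact add_le_add (add_le_add (add_le_add h1 h2) le_rfl) le_rfl

theorem core [Fintype T]
    (hμ : ∀ U, MeasurableSet U → μ.real U = ∑ a, S.p a * μ.real {x | S.r a * x + S.t a ∈ U})
    (hR : μ (Set.Icc (-S.R : ℝ) S.R)ᶜ = 0) {h : ℝ} (hh : ∀ n : ℕ, n * h ≤ S.HG n) {d : ℝ≥0}
    (hd : 0 < d) (hlt : d * (∑ a, S.p a * -Real.log |S.r a| + 1) <
      min h (∑ a, S.p a * -Real.log |S.r a|) - Real.log (Fintype.card T) - (16 * S.R + 17)) :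
    (d : ℝ≥0∞) ≤ measureDim μ := by
  obtain ⟨J, hJ⟩ := S.exists_window hh
  obtain ⟨D, hD, hl⟩ := S.level μ hμ hR (J + 1)
  set χ := ∑ a, S.p a * -Real.log |S.r a|
  have hχ : 0 < χ + 1 := add_pos_of_nonneg_of_pos (sum_nonneg fun a _ => mul_nonneg (S.hp a).le
    (neg_nonneg.2 (Real.log_nonpos (abs_nonneg _) (S.hr1 a).le))) one_pos
  set β := EW S.p (J + 1) S.X - (8 * S.R + 9)
  have hβ : 0 < β / (χ + 1) - d := by rw [sub_pos, lt_div_iff₀ hχ]; unfold β; linarith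
  have hβ0 : 0 < β := by
    have := (div_pos_iff_of_pos_right hχ).1 (show 0 < β / (χ + 1) by linarith [d.coe_nonneg])
    exact this
  let m : ℕ → ℕ := fun q => ⌊(q : ℝ) ^ 2 / (χ + 1)⌋₊
  have hm1 : ∀ q : ℕ, (q : ℝ) ^ 2 / (χ + 1) - 1 ≤ m q := fun q => (Nat.sub_one_lt_floor _).le
  have hm2 : ∀ q : ℕ, m q * (χ + 1) ≤ (q : ℝ) ^ 2 := fun q =>
    (le_div_iff₀ hχ).1 (Nat.floor_le (by positivity))
  have ht : Tendsto (fun q : ℕ => (q : ℝ) ^ 2 / (χ + 1)) atTop atTop :=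
    ((tendsto_pow_atTop two_ne_zero).comp tendsto_natCast_atTop_atTop).atTop_div_const hχ
  refine le_measureDim μ hd (fun q => 2 * D * (χ + 1) * (1 / (q : ℝ) ^ 2))
    (fun q => (2 * S.R + 3) * Real.exp (-(m q * β)))
    ((Real.summable_one_div_nat_pow.2 one_lt_two).mul_left _) ?_ ?_
  · set K := d + β + Real.log (4 * (2 * S.R + 3))
    have hK : 0 ≤ K := add_nonneg (by positivity) (Real.log_nonneg (by
      linarith [S.R.cast_nonneg (α := ℝ)]))
    filter_upwards [tendsto_natCast_atTop_atTop.eventually_ge_atTop (1 : ℝ),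
      tendsto_natCast_atTop_atTop.eventually_ge_atTop ((2 * d + K) / (β / (χ + 1) - d))] with q h1 h2
    rw [← mul_assoc, ← Real.exp_log (x := 4 * (2 * S.R + 3)) (by positivity), ← Real.exp_add,
      Real.exp_le_exp]
    rw [div_le_iff₀ hβ] at h2
    have h3 := mul_le_mul_of_nonneg_right (hm1 q) hβ0.le
    have h4 := mul_le_mul_of_nonneg_right h2 (zero_le_one.trans h1)
    have h5 := mul_le_mul_of_nonneg_left h1 hK
    have h6 : (q : ℝ) ^ 2 / (χ + 1) * β = q * (β / (χ + 1)) * q := by ring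
    unfold K at h4 h5
    nlinarith
  · filter_upwards [ht.eventually_ge_atTop 2,
      ht.eventually_ge_atTop (((J + 1 : ℕ) : ℝ) * EW S.p (J + 1) S.X + 1)] with q h1 h2 F
    have h3 : (0 : ℝ) < m q := by linarith [hm1 q]
    refine (hl (m q) (by exact_mod_cast h3) (by linarith [hm1 q]) _ (Real.exp_pos _)
      (Real.exp_le_exp.2 (neg_le_neg (hm2 q))) F).trans (add_le_add ?_ le_rfl)
    have h4 : (0 : ℝ) < (q : ℝ) ^ 2 := by
      have := (le_div_iff₀ hχ).1 h1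
      linarith
    rw [mul_one_div, div_le_div_iff₀ h3 h4]
    have h5 : (q : ℝ) ^ 2 ≤ 2 * (χ + 1) * m q := by
      have : (q : ℝ) ^ 2 / (χ + 1) ≤ 2 * m q := by linarith [hm1 q]
      rw [div_le_iff₀ hχ] at this
      linarith
    nlinarith

end Sys
end Vale.Agent.P114
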