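import Mathlib

/-! Self-similar measures on the line: random walk entropy, Lyapunov exponent, dimension. -/

namespace Vale.Agent.P114
open MeasureTheory
open scoped ENNReal

variable {Λ : Type*}

/-- The composition `φ_{i₁} ∘ ⋯ ∘ φ_{iₙ}` of the maps `φ_i x = r i * x + t i` along a word. -/
def wordMap (r t : Λ → ℝ) : List Λ → ℝ → ℝ
  | [] => id
  | i :: w => (fun x => r i * x + t i) ∘ wordMap r t w

variable [Fintype Λ]

open Classical in
/-- `ℙ(G_n = g)`: the total weight of the words of length `n` whose composition is the map `g`. -/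
noncomputable def mapProb (r t p : Λ → ℝ) (n : ℕ) (g : ℝ → ℝ) : ℝ :=
  ∑ w : Fin n → Λ with wordMap r t (List.ofFn w) = g, ∏ j, p (w j)

open Classical in
/-- The Shannon entropy `H(G_n)` (base 2) of the random affine map `G_n`. -/
noncomputable def walkEntropy (r t p : Λ → ℝ) (n : ℕ) : ℝ :=
  -∑ g ∈ Finset.univ.image (fun w : Fin n → Λ => wordMap r t (List.ofFn w)),
    mapProb r t p n g * Real.logb 2 (mapProb r t p n g)

/-- The random walk entropy rate `h_RW = inf_{n ≥ 1} H(G_n) / n`. -/
noncomputable def entropyRate (r t p : Λ → ℝ) : ℝ :=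
  ⨅ n : ℕ, walkEntropy r t p (n + 1) / ((n + 1 : ℕ) : ℝ)

/-- The Lyapunov exponent `χ = -∑ p_i log₂ |r_i|`. -/
noncomputable def lyapunov (r p : Λ → ℝ) : ℝ := -∑ i, p i * Real.logb 2 |r i|

/-- The (lower) Hausdorff dimension of a measure: the infimum of the Hausdorff dimensions of the
Borel sets of positive measure. -/
noncomputable def measureDim (μ : Measure ℝ) : ℝ≥0∞ :=
  ⨅ (E : Set ℝ) (_ : MeasurableSet E) (_ : 0 < μ E), dimH E

end Vale.Agent.P114
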