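import Vale.Agent.P114.Avg

/-! Comparison of entropies. -/

namespace Vale.Agent.P114
open Finset

variable {ν τ : FD}

lemma count_le (hν : Pos ν) (c : ℝ → ℤ) (i : ℤ) (K : ℕ) :
    E ν (fun y => ind (|i - c y| ≤ K) / ms ν c y) ≤ 2 * K + 1 := by
  have h1 : ∀ j : ℤ, E ν (fun y => ind (c y = j) / ms ν c y) ≤ 1 := fun j => by
    have : E ν (fun y => ind (c y = j) / ms ν c y) =
        E ν (fun y => ind (c y = j)) / E ν fun y => ind (c y = j) := by
      rw [← E_div_const]
      refine E_congr fun y _ => ?_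
      by_cases h : c y = j
      · simp only [ms, h]
      · simp [ind_neg h]
    rw [this]
    exact div_self_le_one _
  calc _ ≤ E ν (fun y => ∑ j ∈ Icc (i - K) (i + K), ind (c y = j) / ms ν c y) := by
        refine E_mono hν fun y => ?_
        by_cases h : |i - c y| ≤ K
        · have hy : c y ∈ Icc (i - K) (i + K) := by
            rw [abs_le] at h; rw [mem_Icc]; constructor <;> linarith
          refine le_of_eq_of_le (by rw [ind_pos h, ind_pos rfl]) (single_le_sum
            (f := fun j => ind (c y = j) / ms ν c y)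
            (fun j _ => div_nonneg (ind_nonneg _) (ms_nonneg hν c y)) hy)
        · rw [ind_neg h, zero_div]
          exact sum_nonneg fun j _ => div_nonneg (ind_nonneg _) (ms_nonneg hν c y)
    _ ≤ ∑ j ∈ Icc (i - K) (i + K), (1 : ℝ) := by rw [E_sum]; exact sum_le_sum fun j _ => h1 j
    _ = 2 * K + 1 := by
        rw [sum_const, Int.card_Icc, nsmul_eq_mul, mul_one,
          show i + K + 1 - (i - K) = ((2 * K + 1 : ℕ) : ℤ) by push_cast; ring, Int.toNat_natCast]
        push_cast; ring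

lemma count_le' (hν : Pos ν) (hτ : Prob τ) (c c' : ℝ → ℤ) (K : ℕ) :
    E ν (fun y => E τ (fun z => ind (|c' z - c y| ≤ K)) / ms ν c y) ≤ 2 * K + 1 := by
  simp only [← E_div_const]
  rw [E_swap]
  exact hτ.E_le fun z _ => count_le hν c _ K

lemma bm_mono (hν : Pos ν) {r r' : ℝ} (h : r ≤ r') (x : ℝ) : bm ν r x ≤ bm ν r' x :=
  E_mono hν fun _ => ind_mono fun e => e.trans h

lemma HB_anti (hν : Pos ν) {r r' : ℝ} (h0 : 0 ≤ r) (h : r ≤ r') : HB ν r' ≤ HB ν r :=
  E_mono' hν fun x hx => neg_le_neg (Real.log_le_log (bm_pos hν h0 hx) (bm_mono hν h x))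

lemma HB_nonneg (hν : Prob ν) (r : ℝ) : 0 ≤ HB ν r :=
  E_nonneg hν.pos fun x => neg_nonneg.2 (Real.log_nonpos (bm_nonneg hν.pos r x) (bm_le_one hν r x))

lemma HB_le_Ent (hν : Pos ν) {r : ℝ} {c : ℝ → ℤ} (h : ∀ x y, c y = c x → |y - x| ≤ r) :
    HB ν r ≤ Ent ν c :=
  E_mono' hν fun x hx => neg_le_neg (Real.log_le_log (ms_pos hν c hx)
    (E_mono hν fun y => ind_mono (h x y)))

lemma log_sub_log_le {a b : ℝ} (ha : 0 < a) (hb : 0 < b) : Real.log a - Real.log b ≤ a / b - 1 := by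
  rw [← Real.log_div ha.ne' hb.ne']
  exact Real.log_le_sub_one_of_pos (div_pos ha hb)

lemma Ent_le_HB (hν : Prob ν) {r : ℝ} (hr : 0 ≤ r) {c : ℝ → ℤ} {K : ℕ}
    (h : ∀ x y, |y - x| ≤ r → |c y - c x| ≤ K) : Ent ν c ≤ HB ν r + 2 * K := by
  have h1 := count_le' hν.pos hν c c K
  have h2 : Ent ν c ≤ E ν fun x => -Real.log (bm ν r x) +
      (E ν (fun z => ind (|c z - c x| ≤ K)) / ms ν c x - 1) := by
    refine E_mono' hν.pos fun x hx => ?_
    have := log_sub_log_le (bm_pos hν.pos hr hx) (ms_pos hν.pos c hx)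
    have h3 : bm ν r x / ms ν c x ≤ E ν (fun z => ind (|c z - c x| ≤ K)) / ms ν c x :=
      div_le_div_of_nonneg_right (E_mono hν.pos fun y => ind_mono (h x y)) (ms_nonneg hν.pos c x)
    linarith
  rw [E_add, E_sub, hν.one] at h2
  unfold HB
  linarith

lemma abs_le_of_floor_div_eq {r x y : ℝ} (hr : 0 < r) (h : ⌊y / r⌋ = ⌊x / r⌋) : |y - x| ≤ r := by
  have := Int.abs_sub_lt_one_of_floor_eq_floor h
  rw [← sub_div, abs_div, abs_of_pos hr, div_lt_one hr] at this
  exact this.le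

lemma HB_comp (hν : Prob ν) {r : ℝ} (hr : 0 < r) (K : ℕ) : HB ν r ≤ HB ν (K * r) + 2 * K :=
  (HB_le_Ent hν.pos (c := fun x => ⌊x / r⌋) fun _ _ => abs_le_of_floor_div_eq hr).trans
    (Ent_le_HB hν (by positivity) fun x y h => abs_floor_sub_le (by
      rw [← sub_div, abs_div, abs_of_pos hr, div_le_iff₀ hr]; exact h))

lemma HB_mul_le (hν : Prob ν) (hτ : Prob τ) {r ρ : ℝ} (hr : 0 ≤ r)
    (h : ∀ z, 0 < τ.coeff z → |z| ≤ ρ) : HB (τ * ν) (r + 2 * ρ) ≤ HB ν r := by
  rw [HB, E_mul]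
  refine hτ.E_le fun z hz => E_mono' hν.pos fun x hx => neg_le_neg
    (Real.log_le_log (bm_pos hν.pos hr hx) ?_)
  rw [bm, bm, E_mul]
  refine hτ.le_E fun z' hz' => E_mono hν.pos fun y => ind_mono fun e => ?_
  have h1 := abs_le.1 (h z hz)
  have h2 := abs_le.1 (h z' hz')
  rw [abs_le] at e ⊢
  constructor <;> linarith

lemma HB_le_mul (hν : Prob ν) (hτ : Prob τ) {r ρ : ℝ} (hr : 0 ≤ r)
    (h : ∀ z, 0 < τ.coeff z → |z| ≤ ρ) : HB ν (r + 2 * ρ) ≤ HB (τ * ν) r := by
  rw [HB, HB, E_mul]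
  refine hτ.le_E fun z hz => E_mono' hν.pos fun x hx => neg_le_neg
    (Real.log_le_log (bm_pos (hτ.pos.mul hν.pos) hr (coeff_mul_pos hτ.pos hν.pos hz hx)) ?_)
  rw [bm, bm, E_mul]
  refine hτ.E_le fun z' hz' => E_mono hν.pos fun y => ind_mono fun e => ?_
  have h1 := abs_le.1 (h z hz)
  have h2 := abs_le.1 (h z' hz')
  rw [abs_le] at e ⊢
  constructor <;> linarith

lemma Ent_lb_ge (hν : Prob ν) (k : ℕ) (u : ℝ) : HB ν (1 / 2 ^ k) ≤ Ent ν (lb k u) :=
  HB_le_Ent hν.pos fun _ _ h => (abs_lt_of_lb_eq h).le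

lemma Ent_lb_le (hν : Prob ν) (k : ℕ) (u : ℝ) : Ent ν (lb k u) ≤ HB ν (1 / 2 ^ k) + 2 := by
  simpa using Ent_le_HB hν (r := 1 / 2 ^ k) (by positivity) (c := lb k u) (K := 1)
    fun x y h => abs_floor_sub_le (by
      rw [← mul_sub, add_sub_add_right_eq_sub, abs_mul, abs_of_pos (by positivity)]
      rw [le_div_iff₀ (by positivity), mul_comm] at h
      simpa using h)

lemma simple_gap (ν : FD) (K : ℕ) : Simple fun u => Ent ν (lb K u) - Ent ν (lb 0 u) :=
  Simple.comp2 (· - ·) (simple_Ent ν K) (simple_Ent ν 0)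

lemma Gap_le (hν : Prob ν) (K : ℕ) : Gap K ν ≤ HB ν (1 / 2 ^ K) - HB ν 1 + 2 :=
  Avg_le (simple_gap ν K) fun u => by
    have h1 := Ent_lb_le hν K u
    have h2 := Ent_lb_ge hν 0 u
    rw [pow_zero, div_one] at h2
    linarith

lemma le_Gap (hν : Prob ν) (K : ℕ) : HB ν (1 / 2 ^ K) - HB ν 1 - 2 ≤ Gap K ν :=
  le_Avg (simple_gap ν K) fun u => by
    have h1 := Ent_lb_ge hν K u
    have h2 := Ent_lb_le hν 0 u
    rw [pow_zero, div_one] at h2
    linarith

lemma Gap_nonneg (hν : Pos ν) (K : ℕ) : 0 ≤ Gap K ν :=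
  Avg_nonneg fun u => sub_nonneg.2 (E_mono' hν fun x hx => neg_le_neg
    (Real.log_le_log (ms_pos hν _ hx) (ms_lb_anti hν K.zero_le u x)))

lemma Gap_le_pow (hν : Prob ν) (K : ℕ) : Gap K ν ≤ 2 ^ (K + 1) + 2 := by
  have h1 := Gap_le hν K
  have h2 := HB_comp hν (r := 1 / 2 ^ K) (by positivity) (2 ^ K)
  rw [show ((2 ^ K : ℕ) : ℝ) * (1 / 2 ^ K) = 1 by push_cast; field_simp] at h2
  push_cast at h2
  rw [pow_succ]
  linarith

/-- Change of measure on the cells of a labelling. -/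
lemma E_ratio_le (hν : Pos ν) (_hτ : Pos τ) (c : ℝ → ℤ) (ψ : ℤ → ℝ) (hψ : ∀ i, 0 ≤ ψ i) :
    E τ (fun y => ψ (c y) * ms ν c y / ms τ c y) ≤ E ν fun x => ψ (c x) := by
  have : E τ (fun y => ψ (c y) * ms ν c y / ms τ c y) =
      E ν fun x => ψ (c x) * (ms τ c x / ms τ c x) := by
    simp only [ms, ← E_const_mul, ← E_div_const]
    rw [E_swap]
    refine E_congr fun x _ => E_congr fun y _ => ?_
    by_cases h : c x = c y
    · simp only [h, mul_div_assoc]
    · simp [ind_neg h, ind_neg (Ne.symm h)]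
  rw [this]
  exact E_mono hν fun x => mul_le_of_le_one_right (hψ _) (div_self_le_one _)

/-- Gibbs inequality for conditional entropies. -/
lemma gibbs (hν : Pos ν) (hτ : Prob τ) (h : ∀ y, 0 < τ.coeff y → 0 < ν.coeff y) (c : ℝ → ℤ)
    (g : ℤ → ℤ) : Ent τ c - Ent τ (fun x => g (c x)) ≤
      E τ fun y => -Real.log (ms ν c y) + Real.log (ms ν (fun x => g (c x)) y) := by
  set c₀ : ℝ → ℤ := fun x => g (c x)
  let ψ : ℤ → ℝ := fun i => E τ (fun z => ind (c₀ z = g i)) / E ν fun z => ind (c₀ z = g i)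
  have h1 := E_ratio_le hν hτ.pos c ψ fun i =>
    div_nonneg (E_nonneg hτ.pos fun _ => ind_nonneg _) (E_nonneg hν fun _ => ind_nonneg _)
  have h2 := E_ratio_le hτ.pos hν c₀ (fun _ => 1) fun _ => zero_le_one
  simp only [one_mul, hτ.one] at h2
  have h3 : E τ (fun y => -Real.log (ms τ c y) + Real.log (ms τ c₀ y) -
      (-Real.log (ms ν c y) + Real.log (ms ν c₀ y))) ≤
      E τ fun y => ψ (c y) * ms ν c y / ms τ c y - 1 := by
    refine E_mono' hτ.pos fun y hy => ?_
    have a1 := ms_pos hτ.pos c hy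
    have a2 := ms_pos hτ.pos c₀ hy
    have a3 := ms_pos hν c (h y hy)
    have a4 := ms_pos hν c₀ (h y hy)
    have := log_sub_log_le (mul_pos (div_pos a2 a4) a3) a1
    rw [Real.log_mul (div_pos a2 a4).ne' a3.ne', Real.log_div a2.ne' a4.ne'] at this
    change _ ≤ ms τ c₀ y / ms ν c₀ y * ms ν c y / ms τ c y - 1
    linarith
  rw [E_sub, E_sub, E_add, hτ.one] at h3
  have h4 : E ν (fun x => ψ (c x)) ≤ 1 := h2
  simp only [Ent, E_neg] at h3 ⊢
  linarith

lemma prob_single (a : ℝ) : Prob (AddMonoidAlgebra.single a 1) :=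
  ⟨pos_of_E fun F hF => by rw [E_single, one_mul]; exact hF a, by rw [E_single, one_mul]⟩

lemma E_single_mul (a : ℝ) (τ : FD) (F : ℝ → ℝ) :
    E (AddMonoidAlgebra.single a 1 * τ) F = E τ fun y => F (a + y) := by
  rw [E_mul, E_single, one_mul]

lemma lb_eq_div (K : ℕ) (u x : ℝ) : lb 0 u x = lb K u x / 2 ^ K := by
  induction K with
  | zero => simp
  | succ K ih => rw [ih, lb_succ K, Int.ediv_ediv_of_nonneg (by norm_num), pow_succ']

/-- Convolution increases the average entropy between two scales. -/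
lemma Gap_mono (hν : Prob ν) (hτ : Prob τ) (K : ℕ) : Gap K τ ≤ Gap K (ν * τ) := by
  have key : ∀ u, E ν (fun a => Ent τ (lb K (u + a)) - Ent τ (lb 0 (u + a))) ≤
      Ent (ν * τ) (lb K u) - Ent (ν * τ) (lb 0 u) := fun u => by
    have e0 : lb 0 u = fun x => lb K u x / 2 ^ K := funext (lb_eq_div K u)
    have e1 : Ent (ν * τ) (lb K u) - Ent (ν * τ) (lb 0 u) = E ν fun a => E τ fun y =>
        -Real.log (ms (ν * τ) (lb K u) (a + y)) + Real.log (ms (ν * τ) (lb 0 u) (a + y)) := by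
      rw [← E_mul ν τ fun y => -Real.log (ms (ν * τ) (lb K u) y) +
        Real.log (ms (ν * τ) (lb 0 u) y), E_add, Ent, Ent, E_neg, E_neg]
      ring
    rw [e1]
    refine E_mono' hν.pos fun a ha => ?_
    have := gibbs (hν.pos.mul hτ.pos) ((prob_single a).mul hτ) (fun y hy => by
      by_contra hc
      have h0 : (ν * τ).coeff y = 0 := le_antisymm (not_lt.1 hc) (hν.pos.mul hτ.pos y)
      rw [coeff_eq_E, E_single_mul] at hy
      have := single_le_E (F := fun x => E τ fun z => ind (x + z = y)) hν.pos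
        (fun _ => E_nonneg hτ.pos fun _ => ind_nonneg _) a
      rw [coeff_eq_E, E_mul] at h0
      exact absurd (mul_pos ha hy) (not_lt.2 (this.trans_eq h0))) (lb K u) (· / 2 ^ K)
    rw [← e0, E_single_mul] at this
    refine le_of_eq_of_le ?_ this
    simp only [Ent, ms, E_single_mul, lb_add]
  have hper : Function.Periodic (fun u => Ent τ (lb K u) - Ent τ (lb 0 u)) 1 := fun u => by
    simp only [Ent, ms_periodic]
  refine le_trans (le_of_eq ?_) (Avg_mono (Simple.E ν fun a => (simple_gap τ K).shift a)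
    (simple_gap _ K) key)
  rw [Avg_E ν fun a => (simple_gap τ K).shift a]
  simp only [Avg_shift hper]
  exact (hν.E_const _).symm

lemma log_sq_le {z : ℝ} (hz : 1 ≤ z) : Real.log z ^ 2 ≤ 4 * z := by
  have h0 : 0 < z := by linarith
  have h1 := Real.log_le_sub_one_of_pos (Real.sqrt_pos.2 h0)
  rw [Real.log_sqrt h0.le] at h1
  have h2 := Real.log_nonneg hz
  have h3 := Real.sq_sqrt h0.le
  have h4 := Real.sqrt_nonneg z
  nlinarith

lemma ratio_ball_le (hν : Prob ν) {r : ℝ} (hr : 0 < r) (s : ℝ) :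
    E ν (fun y => bm ν r (y + s) / bm ν r y) ≤ 3 := by
  refine le_trans (E_mono' hν.pos fun y hy => ?_) ((count_le' hν.pos hν (fun x => ⌊x / r⌋)
    (fun x => ⌊(x - s) / r⌋) 1).trans_eq (by norm_num))
  refine div_le_div₀ (E_nonneg hν.pos fun _ => ind_nonneg _)
    (E_mono hν.pos fun z => ind_mono fun e => abs_floor_sub_le ?_) (ms_pos hν.pos _ hy)
    (E_mono hν.pos fun z => ind_mono (abs_le_of_floor_div_eq hr))
  rw [← sub_div, abs_div, abs_of_pos hr, div_le_iff₀ hr, Nat.cast_one, one_mul,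
    show z - s - y = z - (y + s) by ring]
  exact e

lemma Digits.prob {A : Type*} [Fintype A] {n : ℕ} (h : Digits A n ν) : Prob ν := by
  obtain ⟨q, θ, h0, h1, rfl⟩ := h
  exact prod_induction _ _ (fun _ _ => Prob.mul) prob_one fun j _ => prob_dig (h0 j) (h1 j) _

/-- The information content at a given scale has linear variance. -/
lemma var_ball {A : Type*} [Fintype A] {n : ℕ} (h : Digits A n ν) {r : ℝ} (hr : 0 < r) :
    Var ν (fun x => -Real.log (bm ν r x)) ≤ n * (4 * Fintype.card A + 12) := by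
  obtain ⟨q, θ, h0, h1, hν⟩ := h
  have hd : ∀ j, Prob (dig (q j) (θ j)) := fun j => prob_dig (h0 j) (h1 j) _
  refine le_trans (le_of_eq (by rw [← hν])) ((efron_stein univ _ hd
    fun x => -Real.log (bm ν r x)).trans ((sum_le_card_nsmul _ _ _ fun j _ => ?_).trans_eq
      (by rw [card_univ, Fintype.card_fin, nsmul_eq_mul])))
  set τ := ∏ i ∈ univ.erase j, dig (q i) (θ i)
  have hτ : Prob τ := prod_induction _ _ (fun _ _ => Prob.mul) prob_one fun i _ => hd i
  have e : ∀ x, bm ν r x = ∑ b, q j b * bm τ r (x - θ j b) := fun x => by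
    rw [hν, ← mul_prod_erase _ _ (mem_univ j), bm, E_mul, E_dig]
    refine sum_congr rfl fun b _ => congrArg _ (E_congr fun y _ => ind_congr ?_)
    rw [show θ j b + y - x = y - (x - θ j b) by ring]
  calc _ ≤ E τ fun y => ∑ a, (4 + 4 * q j a *
          ∑ b, q j b * (bm τ r (y + (θ j a - θ j b)) / bm τ r y)) := by
        refine E_mono' hτ.pos fun y hy => ((hd j).var_le _ (-Real.log (bm τ r y))).trans ?_
        rw [E_dig]
        refine sum_le_sum fun a _ => ?_
        have hy' := bm_pos hτ.pos hr.le hy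
        set z := ∑ b, q j b * (bm τ r (y + (θ j a - θ j b)) / bm τ r y) with hz
        have e2 : bm ν r (θ j a + y) = z * bm τ r y := by
          rw [e, hz, sum_mul]
          refine sum_congr rfl fun b _ => ?_
          rw [mul_assoc, div_mul_cancel₀ _ hy'.ne']
          congr 2; ring
        have h3 : q j a ≤ z := le_of_eq_of_le (by rw [sub_self, add_zero, div_self hy'.ne', mul_one])
          (single_le_sum (f := fun b => q j b * (bm τ r (y + (θ j a - θ j b)) / bm τ r y))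
            (fun b _ => mul_nonneg (h0 j b) (div_nonneg (bm_nonneg hτ.pos _ _) hy'.le))
            (mem_univ a))
        rcases (h0 j a).eq_or_lt with h4 | h4
        · rw [← h4]; norm_num
        have hz0 : 0 < z := h4.trans_le h3
        rw [e2, Real.log_mul hz0.ne' hy'.ne',
          show -(Real.log z + Real.log (bm τ r y)) - -Real.log (bm τ r y) = -Real.log z by ring,
          neg_sq]
        rcases le_total 1 z with h5 | h5
        · nlinarith [log_sq_le h5]
        · have h6 := log_sq_le ((one_le_inv₀ hz0).2 h5)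
          rw [Real.log_inv, neg_sq] at h6
          have h7 : q j a * z⁻¹ ≤ 1 := by rw [← div_eq_mul_inv, div_le_one hz0]; exact h3
          nlinarith [mul_pos h4 hz0]
    _ ≤ ∑ a, (4 + 4 * q j a * 3) := by
        rw [E_sum]
        refine sum_le_sum fun a _ => ?_
        rw [E_add, hτ.E_const, E_const_mul, E_sum]
        refine add_le_add le_rfl (mul_le_mul_of_nonneg_left ?_ (by have := h0 j a; positivity))
        calc _ ≤ ∑ b, q j b * 3 := sum_le_sum fun b _ => by
              rw [E_const_mul]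
              exact mul_le_mul_of_nonneg_left (ratio_ball_le hτ hr _) (h0 j b)
          _ = 3 := by rw [← sum_mul, h1, one_mul]
    _ = _ := by
        rw [sum_add_distrib, ← sum_mul, ← mul_sum, h1, sum_const, card_univ, nsmul_eq_mul]
        ring

end Vale.Agent.P114
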