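import Mathlib

/-! Finitely supported distributions on the line, with convolution as product. -/

namespace Vale.Agent.P114
open Finset

/-- Finitely supported signed measures on the line. -/
abbrev FD : Type := AddMonoidAlgebra ℝ ℝ

/-- Integral against a finitely supported measure. -/
noncomputable def E (ν : FD) (F : ℝ → ℝ) : ℝ := ∑ x ∈ ν.coeff.support, ν.coeff x * F x

/-- Nonnegative measures. -/
def Pos (ν : FD) : Prop := ∀ x, 0 ≤ ν.coeff x

/-- Probability measures. -/
structure Prob (ν : FD) : Prop where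
  pos : Pos ν
  one : E ν (fun _ => 1) = 1

/-- Indicator of a proposition. -/
noncomputable def ind (P : Prop) : ℝ := by classical exact if P then 1 else 0

lemma ind_pos {P : Prop} (h : P) : ind P = 1 := by simp [ind, h]
lemma ind_neg {P : Prop} (h : ¬P) : ind P = 0 := by simp [ind, h]
lemma ind_nonneg (P : Prop) : 0 ≤ ind P := by by_cases h : P <;> simp [ind, h]
lemma ind_le_one (P : Prop) : ind P ≤ 1 := by by_cases h : P <;> simp [ind, h]
lemma ind_mono {P Q : Prop} (h : P → Q) : ind P ≤ ind Q := by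
  by_cases hP : P
  · rw [ind_pos hP, ind_pos (h hP)]
  · rw [ind_neg hP]; exact ind_nonneg _
lemma ind_congr {P Q : Prop} (h : P ↔ Q) : ind P = ind Q := by rw [propext h]

variable {ν τ : FD} {F G : ℝ → ℝ}

lemma E_eq_sum (ν : FD) (F : ℝ → ℝ) : E ν F = ν.coeff.sum fun x c => c * F x := rfl

lemma E_add (ν : FD) (F G : ℝ → ℝ) : E ν (fun x => F x + G x) = E ν F + E ν G := by
  simp only [E, mul_add, sum_add_distrib]

lemma E_sub (ν : FD) (F G : ℝ → ℝ) : E ν (fun x => F x - G x) = E ν F - E ν G := by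
  simp only [E, mul_sub, sum_sub_distrib]

lemma E_neg (ν : FD) (F : ℝ → ℝ) : E ν (fun x => -F x) = -E ν F := by
  simp only [E, mul_neg, sum_neg_distrib]

lemma E_const_mul (ν : FD) (c : ℝ) (F : ℝ → ℝ) : E ν (fun x => c * F x) = c * E ν F := by
  simp only [E, mul_sum, mul_left_comm]

lemma E_mul_const (ν : FD) (c : ℝ) (F : ℝ → ℝ) : E ν (fun x => F x * c) = E ν F * c := by
  simp only [E, sum_mul, mul_assoc]

lemma E_div_const (ν : FD) (c : ℝ) (F : ℝ → ℝ) : E ν (fun x => F x / c) = E ν F / c := by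
  simp only [div_eq_mul_inv, E_mul_const]

lemma E_zero (ν : FD) : E ν (fun _ => 0) = 0 := by simp [E]

lemma E_sum {ι : Type*} (ν : FD) (s : Finset ι) (F : ι → ℝ → ℝ) :
    E ν (fun x => ∑ i ∈ s, F i x) = ∑ i ∈ s, E ν (F i) := by
  simp only [E, mul_sum]; exact sum_comm

lemma Prob.E_const (h : Prob ν) (c : ℝ) : E ν (fun _ => c) = c := by
  simpa [h.one] using E_const_mul ν c fun _ => 1

lemma E_congr (h : ∀ x, ν.coeff x ≠ 0 → F x = G x) : E ν F = E ν G :=
  sum_congr rfl fun x hx => by rw [h x (Finsupp.mem_support_iff.1 hx)]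

lemma E_mono' (hν : Pos ν) (h : ∀ x, 0 < ν.coeff x → F x ≤ G x) : E ν F ≤ E ν G :=
  sum_le_sum fun x hx => mul_le_mul_of_nonneg_left
    (h x ((hν x).lt_of_ne' (Finsupp.mem_support_iff.1 hx))) (hν x)

lemma E_mono (hν : Pos ν) (h : ∀ x, F x ≤ G x) : E ν F ≤ E ν G := E_mono' hν fun x _ => h x

lemma E_nonneg (hν : Pos ν) (h : ∀ x, 0 ≤ F x) : 0 ≤ E ν F := by
  simpa [E_zero] using E_mono (F := fun _ => 0) hν h

lemma Prob.E_le (h : Prob ν) {c : ℝ} (hF : ∀ x, 0 < ν.coeff x → F x ≤ c) : E ν F ≤ c :=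
  (E_mono' h.pos hF).trans_eq (h.E_const c)

lemma Prob.le_E (h : Prob ν) {c : ℝ} (hF : ∀ x, 0 < ν.coeff x → c ≤ F x) : c ≤ E ν F :=
  (h.E_const c).symm.trans_le (E_mono' h.pos hF)

lemma single_le_E (hν : Pos ν) (h : ∀ x, 0 ≤ F x) (x : ℝ) : ν.coeff x * F x ≤ E ν F := by
  by_cases hx : ν.coeff x = 0
  · rw [hx, zero_mul]; exact E_nonneg hν h
  · exact single_le_sum (f := fun x => ν.coeff x * F x) (fun y _ => mul_nonneg (hν y) (h y))
      (Finsupp.mem_support_iff.2 hx)

lemma E_pos (hν : Pos ν) (h : ∀ x, 0 ≤ F x) {x : ℝ} (hx : 0 < ν.coeff x) (hF : 0 < F x) :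
    0 < E ν F := (mul_pos hx hF).trans_le (single_le_E hν h x)

lemma E_swap (ν τ : FD) (F : ℝ → ℝ → ℝ) :
    E ν (fun x => E τ (F x)) = E τ (fun y => E ν fun x => F x y) := by
  simp only [E, mul_sum]
  rw [sum_comm]
  simp only [mul_left_comm]

lemma E_add_meas (ν τ : FD) (F : ℝ → ℝ) : E (ν + τ) F = E ν F + E τ F := by
  simp only [E_eq_sum, AddMonoidAlgebra.coeff_add]
  exact Finsupp.sum_add_index' (by simp) (by simp [add_mul])

lemma E_single (a c : ℝ) (F : ℝ → ℝ) : E (AddMonoidAlgebra.single a c) F = c * F a := by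
  simp only [E_eq_sum, AddMonoidAlgebra.coeff_single]
  exact Finsupp.sum_single_index (by simp)

lemma E_zero_meas (F : ℝ → ℝ) : E 0 F = 0 := by simp [E]

lemma E_sum_meas {ι : Type*} (s : Finset ι) (ν : ι → FD) (F : ℝ → ℝ) :
    E (∑ i ∈ s, ν i) F = ∑ i ∈ s, E (ν i) F := by
  classical
  induction s using Finset.induction_on with
  | empty => simp [E_zero_meas]
  | insert a s ha ih => rw [sum_insert ha, sum_insert ha, E_add_meas, ih]

lemma E_mul (ν τ : FD) (F : ℝ → ℝ) : E (ν * τ) F = E ν fun x => E τ fun y => F (x + y) := by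
  induction ν using AddMonoidAlgebra.induction_linear with
  | zero => simp [E_zero_meas]
  | add a b ha hb => rw [add_mul, E_add_meas, E_add_meas, ha, hb]
  | single a c =>
    rw [E_single]
    induction τ using AddMonoidAlgebra.induction_linear with
    | zero => simp [E_zero_meas]
    | add a b ha hb => rw [mul_add, E_add_meas, E_add_meas, ha, hb, mul_add]
    | single b d => rw [AddMonoidAlgebra.single_mul_single, E_single, E_single, mul_assoc]

lemma E_one (F : ℝ → ℝ) : E 1 F = F 0 := by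
  rw [AddMonoidAlgebra.one_def, E_single, one_mul]

lemma coeff_eq_E (ν : FD) (x : ℝ) : ν.coeff x = E ν fun y => ind (y = x) := by
  classical
  simp only [E, ind, mul_ite, mul_one, mul_zero, sum_ite_eq', Finsupp.mem_support_iff]
  split_ifs with h
  · rfl
  · exact not_not.1 h

lemma pos_of_E (h : ∀ F : ℝ → ℝ, (∀ x, 0 ≤ F x) → 0 ≤ E ν F) : Pos ν := fun x => by
  rw [coeff_eq_E]; exact h _ fun _ => ind_nonneg _

lemma Pos.mul (hν : Pos ν) (hτ : Pos τ) : Pos (ν * τ) := pos_of_E fun F hF => by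
  rw [E_mul]; exact E_nonneg hν fun x => E_nonneg hτ fun y => hF _

lemma Prob.mul (hν : Prob ν) (hτ : Prob τ) : Prob (ν * τ) :=
  ⟨hν.pos.mul hτ.pos, by rw [E_mul, hτ.one, hν.one]⟩

lemma prob_one : Prob 1 := ⟨pos_of_E fun F hF => by rw [E_one]; exact hF 0, E_one _⟩

lemma coeff_mul_pos (hν : Pos ν) (hτ : Pos τ) {x y : ℝ} (hx : 0 < ν.coeff x)
    (hy : 0 < τ.coeff y) : 0 < (ν * τ).coeff (x + y) := by
  rw [coeff_eq_E, E_mul]
  exact E_pos hν (fun _ => E_nonneg hτ fun _ => ind_nonneg _) hx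
    (E_pos hτ (fun _ => ind_nonneg _) hy (by rw [ind_pos rfl]; exact one_pos))

/-- A digit: weights `q` placed at the points `θ`. -/
noncomputable def dig {A : Type*} [Fintype A] (q θ : A → ℝ) : FD :=
  ∑ a, AddMonoidAlgebra.single (θ a) (q a)

lemma E_dig {A : Type*} [Fintype A] (q θ : A → ℝ) (F : ℝ → ℝ) :
    E (dig q θ) F = ∑ a, q a * F (θ a) := by
  simp only [dig, E_sum_meas, E_single]

lemma prob_dig {A : Type*} [Fintype A] {q : A → ℝ} (h0 : ∀ a, 0 ≤ q a) (h1 : ∑ a, q a = 1)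
    (θ : A → ℝ) : Prob (dig q θ) :=
  ⟨pos_of_E fun F hF => by rw [E_dig]; exact sum_nonneg fun a _ => mul_nonneg (h0 a) (hF _),
    by simpa [E_dig] using h1⟩

lemma E_integral (ν : FD) (F : ℝ → ℝ → ℝ)
    (h : ∀ x, IntervalIntegrable (F x) MeasureTheory.volume 0 1) :
    ∫ u in (0:ℝ)..1, E ν (fun x => F x u) = E ν fun x => ∫ u in (0:ℝ)..1, F x u := by
  simp only [E]
  rw [intervalIntegral.integral_finsetSum fun x _ => (h x).const_mul _]
  simp only [intervalIntegral.integral_const_mul]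

lemma E_integrable (ν : FD) (F : ℝ → ℝ → ℝ)
    (h : ∀ x, IntervalIntegrable (F x) MeasureTheory.volume 0 1) :
    IntervalIntegrable (fun u => E ν fun x => F x u) MeasureTheory.volume 0 1 := by
  simp only [E]
  have := IntervalIntegrable.sum ν.coeff.support fun x _ => (h x).const_mul (ν.coeff x)
  exact (congrArg (fun f => IntervalIntegrable f MeasureTheory.volume 0 1)
    (funext fun u => Finset.sum_apply u _ _)).mp this

/-- Variance. -/
noncomputable def Var (ν : FD) (F : ℝ → ℝ) : ℝ := E ν (fun x => F x ^ 2) - E ν F ^ 2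

lemma Prob.var_le (h : Prob ν) (F : ℝ → ℝ) (c : ℝ) : Var ν F ≤ E ν fun x => (F x - c) ^ 2 := by
  have : E ν (fun x => (F x - c) ^ 2) = E ν (fun x => F x ^ 2) - 2 * c * E ν F + c ^ 2 := by
    rw [← E_const_mul, ← E_sub, ← h.E_const (c ^ 2), ← E_add]
    exact E_congr fun x _ => by ring
  rw [this, Var]
  nlinarith [sq_nonneg (E ν F - c)]

lemma Prob.var_eq (h : Prob ν) (F : ℝ → ℝ) : Var ν F = E ν fun x => (F x - E ν F) ^ 2 := by
  have : E ν (fun x => (F x - E ν F) ^ 2) =
      E ν (fun x => F x ^ 2) - 2 * E ν F * E ν F + E ν F ^ 2 := by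
    rw [← E_const_mul ν (2 * E ν F), ← E_sub, ← h.E_const (E ν F ^ 2), ← E_add]
    exact E_congr fun x _ => by ring
  rw [this, Var]
  ring

lemma Prob.sq_le (h : Prob ν) (F : ℝ → ℝ) : E ν F ^ 2 ≤ E ν fun x => F x ^ 2 := by
  have := h.var_eq F
  have h2 : 0 ≤ E ν fun x => (F x - E ν F) ^ 2 := E_nonneg h.pos fun _ => sq_nonneg _
  rw [Var] at this
  linarith

/-- Efron-Stein inequality for functions of a sum of independent variables. -/
lemma efron_stein {ι : Type*} [DecidableEq ι] (s : Finset ι) (d : ι → FD) (hd : ∀ i, Prob (d i))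
    (F : ℝ → ℝ) : Var (∏ i ∈ s, d i) F ≤
      ∑ i ∈ s, E (∏ j ∈ s.erase i, d j) fun y => Var (d i) fun x => F (x + y) := by
  have hp : ∀ s : Finset ι, Prob (∏ i ∈ s, d i) := fun s =>
    prod_induction _ _ (fun _ _ => Prob.mul) prob_one fun i _ => hd i
  induction s using Finset.induction_on generalizing F with
  | empty => simp [Var, E_one]
  | insert a s ha ih =>
    rw [prod_insert ha, sum_insert ha, erase_insert ha]
    have h1 : Var (d a * ∏ i ∈ s, d i) F =
        E (∏ j ∈ s, d j) (fun y => Var (d a) fun x => F (x + y)) +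
          Var (∏ j ∈ s, d j) fun y => E (d a) fun x => F (x + y) := by
      simp only [Var, E_mul, E_sub]
      rw [E_swap (d a), E_swap (d a)]
      ring
    rw [h1]
    refine add_le_add le_rfl ((ih _).trans (sum_le_sum fun i hi => ?_))
    have hai : a ≠ i := fun e => ha (e ▸ hi)
    rw [erase_insert_of_ne hai, prod_insert fun h => ha (mem_of_mem_erase h), mul_comm, E_mul]
    refine E_mono (hp _).pos fun y => ?_
    rw [(hd i).var_eq]
    simp only [(hd i).var_eq]
    rw [E_swap (d a)]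
    refine E_mono (hd i).pos fun x => ?_
    refine le_of_eq_of_le ?_ ((hd a).sq_le _)
    rw [E_sub, E_swap (d a)]
    congr 2
    · exact E_congr fun z _ => by rw [add_left_comm, add_comm z y]
    · exact E_congr fun w _ => E_congr fun z _ => by rw [add_left_comm, add_comm z y]

end Vale.Agent.P114
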