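import Vale.Agent.P114.Defs

/-! The support and the elementary upper bound for the dimension of a self-similar measure. -/

namespace Vale.Agent.P114
open MeasureTheory
open scoped NNReal ENNReal

variable {A : Type*} [Fintype A] {r t p : A → ℝ}

lemma upper_exists_rho (hr : ∀ a, |r a| < 1) : ∃ ρ : ℝ, 0 < ρ ∧ ρ < 1 ∧ ∀ a, |r a| ≤ ρ := by
  classical
  obtain ⟨b, hb, hbmax⟩ := Finset.exists_max_image (insert (1 / 2 : ℝ)
    (Finset.univ.image fun a => |r a|)) id ⟨1 / 2, Finset.mem_insert_self _ _⟩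
  refine ⟨b, ?_, ?_, fun a => ?_⟩
  · have := hbmax (1 / 2) (Finset.mem_insert_self _ _)
    simp only [id] at this
    linarith
  · rcases Finset.mem_insert.1 hb with rfl | hb
    · norm_num
    · obtain ⟨a, -, rfl⟩ := Finset.mem_image.1 hb
      exact hr a
  · exact hbmax _ (Finset.mem_insert_of_mem (Finset.mem_image_of_mem _ (Finset.mem_univ a)))

/-- A self-similar measure lives on a bounded interval. -/
theorem measure_compl_Icc (hr : ∀ a, |r a| < 1) (hp : ∀ a, 0 ≤ p a) (hp1 : ∑ a, p a = 1) {R : ℝ}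
    (hR : ∀ a, |t a| ≤ (1 - |r a|) * R) (μ : Measure ℝ) [IsProbabilityMeasure μ]
    (hμ : ∀ S, MeasurableSet S → μ.real S = ∑ a, p a * μ.real {x | r a * x + t a ∈ S}) :
    μ (Set.Icc (-R) R)ᶜ = 0 := by
  obtain ⟨ρ, hρ0, hρ1, hρ⟩ := upper_exists_rho hr
  let S : ℝ → Set ℝ := fun s => {x | R + s < |x|}
  have hSm : ∀ s, MeasurableSet (S s) := fun s =>
    measurableSet_lt measurable_const continuous_abs.measurable
  have step : ∀ s, 0 < s → μ.real (S s) ≤ μ.real (S (s / ρ)) := by
    intro s hs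
    rw [hμ _ (hSm s)]
    calc ∑ a, p a * μ.real {x | r a * x + t a ∈ S s} ≤ ∑ a, p a * μ.real (S (s / ρ)) := by
          refine Finset.sum_le_sum fun a _ => mul_le_mul_of_nonneg_left ?_ (hp a)
          refine measureReal_mono fun x hx => ?_
          by_contra hx'
          have h1 : |x| ≤ R + s / ρ := not_lt.1 hx'
          have h2 : R + s < |r a * x + t a| := hx
          have h3 : |r a * x + t a| ≤ |r a| * |x| + |t a| := by
            rw [← abs_mul]; exact abs_add_le _ _
          have h4 : |r a| * |x| ≤ |r a| * (R + s / ρ) :=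
            mul_le_mul_of_nonneg_left h1 (abs_nonneg _)
          have h5 : |r a| * (s / ρ) ≤ ρ * (s / ρ) :=
            mul_le_mul_of_nonneg_right (hρ a) (by positivity)
          have h6 : ρ * (s / ρ) = s := by field_simp
          have h7 := hR a
          nlinarith
      _ = μ.real (S (s / ρ)) := by rw [← Finset.sum_mul, hp1, one_mul]
  have iter : ∀ s, 0 < s → ∀ n : ℕ, μ.real (S s) ≤ μ.real (S (s / ρ ^ n)) := by
    intro s hs n
    induction n with
    | zero => simp
    | succ n ih =>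
      refine ih.trans ((step _ (by positivity)).trans (le_of_eq ?_))
      rw [pow_succ, div_div]
  have hzero : ∀ s, 0 < s → μ (S s) = 0 := by
    intro s hs
    have hanti : Antitone fun n : ℕ => S (s / ρ ^ n) := by
      refine antitone_nat_of_succ_le fun n x hx => ?_
      have h1 : s / ρ ^ n ≤ s / ρ ^ (n + 1) := by
        apply div_le_div_of_nonneg_left hs.le (by positivity)
        rw [pow_succ]
        exact mul_le_of_le_one_right (by positivity) hρ1.le
      have h2 : R + s / ρ ^ (n + 1) < |x| := hx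
      show R + s / ρ ^ n < |x|
      linarith
    have hlim := tendsto_measure_iInter_atTop (μ := μ)
      (fun n : ℕ => (hSm (s / ρ ^ n)).nullMeasurableSet) hanti ⟨0, measure_ne_top _ _⟩
    have hempty : (⋂ n : ℕ, S (s / ρ ^ n)) = ∅ := by
      rw [Set.eq_empty_iff_forall_notMem]
      intro x hx
      obtain ⟨n, hn⟩ := exists_pow_lt_of_lt_one (show 0 < s / (|x| + |R| + 1) by positivity) hρ1
      have h1 : R + s / ρ ^ n < |x| := Set.mem_iInter.1 hx n
      have h2 : |x| + |R| + 1 < s / ρ ^ n := by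
        rw [lt_div_iff₀ (by positivity)] at hn ⊢
        linarith
      have := neg_abs_le R
      linarith
    rw [hempty, measure_empty] at hlim
    refine le_antisymm (ge_of_tendsto' hlim fun n => ?_) zero_le
    exact (ENNReal.toReal_le_toReal (measure_ne_top _ _) (measure_ne_top _ _)).1 (iter s hs n)
  refine measure_mono_null (t := ⋃ m : ℕ, S (1 / ((m : ℝ) + 1))) (fun x hx => ?_)
    (measure_iUnion_null fun m => hzero _ (by positivity))
  have h1 : R < |x| := by
    by_contra h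
    exact hx (abs_le.1 (not_lt.1 h))
  obtain ⟨m, hm⟩ := exists_nat_one_div_lt (sub_pos.2 h1)
  refine Set.mem_iUnion.2 ⟨m, ?_⟩
  show R + 1 / ((m : ℝ) + 1) < |x|
  linarith

lemma upper_iter (μ : Measure ℝ)
    (hμ : ∀ S, MeasurableSet S → μ.real S = ∑ a, p a * μ.real {x | r a * x + t a ∈ S}) (n : ℕ) :
    ∃ c : (Fin n → A) → ℝ, ∀ S, MeasurableSet S →
      μ.real S = ∑ w : Fin n → A, (∏ j, p (w j)) * μ.real {x | (∏ j, r (w j)) * x + c w ∈ S} := by
  induction n with
  | zero => exact ⟨fun _ => 0, fun S _ => by simp⟩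
  | succ n ih =>
    obtain ⟨c, hc⟩ := ih
    refine ⟨fun w => r (w 0) * c (Fin.tail w) + t (w 0), fun S hS => ?_⟩
    rw [hμ S hS, ← (Fin.consEquiv fun _ : Fin (n + 1) => A).sum_comp, Fintype.sum_prod_type]
    refine Finset.sum_congr rfl fun a _ => ?_
    have hm : MeasurableSet {x : ℝ | r a * x + t a ∈ S} :=
      (by fun_prop : Measurable fun x : ℝ => r a * x + t a) hS
    rw [hc _ hm, Finset.mul_sum]
    refine Finset.sum_congr rfl fun w _ => ?_
    have ht : Fin.tail ((Fin.consEquiv fun _ : Fin (n + 1) => A) (a, w)) = w := rfl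
    simp only [ht]
    simp only [Fin.consEquiv_apply, Fin.prod_univ_succ, Fin.cons_zero, Fin.cons_succ,
      Set.mem_ofPred_eq]
    rw [mul_assoc]
    congr 3
    ext x
    simp only [Set.mem_ofPred_eq]
    rw [show r a * ((∏ j, r (w j)) * x + c w) + t a =
      (r a * ∏ j, r (w j)) * x + (r a * c w + t a) by ring]

lemma upper_exists_s (hp1 : ∑ a, p a = 1) (X : A → ℝ) (hX : ∑ a, p a * X a < 0) :
    ∃ s : ℝ, 0 < s ∧ ∑ a, p a * Real.exp (s * X a) < 1 := by
  have hd : HasDerivAt (fun s : ℝ => ∑ a, p a * Real.exp (s * X a)) (∑ a, p a * X a) 0 := by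
    refine HasDerivAt.fun_sum fun a _ => ?_
    have h1 := (((hasDerivAt_id (0 : ℝ)).mul_const (X a)).exp).const_mul (p a)
    simpa using h1
  have h2 := (hd.tendsto_slope_zero_right.eventually (gt_mem_nhds hX)).and self_mem_nhdsWithin
  obtain ⟨s, hs1, hs2⟩ := h2.exists
  have hs : 0 < s := hs2
  refine ⟨s, hs, ?_⟩
  simp only [zero_add, zero_mul, Real.exp_zero, mul_one, hp1, smul_eq_mul] at hs1
  have := (mul_neg_iff.1 hs1)
  rcases this with h | h
  · linarith [h.2]
  · exact absurd h.1 (not_lt.2 (inv_pos.2 hs).le)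

lemma upper_dim_le (hr : ∀ a, r a ≠ 0 ∧ |r a| < 1) (hp : ∀ a, 0 < p a) (hp1 : ∑ a, p a = 1)
    (μ : Measure ℝ) [IsProbabilityMeasure μ]
    (hμ : ∀ S, MeasurableSet S → μ.real S = ∑ a, p a * μ.real {x | r a * x + t a ∈ S})
    (d : ℝ≥0) (hd0 : 0 < d)
    (hd : ∑ a, p a * ((d : ℝ) * Real.log |r a| - Real.log (p a)) < 0) :
    measureDim μ ≤ d := by
  classical
  obtain ⟨ρ, hρ0, hρ1, hρ⟩ := upper_exists_rho fun a => (hr a).2
  set X : A → ℝ := fun a => (d : ℝ) * Real.log |r a| - Real.log (p a) with hX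
  obtain ⟨s, hs, hM⟩ := upper_exists_s hp1 X hd
  set M : ℝ := ∑ a, p a * Real.exp (s * X a) with hMdef
  have hM0 : 0 ≤ M := Finset.sum_nonneg fun a _ => mul_nonneg (hp a).le (Real.exp_pos _).le
  set R : ℝ := ∑ a, |t a| / (1 - |r a|) with hRdef
  have hR0 : 0 ≤ R :=
    Finset.sum_nonneg fun a _ => div_nonneg (abs_nonneg _) (sub_pos.2 (hr a).2).le
  have hR : ∀ a, |t a| ≤ (1 - |r a|) * R := by
    intro a
    have h1 : |t a| / (1 - |r a|) ≤ R :=
      Finset.single_le_sum (f := fun a => |t a| / (1 - |r a|))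
        (fun a _ => div_nonneg (abs_nonneg _) (sub_pos.2 (hr a).2).le) (Finset.mem_univ a)
    rwa [div_le_iff₀ (sub_pos.2 (hr a).2), mul_comm] at h1
  have hnull := measure_compl_Icc (fun a => (hr a).2) (fun a => (hp a).le) hp1 hR μ hμ
  choose c hc using upper_iter μ hμ
  let T : ∀ n : ℕ, (Fin n → A) → Set ℝ := fun n w =>
    if ∑ j, X (w j) ≤ 0 then
      Set.Icc (c n w - |∏ j, r (w j)| * R) (c n w + |∏ j, r (w j)| * R) else ∅
  have hTm : ∀ n w, MeasurableSet (T n w) := by
    intro n w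
    simp only [T]
    split_ifs
    · exact measurableSet_Icc
    · exact MeasurableSet.empty
  let E : ℕ → Set ℝ := fun n => ⋃ w, T n w
  have hEm : ∀ n, MeasurableSet (E n) := fun n => MeasurableSet.iUnion (hTm n)
  have hEc : ∀ n, μ.real (E n)ᶜ ≤ M ^ n := by
    intro n
    rw [hc n _ (hEm n).compl, hMdef, Finset.sum_pow', Fintype.piFinset_univ]
    refine Finset.sum_le_sum fun w _ => ?_
    have hpw : 0 < ∏ j, p (w j) := Finset.prod_pos fun j _ => hp _
    rw [Finset.prod_mul_distrib, ← Real.exp_sum, ← Finset.mul_sum]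
    refine mul_le_mul_of_nonneg_left ?_ hpw.le
    by_cases hw : ∑ j, X (w j) ≤ 0
    · have : μ.real {x | (∏ j, r (w j)) * x + c n w ∈ (E n)ᶜ} = 0 := by
        rw [measureReal_eq_zero_iff]
        refine measure_mono_null (t := (Set.Icc (-R) R)ᶜ) (fun x hx hx' => hx ?_) hnull
        refine Set.mem_iUnion.2 ⟨w, ?_⟩
        simp only [T, if_pos hw]
        have h1 : |(∏ j, r (w j)) * x| ≤ |∏ j, r (w j)| * R := by
          rw [abs_mul]
          exact mul_le_mul_of_nonneg_left (abs_le.2 hx') (abs_nonneg _)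
        have h2 := abs_le.1 h1
        constructor <;> linarith [h2.1, h2.2]
      rw [this]
      exact (Real.exp_pos _).le
    · refine measureReal_le_one.trans (Real.one_le_exp ?_)
      exact mul_nonneg hs.le (not_le.1 hw).le
  have hsum : (∑' n, μ (E n)ᶜ) ≠ ∞ := by
    refine ne_top_of_le_ne_top (b := ∑' n, ENNReal.ofReal (M ^ n)) ?_
      (ENNReal.tsum_le_tsum fun n => ?_)
    · rw [← ENNReal.ofReal_tsum_of_nonneg (fun n => pow_nonneg hM0 n)
        (summable_geometric_of_lt_one hM0 hM)]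
      exact ENNReal.ofReal_ne_top
    · rw [← ENNReal.ofReal_toReal (measure_ne_top μ (E n)ᶜ)]
      exact ENNReal.ofReal_le_ofReal (hEc n)
  let F : ℕ → Set ℝ := fun N => ⋂ n, ⋂ (_ : N ≤ n), E n
  have hFm : ∀ N, MeasurableSet (F N) := fun N =>
    MeasurableSet.iInter fun n => MeasurableSet.iInter fun _ => hEm n
  obtain ⟨N, hN⟩ : ∃ N, 0 < μ (F N) := by
    by_contra hcon
    have h1 : μ (⋃ N, F N) = 0 :=
      measure_iUnion_null fun N => le_antisymm (not_lt.1 fun h => hcon ⟨N, h⟩) zero_le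
    have h2 : ∀ᵐ x ∂μ, x ∈ ⋃ N, F N := by
      filter_upwards [ae_eventually_notMem hsum] with x hx
      obtain ⟨N, hN⟩ := Filter.eventually_atTop.1 hx
      exact Set.mem_iUnion.2 ⟨N, Set.mem_iInter₂.2 fun n hn => not_not.1 (hN n hn)⟩
    have h3 : ∀ᵐ x ∂μ, x ∉ ⋃ N, F N := measure_eq_zero_iff_ae_notMem.1 h1
    obtain ⟨x, hx1, hx2⟩ := (h2.and h3).exists
    exact hx2 hx1
  refine le_trans (iInf_le_of_le (F N) (iInf_le_of_le (hFm N) (iInf_le_of_le hN le_rfl))) ?_
  refine dimH_le_of_hausdorffMeasure_ne_top ?_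
  have hdiam : ∀ n w, Metric.ediam (T n w) ≤ ENNReal.ofReal (2 * R * |∏ j, r (w j)|) := by
    intro n w
    simp only [T]
    split_ifs
    · rw [Real.ediam_Icc]
      exact le_of_eq (congrArg _ (by ring))
    · simp
  have hle := Measure.hausdorffMeasure_le_liminf_sum (d : ℝ) (F N) (l := Filter.atTop)
    (fun n : ℕ => ENNReal.ofReal (2 * R * ρ ^ n)) ?_ T ?_ ?_
  · refine ne_top_of_le_ne_top (b := ENNReal.ofReal ((2 * R) ^ (d : ℝ))) ENNReal.ofReal_ne_top
      (hle.trans ?_)
    refine Filter.liminf_le_of_frequently_le' (Filter.Frequently.of_forall fun n => ?_)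
    have h1 : (2 * R) ^ (d : ℝ) = ∑ w : Fin n → A, (2 * R) ^ (d : ℝ) * ∏ j, p (w j) := by
      rw [← Finset.mul_sum, ← Fintype.piFinset_univ, ← Finset.sum_pow', hp1, one_pow, mul_one]
    have hpw : ∀ w : Fin n → A, 0 < ∏ j, p (w j) := fun w => Finset.prod_pos fun j _ => hp _
    rw [h1, ENNReal.ofReal_sum_of_nonneg fun w _ => mul_nonneg (by positivity) (hpw w).le]
    refine Finset.sum_le_sum fun w _ => ?_
    by_cases hw : ∑ j, X (w j) ≤ 0
    · refine (ENNReal.rpow_le_rpow (hdiam n w) d.2).trans ?_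
      rw [ENNReal.ofReal_rpow_of_nonneg (by positivity) d.2, Real.mul_rpow (by positivity)
        (abs_nonneg _)]
      refine ENNReal.ofReal_le_ofReal (mul_le_mul_of_nonneg_left ?_ (by positivity))
      have hrw : 0 < |∏ j, r (w j)| := abs_pos.2 (Finset.prod_ne_zero_iff.2 fun j _ => (hr _).1)
      rw [Real.rpow_def_of_pos hrw, ← Real.exp_log (hpw w)]
      refine Real.exp_le_exp.2 ?_
      rw [Finset.abs_prod, Real.log_prod fun j _ => (abs_pos.2 (hr _).1).ne',
        Real.log_prod fun j _ => (hp _).ne']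
      simp only [hX, Finset.sum_sub_distrib, ← Finset.mul_sum] at hw
      rw [mul_comm]
      exact sub_nonpos.1 hw
    · simp only [T, if_neg hw, Metric.ediam_empty]
      rw [ENNReal.zero_rpow_of_pos (by exact_mod_cast hd0)]
      exact zero_le
  · rw [← ENNReal.ofReal_zero, ← mul_zero (2 * R)]
    exact ENNReal.tendsto_ofReal
      ((tendsto_pow_atTop_nhds_zero_of_lt_one hρ0.le hρ1).const_mul _)
  · refine Filter.Eventually.of_forall fun n w => (hdiam n w).trans (ENNReal.ofReal_le_ofReal ?_)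
    refine mul_le_mul_of_nonneg_left ?_ (by positivity)
    rw [Finset.abs_prod]
    calc ∏ j, |r (w j)| ≤ ∏ _j : Fin n, ρ :=
          Finset.prod_le_prod (fun j _ => abs_nonneg _) fun j _ => hρ _
      _ = ρ ^ n := by simp
  · filter_upwards [Filter.eventually_ge_atTop N] with n hn x hx
    exact Set.mem_iInter₂.1 hx n hn

/-- The dimension is at most entropy over Lyapunov exponent. -/
theorem measureDim_le (hr : ∀ a, r a ≠ 0 ∧ |r a| < 1) (hp : ∀ a, 0 < p a) (hp1 : ∑ a, p a = 1)
    (μ : Measure ℝ) [IsProbabilityMeasure μ]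
    (hμ : ∀ S, MeasurableSet S → μ.real S = ∑ a, p a * μ.real {x | r a * x + t a ∈ S}) :
    measureDim μ ≤ ENNReal.ofReal
      ((∑ a, p a * -Real.log (p a)) / ∑ a, p a * -Real.log |r a|) := by
  set H : ℝ := ∑ a, p a * -Real.log (p a) with hH
  set χ : ℝ := ∑ a, p a * -Real.log |r a| with hχ
  have hne : (Finset.univ : Finset A).Nonempty := by
    by_contra h
    rw [Finset.not_nonempty_iff_eq_empty] at h
    rw [h] at hp1
    simp at hp1
  have hχ0 : 0 < χ := Finset.sum_pos (fun a _ => mul_pos (hp a)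
    (neg_pos.2 (Real.log_neg (abs_pos.2 (hr a).1) (hr a).2))) hne
  have hH0 : 0 ≤ H := Finset.sum_nonneg fun a _ => mul_nonneg (hp a).le
    (neg_nonneg.2 (Real.log_nonpos (hp a).le (by
      rw [← hp1]
      exact Finset.single_le_sum (fun a _ => (hp a).le) (Finset.mem_univ a))))
  have hq : 0 ≤ H / χ := div_nonneg hH0 hχ0.le
  refine ENNReal.le_of_forall_pos_le_add fun ε hε _ => ?_
  have h1 := upper_dim_le hr hp hp1 μ hμ ((H / χ).toNNReal + ε) (by positivity) (by
    have e : ∀ D : ℝ, ∑ a, p a * (D * Real.log |r a| - Real.log (p a)) = H - D * χ := by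
      intro D
      rw [hH, hχ, Finset.mul_sum, ← Finset.sum_sub_distrib]
      refine Finset.sum_congr rfl fun a _ => ?_
      ring
    rw [e, NNReal.coe_add, Real.coe_toNNReal _ hq, add_mul, div_mul_cancel₀ _ hχ0.ne']
    have : 0 < (ε : ℝ) * χ := mul_pos hε hχ0
    linarith)
  rw [ENNReal.coe_add] at h1
  exact h1

end Vale.Agent.P114
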