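import Vale.Agent.P114.Core
import Vale.Agent.P114.Upper

/-! Passing to the system of words of a fixed length. -/

namespace Vale.Agent.P114
open Finset MeasureTheory
open scoped NNReal ENNReal

variable {Λ : Type*} {r t p : Λ → ℝ}

lemma wordMap_apply (r t : Λ → ℝ) (w : List Λ) (x : ℝ) :
    wordMap r t w x = (w.map r).prod * x + wordMap r t w 0 := by
  induction w with
  | nil => simp [wordMap]
  | cons a w ih => simp only [wordMap, Function.comp, List.map_cons, List.prod_cons]; rw [ih]; ring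

lemma wordMap_append (r t : Λ → ℝ) (u v : List Λ) (x : ℝ) :
    wordMap r t (u ++ v) x = wordMap r t u (wordMap r t v x) := by
  induction u with
  | nil => rfl
  | cons a u ih => simp only [List.cons_append, wordMap, Function.comp, ih]

lemma wordMap_eq_iff (r t : Λ → ℝ) (u v : List Λ) : wordMap r t u = wordMap r t v ↔
    (u.map r).prod = (v.map r).prod ∧ wordMap r t u 0 = wordMap r t v 0 := by
  refine ⟨fun h => ⟨?_, congrFun h 0⟩, fun h => funext fun x => ?_⟩
  · have h1 := wordMap_apply r t u 1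
    have h2 := wordMap_apply r t v 1
    rw [h] at h1
    linarith
  · rw [wordMap_apply r t u, wordMap_apply r t v, h.1, h.2]

lemma abs_wordMap_le {R : ℝ} (hR0 : 0 ≤ R) (hR : ∀ a, |t a| ≤ (1 - |r a|) * R) (w : List Λ) :
    |wordMap r t w 0| ≤ R := by
  induction w with
  | nil => simpa [wordMap] using hR0
  | cons a w ih =>
    refine (abs_add_le _ _).trans ?_
    rw [abs_mul]
    linarith [hR a, mul_le_mul_of_nonneg_left ih (abs_nonneg (r a))]

lemma prod_bounds (hr : ∀ a, r a ≠ 0 ∧ |r a| < 1) (w : List Λ) :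
    (w.map r).prod ≠ 0 ∧ |(w.map r).prod| ≤ 1 ∧ (w ≠ [] → |(w.map r).prod| < 1) ∧
      -Real.log |(w.map r).prod| = (w.map fun a => -Real.log |r a|).sum := by
  induction w with
  | nil => simp
  | cons a w ih =>
    obtain ⟨h1, h2, -, h4⟩ := ih
    have h5 := (mul_le_of_le_one_right (abs_nonneg (r a)) h2).trans_lt (hr a).2
    simp only [List.map_cons, List.prod_cons, List.sum_cons, abs_mul]
    refine ⟨mul_ne_zero (hr a).1 h1, h5.le, fun _ => h5, ?_⟩
    rw [Real.log_mul (abs_pos.2 (hr a).1).ne' (abs_pos.2 h1).ne', ← h4]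
    ring

variable [Fintype Λ]

lemma mapProb_eq (r t p : Λ → ℝ) (n : ℕ) (g : ℝ → ℝ) :
    mapProb r t p n g = EW p n fun w => ind (wordMap r t w = g) := by
  simp only [mapProb, EW_eq_sum, sum_filter, ind, mul_ite, mul_one, mul_zero]

open Classical in
lemma sum_mapProb (r t p : Λ → ℝ) (n : ℕ) (F : (ℝ → ℝ) → ℝ) :
    ∑ g ∈ univ.image (fun w : Fin n → Λ => wordMap r t (List.ofFn w)), mapProb r t p n g * F g =
      EW p n fun w => F (wordMap r t w) := by
  rw [EW_eq_sum, ← sum_fiberwise_of_maps_to (g := fun w : Fin n → Λ => wordMap r t (List.ofFn w))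
    fun w hw => mem_image_of_mem (fun w : Fin n → Λ => wordMap r t (List.ofFn w)) hw]
  refine sum_congr rfl fun g _ => ?_
  rw [mapProb, sum_mul]
  exact sum_congr rfl fun w hw => by rw [(mem_filter.1 hw).2]

lemma walkEntropy_eq (r t p : Λ → ℝ) (n : ℕ) : walkEntropy r t p n * Real.log 2 =
    EW p n fun w => -Real.log (mapProb r t p n (wordMap r t w)) := by
  rw [← sum_mapProb r t p n fun g => -Real.log (mapProb r t p n g), walkEntropy, neg_mul, sum_mul,
    ← sum_neg_distrib]
  refine sum_congr rfl fun g _ => ?_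
  rw [Real.logb, mul_assoc, div_mul_cancel₀ _ (Real.log_pos one_lt_two).ne', mul_neg]

lemma walkEntropy_nonneg (hp : PV p) (n : ℕ) : 0 ≤ walkEntropy r t p n := by
  refine nonneg_of_mul_nonneg_left ?_ (Real.log_pos one_lt_two)
  rw [walkEntropy_eq]
  refine hp.le_EW fun w _ => neg_nonneg.2 (Real.log_nonpos ?_ ?_) <;> rw [mapProb_eq]
  · exact hp.le_EW fun _ _ => ind_nonneg _
  · exact hp.EW_le fun _ _ => ind_le_one _

lemma entropyRate_le (hp : PV p) (n : ℕ) : n * entropyRate r t p ≤ walkEntropy r t p n := by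
  cases n with
  | zero => simpa using walkEntropy_nonneg hp 0
  | succ n =>
    rw [← le_div_iff₀' (by positivity)]
    exact ciInf_le ⟨0, by
      rintro _ ⟨m, rfl⟩
      exact div_nonneg (walkEntropy_nonneg hp _) (Nat.cast_nonneg _)⟩ n

lemma lyapunov_eq (r p : Λ → ℝ) : lyapunov r p * Real.log 2 = ∑ a, p a * -Real.log |r a| := by
  rw [lyapunov, neg_mul, sum_mul, ← sum_neg_distrib]
  refine sum_congr rfl fun g _ => ?_
  rw [Real.logb, mul_assoc, div_mul_cancel₀ _ (Real.log_pos one_lt_two).ne', mul_neg]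

lemma iterate_word (μ : Measure ℝ)
    (hμ : ∀ U, MeasurableSet U → μ.real U = ∑ a, p a * μ.real {x | r a * x + t a ∈ U}) (n : ℕ)
    {U : Set ℝ} (hU : MeasurableSet U) :
    μ.real U = EW p n fun w => μ.real {x | (w.map r).prod * x + wordMap r t w 0 ∈ U} := by
  simp only [← wordMap_apply]
  induction n generalizing U with
  | zero => simp [EW, wordMap]
  | succ n ih =>
    rw [hμ U hU, EW_succ]
    exact sum_congr rfl fun a _ => congrArg _
      (ih (hU.preimage (f := fun x => r a * x + t a) (by fun_prop)))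

/-- Upper bound by the entropy of the `n`-th step. -/
lemma measureDim_le_step (hr : ∀ a, r a ≠ 0 ∧ |r a| < 1) (hp : ∀ a, 0 < p a) (hp1 : ∑ a, p a = 1)
    (μ : Measure ℝ) [IsProbabilityMeasure μ]
    (hμ : ∀ U, MeasurableSet U → μ.real U = ∑ a, p a * μ.real {x | r a * x + t a ∈ U}) (n : ℕ) :
    measureDim μ ≤ ENNReal.ofReal
      (walkEntropy r t p (n + 1) / ((n + 1 : ℕ) : ℝ) / lyapunov r p) := by
  classical
  have hpv : PV p := ⟨fun a => (hp a).le, hp1⟩
  let s := univ.image fun w : Fin (n + 1) → Λ => wordMap r t (List.ofFn w)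
  have key : ∀ F : (ℝ → ℝ) → ℝ, ∑ g : s, mapProb r t p (n + 1) g * F g =
      EW p (n + 1) fun w => F (wordMap r t w) := fun F => by
    refine (sum_coe_sort s fun g => mapProb r t p (n + 1) g * F g).trans ?_
    convert sum_mapProb r t p (n + 1) F
  have hs : ∀ w, wordMap r t w 1 - wordMap r t w 0 = (w.map r).prod := fun w => by
    rw [wordMap_apply r t w 1]; ring
  have h := measureDim_le (A := s) (r := fun g => g.1 1 - g.1 0) (t := fun g => g.1 0)
    (p := fun g => mapProb r t p (n + 1) g) (fun g => by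
      obtain ⟨w, -, e⟩ := mem_image.1 g.2
      rw [← e, hs]
      exact ⟨(prod_bounds hr _).1, (prod_bounds hr _).2.2.1 (by simp)⟩) (fun g => by
      obtain ⟨w, -, e⟩ := mem_image.1 g.2
      exact sum_pos' (fun w _ => prod_nonneg fun j _ => (hp _).le)
        ⟨w, by simpa using e, prod_pos fun j _ => hp _⟩)
    (by simpa [hpv.EW_const] using key fun _ => 1) μ fun U hU => by
      rw [key fun g => μ.real {x | (g 1 - g 0) * x + g 0 ∈ U}, iterate_word μ hμ (n + 1) hU]
      simp only [hs]
  rw [key fun g => -Real.log (mapProb r t p (n + 1) g), key fun g => -Real.log |g 1 - g 0|,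
    ← walkEntropy_eq] at h
  simp only [hs, (prod_bounds hr _).2.2.2] at h
  rw [hpv.EW_sum_map, ← lyapunov_eq, ← mul_assoc,
    mul_div_mul_right _ _ (Real.log_pos one_lt_two).ne', ← div_div] at h
  exact h

open Classical in
/-- The system of words of length `L + 1`, grouped by the number of occurrences of each letter. -/
noncomputable def power (hr : ∀ a, r a ≠ 0 ∧ |r a| < 1) (hp : ∀ a, 0 < p a) (hp1 : ∑ a, p a = 1)
    {R : ℕ} (hR : ∀ a, |t a| ≤ (1 - |r a|) * R) (L : ℕ) :
    Sys (Fin (L + 1) → Λ) (Λ → Fin (L + 2)) where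
  p w := ∏ j, p (w j)
  r w := ((List.ofFn w).map r).prod
  t w := wordMap r t (List.ofFn w) 0
  τ w i := ⟨(univ.filter fun j => w j = i).card, Nat.lt_succ_of_le
    ((card_filter_le _ _).trans_eq (by simp))⟩
  R := R
  hp w := prod_pos fun j _ => hp _
  hp1 := by
    simpa [EW_eq_sum] using PV.EW_const (p := p) ⟨fun a => (hp a).le, hp1⟩ (L + 1) 1
  hr0 w := (prod_bounds hr _).1
  hr1 w := (prod_bounds hr _).2.2.1 (by simp)
  ht w := abs_wordMap_le R.cast_nonneg hR _
  hτ u w h := by
    have : ∀ w : Fin (L + 1) → Λ, ((List.ofFn w).map r).prod =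
        ∏ i, r i ^ (univ.filter fun j => w j = i).card := fun w => by
      rw [List.map_ofFn, List.prod_ofFn, ← prod_fiberwise univ w]
      refine prod_congr rfl fun i _ => ?_
      rw [← prod_const]
      exact prod_congr rfl fun j hj => congrArg r (mem_filter.1 hj).2
    rw [this, this]
    exact prod_congr rfl fun i _ => congrArg _ (congrArg Fin.val (congrFun h i))

section
variable (hr : ∀ a, r a ≠ 0 ∧ |r a| < 1) (hp : ∀ a, 0 < p a) (hp1 : ∑ a, p a = 1)
  {R : ℕ} (hR : ∀ a, |t a| ≤ (1 - |r a|) * R) (L : ℕ)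

open Classical in
lemma power_sum (F : List Λ → ℝ) :
    ∑ w, (power hr hp hp1 hR L).p w * F (List.ofFn w) = EW p (L + 1) F := by
  rw [EW_eq_sum]
  exact sum_congr (by convert rfl) fun _ _ => rfl

open Classical in
lemma power_law (n : ℕ) (G : ℝ → ℝ → ℝ) :
    EW (power hr hp hp1 hR L).p n (fun w =>
      G ((power hr hp hp1 hR L).P w) ((power hr hp hp1 hR L).I w)) =
      EW p (n * (L + 1)) fun w => G (w.map r).prod (wordMap r t w 0) := by
  induction n generalizing G with
  | zero => simp [EW, Sys.I, wordMap]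
  | succ n ih =>
    rw [EW_succ, add_mul, one_mul, EW_append]
    simp only [← power_sum hr hp hp1 hR L, EW_sum, EW_const_mul]
    refine sum_congr rfl fun a _ => congrArg _ ((ih fun ρ x =>
      G ((power hr hp hp1 hR L).r a * ρ) (ρ * (power hr hp hp1 hR L).t a + x)).trans
        (EW_congr fun u _ => ?_))
    rw [List.map_append, List.prod_append, wordMap_append, wordMap_apply r t u (wordMap _ _ _ _),
      mul_comm (List.map r u).prod (List.prod _)]
    rfl

open Classical in
lemma power_HG (n : ℕ) :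
    (power hr hp hp1 hR L).HG n = walkEntropy r t p (n * (L + 1)) * Real.log 2 := by
  rw [Sys.HG, power_law hr hp hp1 hR L n fun ρ x => -Real.log (EW _ n fun w' =>
    ind ((power hr hp hp1 hR L).P w' = ρ ∧ (power hr hp hp1 hR L).I w' = x)), walkEntropy_eq]
  refine EW_congr fun w _ => ?_
  rw [power_law hr hp hp1 hR L n fun ρ x => ind (ρ = (w.map r).prod ∧ x = wordMap r t w 0),
    mapProb_eq]
  simp only [wordMap_eq_iff]

end

lemma lyapunov_pos (hr : ∀ a, r a ≠ 0 ∧ |r a| < 1) (hp : ∀ a, 0 < p a) (hp1 : ∑ a, p a = 1) :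
    0 < lyapunov r p := by
  refine (mul_pos_iff_of_pos_right (Real.log_pos one_lt_two)).1 ?_
  rw [lyapunov_eq]
  exact sum_pos (fun a _ => mul_pos (hp a) (neg_pos.2 (Real.log_neg (abs_pos.2 (hr a).1) (hr a).2)))
    (nonempty_of_sum_ne_zero (hp1.trans_ne one_ne_zero))

theorem le_measureDim_of_lt (hr : ∀ a, r a ≠ 0 ∧ |r a| < 1) (hp : ∀ a, 0 < p a)
    (hp1 : ∑ a, p a = 1) (μ : Measure ℝ) [IsProbabilityMeasure μ]
    (hμ : ∀ U, MeasurableSet U → μ.real U = ∑ a, p a * μ.real {x | r a * x + t a ∈ U}) {d : ℝ≥0}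
    (hd : 0 < d) (hlt : d < min 1 (entropyRate r t p / lyapunov r p)) :
    (d : ℝ≥0∞) ≤ measureDim μ := by
  classical
  have hpv : PV p := ⟨fun a => (hp a).le, hp1⟩
  have hχ := lyapunov_pos hr hp hp1
  have l2 := Real.log_pos one_lt_two
  obtain ⟨R₀, hR₀⟩ := (Set.finite_range fun a => |t a| / (1 - |r a|)).bddAbove
  obtain ⟨R, hR1⟩ := exists_nat_ge R₀
  have hR : ∀ a, |t a| ≤ (1 - |r a|) * R := fun a =>
    (div_le_iff₀' (sub_pos.2 (hr a).2)).1 ((hR₀ ⟨a, rfl⟩).trans hR1)
  set h := entropyRate r t p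
  set χ := lyapunov r p
  set e := (min h χ - d * χ) * Real.log 2 with he
  have he0 : 0 < e := by
    rw [lt_min_iff, lt_div_iff₀ hχ] at hlt
    exact mul_pos (sub_pos.2 (lt_min hlt.2 (mul_lt_of_lt_one_left hχ hlt.1))) l2
  set N : ℝ := (Fintype.card Λ : ℝ) with hNe
  have hN : 0 ≤ N := Nat.cast_nonneg _
  set K := 2 * N / e + 1
  have hK : 0 < K := by positivity
  obtain ⟨L, hL⟩ := exists_nat_gt ((d + N * Real.log K + (16 * R + 17)) / (e / 2))
  rw [div_lt_iff₀ (by positivity)] at hL
  refine (power hr hp hp1 hR L).core μ (fun U hU => ?_)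
    (measure_compl_Icc (fun a => (hr a).2) hpv.nonneg hp1 hR μ hμ)
    (h := (L + 1) * (h * Real.log 2)) (fun n => ?_) hd ?_
  · rw [iterate_word μ hμ (L + 1) hU, ← power_sum hr hp hp1 hR L]
    rfl
  · have := mul_le_mul_of_nonneg_right (entropyRate_le (r := r) (t := t) hpv (n * (L + 1))) l2.le
    rw [power_HG]
    push_cast at this
    linarith
  · have e1 : ∑ a, (power hr hp hp1 hR L).p a * -Real.log |(power hr hp hp1 hR L).r a| =
        (L + 1) * (χ * Real.log 2) := by
      refine (power_sum hr hp hp1 hR L fun w => -Real.log |(w.map r).prod|).trans ?_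
      simp only [(prod_bounds hr _).2.2.2]
      rw [hpv.EW_sum_map, ← lyapunov_eq]
      push_cast
      rfl
    have e2 : Real.log (Fintype.card (Λ → Fin (L + 2))) = N * Real.log (L + 2) := by
      rw [Fintype.card_fun, Fintype.card_fin]
      push_cast
      rw [Real.log_pow]
    have e3 := mul_le_mul_of_nonneg_left (log_sub_log_le (a := L + 2) (by positivity) hK) hN
    have e4 : N / K ≤ e / 2 := by
      rw [div_le_iff₀ hK, mul_add, show e / 2 * (2 * N / e) = N by field_simp]
      linarith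
    have e5 := mul_le_mul_of_nonneg_left e4 (show (0 : ℝ) ≤ L + 2 by positivity)
    rw [e1, e2, ← mul_min_of_nonneg _ _ (by positivity), ← min_mul_of_nonneg _ _ l2.le]
    change _ < _ - _ - (16 * (R : ℝ) + 17)
    have e6 : N * ((L + 2) / K - 1) = (L + 2) * (N / K) - N := by ring
    have e7 : (L + 1) * (min h χ * Real.log 2) = (L + 1) * e + d * ((L + 1) * (χ * Real.log 2)) := by
      rw [he]; ring
    rw [e7]
    nlinarith

end Vale.Agent.P114
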