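import Vale.Agent.P114.FD

/-! Expectations over random words. -/

namespace Vale.Agent.P114
open Finset

variable {A : Type*} [Fintype A]

/-- Expectation over a random word of length `n` with independent letters of law `p`. -/
noncomputable def EW (p : A → ℝ) : ℕ → (List A → ℝ) → ℝ
  | 0, F => F []
  | n + 1, F => ∑ a, p a * EW p n fun l => F (a :: l)

/-- Probability vectors. -/
structure PV (p : A → ℝ) : Prop where
  nonneg : ∀ a, 0 ≤ p a
  one : ∑ a, p a = 1

variable {p : A → ℝ} {n : ℕ} {F G : List A → ℝ}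

lemma EW_succ (p : A → ℝ) (n : ℕ) (F : List A → ℝ) :
    EW p (n + 1) F = ∑ a, p a * EW p n fun l => F (a :: l) := rfl

lemma EW_eq_sum (p : A → ℝ) (n : ℕ) (F : List A → ℝ) :
    EW p n F = ∑ w : Fin n → A, (∏ j, p (w j)) * F (List.ofFn w) := by
  induction n generalizing F with
  | zero => simp [EW]
  | succ n ih =>
    rw [EW_succ, ← (Fin.consEquiv fun _ => A).sum_comp, Fintype.sum_prod_type]
    refine sum_congr rfl fun a _ => ?_
    rw [ih, mul_sum]
    refine sum_congr rfl fun w _ => ?_
    simp [Fin.consEquiv, Fin.prod_univ_succ, List.ofFn_succ, mul_assoc]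

lemma EW_add (p : A → ℝ) (n : ℕ) (F G : List A → ℝ) :
    EW p n (fun l => F l + G l) = EW p n F + EW p n G := by
  simp only [EW_eq_sum, mul_add, sum_add_distrib]

lemma EW_sub (p : A → ℝ) (n : ℕ) (F G : List A → ℝ) :
    EW p n (fun l => F l - G l) = EW p n F - EW p n G := by
  simp only [EW_eq_sum, mul_sub, sum_sub_distrib]

lemma EW_const_mul (p : A → ℝ) (n : ℕ) (c : ℝ) (F : List A → ℝ) :
    EW p n (fun l => c * F l) = c * EW p n F := by
  simp only [EW_eq_sum, mul_sum, mul_left_comm]

lemma EW_sum {ι : Type*} (p : A → ℝ) (n : ℕ) (s : Finset ι) (F : ι → List A → ℝ) :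
    EW p n (fun l => ∑ i ∈ s, F i l) = ∑ i ∈ s, EW p n (F i) := by
  simp only [EW_eq_sum, mul_sum]; exact sum_comm

lemma PV.EW_const (hp : PV p) (n : ℕ) (c : ℝ) : EW p n (fun _ => c) = c := by
  induction n with
  | zero => rfl
  | succ n ih => rw [EW_succ]; simp only [ih, ← sum_mul, hp.one, one_mul]

lemma EW_congr (h : ∀ l, l.length = n → F l = G l) : EW p n F = EW p n G := by
  simp only [EW_eq_sum]
  exact sum_congr rfl fun w _ => by rw [h _ (List.length_ofFn)]

lemma PV.EW_mono (hp : PV p) (h : ∀ l, l.length = n → F l ≤ G l) : EW p n F ≤ EW p n G := by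
  simp only [EW_eq_sum]
  exact sum_le_sum fun w _ => mul_le_mul_of_nonneg_left (h _ List.length_ofFn)
    (prod_nonneg fun j _ => hp.nonneg _)

lemma PV.EW_le (hp : PV p) {c : ℝ} (h : ∀ l, l.length = n → F l ≤ c) : EW p n F ≤ c :=
  (hp.EW_mono h).trans_eq (hp.EW_const n c)

lemma PV.le_EW (hp : PV p) {c : ℝ} (h : ∀ l, l.length = n → c ≤ F l) : c ≤ EW p n F :=
  (hp.EW_const n c).symm.trans_le (hp.EW_mono h)

lemma PV.sum_le (hp : PV p) {f : A → ℝ} {c : ℝ} (h : ∀ a, f a ≤ c) : ∑ a, p a * f a ≤ c :=
  (sum_le_sum fun a _ => mul_le_mul_of_nonneg_left (h a) (hp.nonneg a)).trans_eq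
    (by rw [← sum_mul, hp.one, one_mul])

lemma PV.sum_mono (hp : PV p) {f g : A → ℝ} (h : ∀ a, f a ≤ g a) :
    ∑ a, p a * f a ≤ ∑ a, p a * g a :=
  sum_le_sum fun a _ => mul_le_mul_of_nonneg_left (h a) (hp.nonneg a)

lemma EW_append (p : A → ℝ) (m n : ℕ) (F : List A → ℝ) :
    EW p (m + n) F = EW p m fun u => EW p n fun v => F (u ++ v) := by
  induction m generalizing F with
  | zero => simp [EW]
  | succ m ih => rw [Nat.add_right_comm, EW_succ, EW_succ]; simp only [ih, List.cons_append]

lemma PV.EW_take (hp : PV p) {m n : ℕ} (h : m ≤ n) (F : List A → ℝ) :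
    EW p n (fun l => F (l.take m)) = EW p m F := by
  obtain ⟨k, rfl⟩ := Nat.exists_eq_add_of_le h
  rw [EW_append]
  refine EW_congr fun u hu => ?_
  simp only [List.take_left' hu, hp.EW_const]

/-- Variance of a function with bounded differences. -/
lemma PV.var_le (hp : PV p) (n : ℕ) {c : ℝ} (F : List A → ℝ)
    (h : ∀ u a b v, |F (u ++ a :: v) - F (u ++ b :: v)| ≤ c) :
    EW p n (fun l => (F l - EW p n F) ^ 2) ≤ n * c ^ 2 := by
  induction n generalizing F with
  | zero => simp [EW]
  | succ n ih =>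
    let G : List A → ℝ := fun l => ∑ a, p a * F (a :: l)
    have hG : EW p (n + 1) F = EW p n G := by
      simp only [G, EW_sum, EW_const_mul, EW_succ]
    have h1 := ih G fun u a b v => by
      simp only [G, ← sum_sub_distrib, ← mul_sub]
      refine (abs_sum_le_sum_abs _ _).trans (le_of_eq_of_le ?_
        (hp.sum_le (f := fun d => |F (d :: (u ++ a :: v)) - F (d :: (u ++ b :: v))|)
          fun d => h (d :: u) a b v))
      exact sum_congr rfl fun d _ => by rw [abs_mul, abs_of_nonneg (hp.nonneg d)]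
    rw [hG, EW_succ]
    simp only [← EW_const_mul]
    rw [← EW_sum]
    refine (hp.EW_mono (G := fun l => (G l - EW p n G) ^ 2 + c ^ 2) fun l _ => ?_).trans ?_
    · set m := EW p n G
      have h2 : ∀ a, (F (a :: l) - G l) ^ 2 ≤ c ^ 2 := fun a => by
        have : F (a :: l) - G l = ∑ b, p b * (F (a :: l) - F (b :: l)) := by
          simp only [G, mul_sub, sum_sub_distrib, ← sum_mul, hp.one, one_mul]
        refine sq_le_sq' ?_ (this.trans_le (hp.sum_le fun b => (abs_le.1 (h [] a b l)).2))
        have h3 : ∑ b, p b * (F (b :: l) - F (a :: l)) ≤ c :=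
          hp.sum_le fun b => (abs_le.1 (h [] b a l)).2
        simp only [mul_sub, sum_sub_distrib, ← sum_mul, hp.one, one_mul] at h3
        change _ ≤ _ - ∑ b, p b * F (b :: l)
        linarith
      have h3 : ∑ a, p a * (F (a :: l) - m) ^ 2 = ∑ a, p a * (F (a :: l) - G l) ^ 2 +
          2 * (G l - m) * (∑ a, p a * F (a :: l) - G l * ∑ a, p a) + (G l - m) ^ 2 * ∑ a, p a := by
        simp only [mul_sum, ← sum_sub_distrib, ← sum_add_distrib]
        exact sum_congr rfl fun a _ => by ring
      rw [h3, hp.one, mul_one, mul_one, sub_self, mul_zero, add_zero, add_comm]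
      exact add_le_add le_rfl (hp.sum_le h2)
    · rw [EW_add, hp.EW_const]
      push_cast
      linarith

lemma ind_le_sq {x m s : ℝ} (hs : 0 < s) : ind (s ≤ |x - m|) ≤ (x - m) ^ 2 / s ^ 2 := by
  by_cases h : s ≤ |x - m|
  · rw [ind_pos h, le_div_iff₀ (by positivity), one_mul, ← sq_abs (x - m)]
    exact pow_le_pow_left₀ hs.le h 2
  · rw [ind_neg h]; positivity

/-- Chebyshev inequality for functions with bounded differences. -/
lemma PV.cheb (hp : PV p) (n : ℕ) {c s : ℝ} (hs : 0 < s) (F : List A → ℝ)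
    (h : ∀ u a b v, |F (u ++ a :: v) - F (u ++ b :: v)| ≤ c) :
    EW p n (fun l => ind (s ≤ |F l - EW p n F|)) ≤ n * c ^ 2 / s ^ 2 := by
  refine (hp.EW_mono fun l _ => ind_le_sq hs).trans ?_
  simp only [div_eq_inv_mul, EW_const_mul]
  exact mul_le_mul_of_nonneg_left (hp.var_le n F h) (by positivity)

lemma PV.EW_sum_map (hp : PV p) (n : ℕ) (f : A → ℝ) :
    EW p n (fun l => (l.map f).sum) = n * ∑ a, p a * f a := by
  induction n with
  | zero => simp [EW]
  | succ n ih =>
    simp only [EW_succ, List.map_cons, List.sum_cons, EW_add, hp.EW_const, ih, mul_add,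
      sum_add_distrib, ← sum_mul, hp.one]
    push_cast
    ring

/-- Sum of `X` over the windows of length `J` of a word. -/
noncomputable def winSum (X : List A → ℝ) (J : ℕ) : List A → ℝ
  | [] => 0
  | b :: l => X ((b :: l).take J) + winSum X J l

omit [Fintype A] in
lemma winSum_diff {X : List A → ℝ} {c : ℝ} (h0 : ∀ l, 0 ≤ X l) (hc : ∀ l, X l ≤ c) (J : ℕ)
    (u : List A) (a b : A) (v : List A) :
    |winSum X J (u ++ a :: v) - winSum X J (u ++ b :: v)| ≤ min ((u.length : ℝ) + 1) J * c + c := by
  have hd : ∀ l l', |X l - X l'| ≤ c := fun l l' => by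
    have := h0 l; have := h0 l'; have := hc l; have := hc l'
    rw [abs_le]; constructor <;> linarith
  have hc0 : 0 ≤ c := (h0 []).trans (hc [])
  induction u with
  | nil =>
    simp only [List.nil_append, winSum, add_sub_add_right_eq_sub]
    exact (hd _ _).trans (le_add_of_nonneg_left (by positivity))
  | cons d u ih =>
    simp only [List.cons_append, winSum, List.length_cons]
    rw [add_sub_add_comm]
    refine (abs_add_le _ _).trans ?_
    by_cases hJ : J ≤ u.length + 1
    · have e : ∀ w, (d :: (u ++ w)).take J = (d :: u).take J := fun w =>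
        List.take_append_of_le_length (l₁ := d :: u) hJ
      rw [e, e, sub_self, abs_zero, zero_add]
      refine ih.trans (add_le_add (mul_le_mul_of_nonneg_right (min_le_min ?_ le_rfl) hc0) le_rfl)
      push_cast; linarith
    · have h1 : ((u.length : ℝ) + 1) + 1 ≤ J := by exact_mod_cast not_le.1 hJ
      rw [min_eq_left (by linarith)] at ih
      push_cast
      rw [min_eq_left h1]
      linarith [hd ((d :: (u ++ a :: v)).take J) ((d :: (u ++ b :: v)).take J)]

lemma PV.EW_winSum (hp : PV p) {X : List A → ℝ} (h0 : ∀ l, 0 ≤ X l) (J n : ℕ) :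
    ((n : ℝ) - J) * EW p J X ≤ EW p n (winSum X J) := by
  have hA : 0 ≤ EW p J X := hp.le_EW fun l _ => h0 l
  have key : ∀ n : ℕ, max 0 (((n : ℝ) - J) * EW p J X) ≤ EW p n (winSum X J) := by
    intro n
    induction n with
    | zero =>
      refine max_le le_rfl (mul_nonpos_of_nonpos_of_nonneg ?_ hA)
      simp
    | succ n ih =>
      have e : EW p (n + 1) (winSum X J) =
          EW p (n + 1) (fun l => X (l.take J)) + EW p n (winSum X J) := by
        simp only [EW_succ, winSum, EW_add, mul_add, sum_add_distrib, ← sum_mul, hp.one, one_mul]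
      have h1 : 0 ≤ EW p (n + 1) fun l => X (l.take J) := hp.le_EW fun l _ => h0 _
      rw [e]
      rw [max_le_iff] at ih ⊢
      refine ⟨by linarith, ?_⟩
      by_cases hJ : J ≤ n + 1
      · rw [hp.EW_take hJ]
        push_cast
        linarith
      · have : ((n + 1 : ℕ) : ℝ) - J ≤ 0 := sub_nonpos.2 (by exact_mod_cast (not_le.1 hJ).le)
        nlinarith
  exact (le_max_right _ _).trans (key n)

/-- Exponential supermartingale along consecutive blocks of length `n`. The state `c` is updated
by `nx` after each block. -/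
noncomputable def chain {S : Type*} (nx : S → List A → S) (f : S → List A → ℝ) (n : ℕ) :
    ℕ → S → List A → ℝ
  | 0, _, _ => 0
  | Q + 1, c, l => f c (l.take n) + chain nx f n Q (nx c (l.take n)) (l.drop n)

lemma PV.EW_exp_chain (hp : PV p) {S : Type*} (nx : S → List A → S) (f : S → List A → ℝ) (n : ℕ)
    (hf : ∀ c, EW p n (fun l => Real.exp (f c l)) ≤ 1) (Q m : ℕ) (c : S) :
    EW p (Q * n + m) (fun l => Real.exp (chain nx f n Q c l)) ≤ 1 := by
  induction Q generalizing c with
  | zero => simp [chain, hp.EW_const]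
  | succ Q ih =>
    rw [show (Q + 1) * n + m = n + (Q * n + m) by ring, EW_append]
    refine le_trans (hp.EW_mono fun u hu => ?_) (hf c)
    simp only [chain, List.take_left' hu, List.drop_left' hu, Real.exp_add, EW_const_mul]
    exact mul_le_of_le_one_right (Real.exp_pos _).le (ih _)

end Vale.Agent.P114
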