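import Vale.Agent.P114.Ent
import Vale.Agent.P114.Words

/-! Iterated function systems with letters grouped in types of equal contraction ratio. -/

namespace Vale.Agent.P114
open Finset

/-- An iterated function system on the line whose letters are grouped in types. -/
structure Sys (A T : Type*) [Fintype A] where
  p : A → ℝ
  r : A → ℝ
  t : A → ℝ
  τ : A → T
  R : ℕ
  hp : ∀ a, 0 < p a
  hp1 : ∑ a, p a = 1
  hr0 : ∀ a, r a ≠ 0
  hr1 : ∀ a, |r a| < 1
  ht : ∀ a, |t a| ≤ R
  hτ : ∀ a b, τ a = τ b → r a = r b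

lemma exists_of_coeff_dig {A : Type*} [Fintype A] {q θ : A → ℝ} {z : ℝ}
    (h : 0 < (dig q θ).coeff z) : ∃ a, θ a = z := by
  by_contra hc
  push Not at hc
  rw [coeff_eq_E, E_dig] at h
  simp [ind_neg (hc _)] at h

lemma HB_scale {ν ν' : FD} {c : ℝ} (hc : c ≠ 0) (h : ∀ F, E ν' F = E ν fun x => F (c * x))
    (ρ : ℝ) : HB ν' (|c| * ρ) = HB ν ρ := by
  simp only [HB, bm, h, ← mul_sub, abs_mul, mul_le_mul_iff_right₀ (abs_pos.2 hc)]

namespace Sys
variable {A T : Type*} [Fintype A] (S : Sys A T)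

lemma pv : PV S.p := ⟨fun a => (S.hp a).le, S.hp1⟩

/-- Probability of the type of a letter. -/
noncomputable def Pt (b : A) : ℝ := ∑ a, S.p a * ind (S.τ a = S.τ b)

/-- Law of a letter given that its type is the type of `b`. -/
noncomputable def q (b a : A) : ℝ := S.p a * ind (S.τ a = S.τ b) / S.Pt b

lemma Pt_pos (b : A) : 0 < S.Pt b :=
  sum_pos' (fun a _ => mul_nonneg (S.hp a).le (ind_nonneg _))
    ⟨b, mem_univ _, by rw [ind_pos rfl, mul_one]; exact S.hp b⟩

lemma q_nonneg (b a : A) : 0 ≤ S.q b a :=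
  div_nonneg (mul_nonneg (S.hp a).le (ind_nonneg _)) (S.Pt_pos b).le

lemma q_sum (b : A) : ∑ a, S.q b a = 1 := by
  simp only [q, ← sum_div]; exact div_self (S.Pt_pos b).ne'

lemma sum_q (g : ℝ → A → ℝ) :
    ∑ b, S.p b * ∑ a, S.q b a * g (S.r b) a = ∑ a, S.p a * g (S.r a) a := by
  simp only [mul_sum]
  rw [sum_comm]
  refine sum_congr rfl fun a _ => ?_
  have : ∀ b, S.p b * (S.q b a * g (S.r b) a) =
      S.p b * ind (S.τ b = S.τ a) * (S.p a * g (S.r a) a / S.Pt a) := fun b => by
    by_cases h : S.τ b = S.τ a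
    · simp only [q, Pt, h, S.hτ b a h]; ring
    · simp [q, ind_neg h, ind_neg (Ne.symm h)]
  simp only [this, ← sum_mul]
  exact mul_div_cancel₀ _ (S.Pt_pos a).ne'

/-- Slope of a word. -/
def P (l : List A) : ℝ := (l.map S.r).prod

/-- Intercept of a word read backwards. -/
def I : List A → ℝ
  | [] => 0
  | b :: l => S.P l * S.t b + I l

@[simp] lemma P_nil : S.P [] = 1 := rfl
@[simp] lemma P_cons (b : A) (l : List A) : S.P (b :: l) = S.r b * S.P l := rfl
lemma P_append (u v : List A) : S.P (u ++ v) = S.P u * S.P v := by simp [P]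

lemma P_ne (l : List A) : S.P l ≠ 0 := by
  induction l with
  | nil => simp
  | cons b l ih => exact mul_ne_zero (S.hr0 b) ih

/-- Law of the normalized intercept of a word given its sequence of types. -/
noncomputable def Back : ℝ → List A → FD
  | _, [] => 1
  | c, b :: l => dig (S.q b) (fun a => c / S.r b * S.t a) * Back (c / S.r b) l

lemma digits (c : ℝ) (l : List A) : Digits A l.length (S.Back c l) := by
  induction l generalizing c with
  | nil => exact ⟨Fin.elim0, Fin.elim0, fun j => j.elim0, fun j => j.elim0, by simp [Back]⟩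
  | cons b l ih =>
    obtain ⟨q, θ, h0, h1, e⟩ := ih (c / S.r b)
    refine ⟨Fin.cons (S.q b) q, Fin.cons (fun a => c / S.r b * S.t a) θ,
      fun j => Fin.cases (S.q_nonneg b) h0 j, fun j => Fin.cases (S.q_sum b) h1 j, ?_⟩
    rw [Back, e]
    exact (Fin.prod_univ_succ fun j => dig ((Fin.cons (S.q b) q : Fin _ → A → ℝ) j)
      ((Fin.cons (fun a => c / S.r b * S.t a) θ : Fin _ → A → ℝ) j)).symm

lemma prob (c : ℝ) (l : List A) : Prob (S.Back c l) := (S.digits c l).prob

lemma prob_dg (b : A) (θ : A → ℝ) : Prob (dig (S.q b) θ) := prob_dig (S.q_nonneg b) (S.q_sum b) θ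

lemma Back_scale (c' c : ℝ) (l : List A) (F : ℝ → ℝ) :
    E (S.Back (c' * c) l) F = E (S.Back c l) fun x => F (c' * x) := by
  induction l generalizing c F with
  | nil => simp [Back, E_one]
  | cons b l ih => simp only [Back, E_mul, E_dig, mul_div_assoc, ih, mul_add, mul_assoc]

lemma Back_append (c : ℝ) (u v : List A) :
    S.Back c (u ++ v) = S.Back c u * S.Back (c / S.P u) v := by
  induction u generalizing c with
  | nil => simp [Back]
  | cons b u ih => simp only [List.cons_append, Back, ih, P_cons, div_div, mul_assoc]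

lemma HB_Back {c : ℝ} (hc : c ≠ 0) (l : List A) (ρ : ℝ) :
    HB (S.Back c l) (|c| * ρ) = HB (S.Back 1 l) ρ :=
  HB_scale hc (fun F => by rw [← S.Back_scale, mul_one]) ρ

lemma exists_kap (b : A) : ∃ k : ℕ, 2 ^ k ≤ |S.r b|⁻¹ ∧ |S.r b|⁻¹ < 2 ^ (k + 1) :=
  exists_nat_pow_near ((one_le_inv₀ (abs_pos.2 (S.hr0 b))).2 (S.hr1 b).le) one_lt_two

/-- Number of dyadic levels in the contraction of a letter. -/
noncomputable def kap (b : A) : ℕ := (S.exists_kap b).choose

/-- The multiplier after removing the first letter. -/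
noncomputable def cb (b : A) : ℝ := 1 / 2 ^ S.kap b / S.r b

lemma cb_bounds (b : A) : 1 ≤ |S.cb b| ∧ |S.cb b| ≤ 2 := by
  obtain ⟨h1, h2⟩ := (S.exists_kap b).choose_spec
  have e : |S.cb b| = |S.r b|⁻¹ / 2 ^ S.kap b := by
    rw [cb, abs_div, abs_of_pos (by positivity)]; ring
  rw [e, le_div_iff₀ (by positivity), div_le_iff₀ (by positivity), one_mul, ← pow_succ']
  exact ⟨h1, h2.le⟩

lemma le_kap (b : A) : -Real.log |S.r b| - Real.log 2 ≤ S.kap b * Real.log 2 := by
  have h := Real.log_le_log (inv_pos.2 (abs_pos.2 (S.hr0 b))) (S.exists_kap b).choose_spec.2.le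
  rw [Real.log_inv, Real.log_pow] at h
  push_cast at h
  change _ ≤ ((S.kap b : ℝ) + 1) * _ at h
  linarith

/-- Entropy in the window of scales of the last letter. -/
noncomputable def X : List A → ℝ
  | [] => 0
  | b :: l => Gap (S.kap b) (S.Back (1 / 2 ^ S.kap b) (b :: l))

/-- Entropy at the natural scale. -/
noncomputable def B (l : List A) : ℝ := HB (S.Back 1 l) 1

lemma B_nil : S.B [] = 0 := by simp [B, Back, HB, bm, E_one, ind]

lemma B_step (b : A) (l : List A) : |S.B (b :: l) - S.B l - S.X (b :: l)| ≤ 8 * S.R + 6 := by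
  set ν := S.Back (1 / 2 ^ S.kap b) (b :: l)
  have hν : Prob ν := S.prob _ _
  have hν' := S.prob (S.cb b) l
  obtain ⟨c1, c2⟩ := S.cb_bounds b
  have e1 : S.B (b :: l) = HB ν (1 / 2 ^ S.kap b) := by
    rw [B, ← S.HB_Back (c := 1 / 2 ^ S.kap b) (by positivity), abs_of_pos (by positivity), mul_one]
  have e2 : S.B l = HB (S.Back (S.cb b) l) |S.cb b| := by
    rw [B, ← S.HB_Back (c := S.cb b) (abs_pos.1 (by linarith)), mul_one]
  have hs : ∀ z, 0 < (dig (S.q b) fun a => S.cb b * S.t a).coeff z → |z| ≤ 2 * S.R := fun z hz => by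
    obtain ⟨a, rfl⟩ := exists_of_coeff_dig hz
    rw [abs_mul]
    exact mul_le_mul c2 (S.ht a) (abs_nonneg _) zero_le_two
  have h1 := Gap_le hν (S.kap b)
  have h2 := le_Gap hν (S.kap b)
  have h3 := HB_comp hν one_pos (2 + 4 * S.R)
  have h4 : HB ν (2 + 2 * (2 * S.R)) ≤ _ := HB_mul_le hν' (S.prob_dg b _) zero_le_two hs
  have h5 := HB_anti hν'.pos (abs_nonneg _) c2
  have h6 : _ ≤ HB ν 1 := HB_le_mul hν' (S.prob_dg b _) zero_le_one hs
  have h7 := HB_comp hν' one_pos (1 + 4 * S.R)
  have h8 := HB_anti hν'.pos zero_le_one c1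
  push_cast at h3 h7
  rw [mul_one, show (4 : ℝ) * S.R = 2 * (2 * S.R) by ring] at h3 h7
  rw [e1, e2, X, abs_le]
  constructor <;> linarith

lemma X_nonneg (l : List A) : 0 ≤ S.X l := by
  cases l with
  | nil => exact le_rfl
  | cons b l => exact Gap_nonneg (S.prob _ _).pos _

lemma exists_X_le : ∃ c, ∀ l, S.X l ≤ c := by
  refine ⟨∑ b, (2 ^ (S.kap b + 1) + 2), fun l => ?_⟩
  cases l with
  | nil => exact sum_nonneg fun _ _ => by positivity
  | cons b l =>
    exact (Gap_le_pow (S.prob _ _) _).trans (single_le_sum (f := fun b => (2 : ℝ) ^ (S.kap b + 1) + 2)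
      (fun _ _ => by positivity) (mem_univ b))

lemma X_take_le (J : ℕ) (l : List A) : S.X (l.take J) ≤ S.X l := by
  cases l with
  | nil => simp
  | cons b l =>
    cases J with
    | zero => exact S.X_nonneg _
    | succ J =>
      rw [List.take_succ_cons, X, X]
      conv_rhs => rw [← List.take_append_drop J l, ← List.cons_append, Back_append, mul_comm]
      exact Gap_mono (S.prob _ _) (S.prob _ _) _

lemma le_X (b : A) (l : List A) : Gap (S.kap b) (S.Back (S.cb b) l) ≤ S.X (b :: l) :=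
  Gap_mono (S.prob_dg b _) (S.prob _ _) _

lemma winSum_le_B (J : ℕ) (l : List A) : winSum S.X J l - (8 * S.R + 6) * l.length ≤ S.B l := by
  induction l with
  | nil => simp [winSum, B_nil]
  | cons b l ih =>
    have h1 := (abs_le.1 (S.B_step b l)).1
    have h2 := S.X_take_le J (b :: l)
    rw [winSum, List.length_cons]
    push_cast
    linarith

lemma EW_B_le {β : ℝ} (h : ∀ J, EW S.p (J + 1) S.X ≤ β) (n : ℕ) :
    EW S.p n S.B ≤ n * (β + (8 * S.R + 6)) := by
  induction n with
  | zero => simp [EW, B_nil]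
  | succ n ih =>
    have h1 : EW S.p (n + 1) S.B ≤ EW S.p (n + 1) S.X + (EW S.p n S.B + (8 * S.R + 6)) := by
      simp only [EW_succ]
      rw [← sub_le_iff_le_add', ← sum_sub_distrib]
      simp only [← mul_sub, ← EW_sub]
      refine S.pv.sum_le fun b => ?_
      rw [← S.pv.EW_const n (8 * S.R + 6), ← EW_add]
      exact S.pv.EW_mono fun l _ => by linarith [(abs_le.1 (S.B_step b l)).2]
    push_cast
    linarith [h n]

/-- Disintegration of a random word along its sequence of types. -/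
lemma EW_disint (n : ℕ) (G : ℝ → ℝ → ℝ) : EW S.p n (fun w => G (S.P w) (S.I w)) =
    EW S.p n fun ω => E (S.Back (S.P ω) ω) (G (S.P ω)) := by
  induction n generalizing G with
  | zero => simp [EW, Back, I, E_one]
  | succ n ih =>
    simp only [EW_succ, P_cons, I, Back, mul_div_cancel_left₀ _ (S.hr0 _), E_mul, E_dig, EW_sum,
      EW_const_mul]
    rw [S.sum_q fun ρ a => EW S.p n fun l => E (S.Back (S.P l) l) fun y =>
      G (ρ * S.P l) (S.P l * S.t a + y)]
    exact sum_congr rfl fun a _ => congrArg _ (ih fun ρ y => G (S.r a * ρ) (ρ * S.t a + y))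

lemma dom (ω : List A) (G : ℝ → ℝ → ℝ) (hG : ∀ ρ x, 0 ≤ G ρ x) :
    (ω.map S.Pt).prod * E (S.Back (S.P ω) ω) (G (S.P ω)) ≤
      EW S.p ω.length fun w => G (S.P w) (S.I w) := by
  induction ω generalizing G with
  | nil => simp [EW, Back, I, E_one]
  | cons b l ih =>
    simp only [List.length_cons, EW_succ, P_cons, I, Back, mul_div_cancel_left₀ _ (S.hr0 _), E_mul,
      E_dig, List.map_cons, List.prod_cons, mul_sum]
    refine sum_le_sum fun a _ => ?_
    have := ih (fun ρ y => G (S.r a * ρ) (ρ * S.t a + y)) fun _ _ => hG _ _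
    by_cases h : S.τ a = S.τ b
    · rw [← S.hτ a b h, q, ind_pos h, mul_one]
      refine le_of_eq_of_le ?_ (mul_le_mul_of_nonneg_left this (S.hp a).le)
      field_simp [(S.Pt_pos b).ne']
    · rw [q, ind_neg h, mul_zero, zero_div, zero_mul, mul_zero]
      exact mul_nonneg (S.hp a).le (S.pv.le_EW fun _ _ => hG _ _)

lemma type_entropy [Fintype T] :
    ∑ a, S.p a * -Real.log (S.Pt a) ≤ Real.log (Fintype.card T) := by
  obtain ⟨a₀, -⟩ : (univ : Finset A).Nonempty :=
    nonempty_of_sum_ne_zero (S.hp1.trans_ne one_ne_zero)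
  have hN : (0 : ℝ) < Fintype.card T := by exact_mod_cast Fintype.card_pos_iff.2 ⟨S.τ a₀⟩
  have h1 : ∑ a, S.p a * (S.Pt a)⁻¹ ≤ Fintype.card T := by
    calc _ = ∑ a, ∑ y, S.p a * ind (S.τ a = y) / ∑ b, S.p b * ind (S.τ b = y) :=
          sum_congr rfl fun a _ => by
            rw [sum_eq_single (S.τ a) (fun y _ hy => by simp [ind_neg hy.symm]) (by simp),
              ind_pos rfl, mul_one, div_eq_mul_inv, Pt]
      _ ≤ ∑ _y : T, (1 : ℝ) := by
          rw [sum_comm]
          exact sum_le_sum fun y _ => by rw [← sum_div]; exact div_self_le_one _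
      _ = _ := by simp
  refine (S.pv.sum_mono (g := fun a => Real.log (Fintype.card T) - 1 +
    (Fintype.card T : ℝ)⁻¹ * (S.Pt a)⁻¹) fun a => ?_).trans ?_
  · have := log_sub_log_le (inv_pos.2 (S.Pt_pos a)) hN
    rw [Real.log_inv, div_eq_inv_mul] at this
    linarith
  · simp only [mul_add, sum_add_distrib, ← sum_mul, S.hp1, mul_left_comm (S.p _), ← mul_sum]
    have := mul_le_mul_of_nonneg_left h1 (inv_pos.2 hN).le
    rw [inv_mul_cancel₀ hN.ne'] at this
    linarith

/-- Entropy of the random affine map given by a word of length `n`. -/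
noncomputable def HG (n : ℕ) : ℝ :=
  EW S.p n fun w => -Real.log (EW S.p n fun w' => ind (S.P w' = S.P w ∧ S.I w' = S.I w))

lemma log_prod_Pt (ω : List A) :
    0 < (ω.map S.Pt).prod ∧ -Real.log (ω.map S.Pt).prod = (ω.map fun a => -Real.log (S.Pt a)).sum := by
  induction ω with
  | nil => simp
  | cons b l ih =>
    simp only [List.map_cons, List.prod_cons, List.sum_cons]
    rw [Real.log_mul (S.Pt_pos b).ne' ih.1.ne', ← ih.2]
    exact ⟨mul_pos (S.Pt_pos b) ih.1, by ring⟩

lemma HG_le [Fintype T] (n : ℕ) :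
    S.HG n ≤ n * Real.log (Fintype.card T) + EW S.p n fun l => HB (S.Back 1 l) 0 := by
  rw [HG, S.EW_disint n fun ρ x => -Real.log (EW S.p n fun w' => ind (S.P w' = ρ ∧ S.I w' = x))]
  refine le_trans ?_ (add_le_add (mul_le_mul_of_nonneg_left S.type_entropy n.cast_nonneg) le_rfl)
  rw [← S.pv.EW_sum_map, ← EW_add]
  refine S.pv.EW_mono fun ω hω => ?_
  obtain ⟨h1, h2⟩ := S.log_prod_Pt ω
  have hν := S.prob (S.P ω) ω
  rw [← h2, ← S.HB_Back (S.P_ne ω), mul_zero, HB, ← hν.E_const (-Real.log _), ← E_add]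
  refine E_mono' hν.pos fun x hx => ?_
  have h3 := bm_pos hν.pos le_rfl hx
  rw [← neg_add, ← Real.log_mul h1.ne' h3.ne']
  refine neg_le_neg (Real.log_le_log (mul_pos h1 h3) (le_of_eq_of_le ?_
    (hω ▸ S.dom ω (fun ρ y => ind (ρ = S.P ω ∧ y = x)) fun _ _ => ind_nonneg _)))
  simp [bm, sub_eq_zero]

end Sys
end Vale.Agent.P114
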